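import Vale.Agent.Lib.P064Q.Classes

/-!
Part CH1: chords and the number of vertices (notes/P064Q_blueprint.md).
-/

open Finset

namespace Vale.Agent.Lib.P064Q

open Vale.Agent.Lib.P064 Vale.Agent.Lib.P064E Vale.Agent.Lib.P064U
open scoped Classical

variable {V β : Type} [Fintype V] [Fintype β] {H : SimpleGraph V} {n : ℕ} {q l lam : ℝ}

/-- `Σ_y (inn y - δ y) lam ≤ 2 (v l - e lam)`: with `T = eIn H (image φ)`, `Σ inn = 2 |T|`, `Σ δ = 2 e`, `|T| lam ≤ v l` by `density_log` (as in `chord_bound`, Lib/P064U/WChord.lean). -/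
theorem chord_sum (hG : GoodDensity n q H) (hs : Std n q l lam) (G : SimpleGraph β) {φ : β → V}
    (hφ : φ ∈ emb G H) :
    ((∑ y, (((nb H (φ y)) ∩ univ.image φ).card - (nb G y).card) : ℕ) : ℝ) * lam ≤
      2 * ((Fintype.card β : ℝ) * l - ((eIn G univ).card : ℝ) * lam) := by
  obtain ⟨hinj, hhom⟩ := mem_emb.1 hφ
  set Im : Finset V := univ.image φ with hIm
  set T : Finset (Sym2 V) := eIn H Im with hT
  set EG : Finset (Sym2 V) := (eIn G univ).image (Sym2.map φ) with hEG
  have hEGsub : EG ⊆ T := by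
    intro e he
    obtain ⟨e', he', rfl⟩ := Finset.mem_image.1 he
    induction e' using Sym2.ind with
    | _ a b =>
      have hab := (mem_eIn_pair.1 he').1
      rw [Sym2.map_mk]
      exact mem_eIn_pair.2 ⟨hhom a b hab, Finset.mem_image_of_mem _ (mem_univ _),
        Finset.mem_image_of_mem _ (mem_univ _)⟩
  have hEGcard : EG.card = (eIn G univ).card :=
    Finset.card_image_of_injective _ (Sym2.map.injective hinj)
  set D : Finset (Sym2 V) := T \ EG with hD
  have hDcard : (D.card : ℝ) = (T.card : ℝ) - (EG.card : ℝ) := by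
    rw [hD, Finset.card_sdiff_of_subset hEGsub, Nat.cast_sub (Finset.card_le_card hEGsub)]
  have hTedge : ∀ e ∈ T, e ∈ H.edgeSet := by
    intro e he
    exact (Finset.mem_filter.1 he).2.1
  have hdens := density_log hG hs T hTedge
  have hvs : (vs T).card ≤ Fintype.card β := by
    have h1 : vs T ⊆ Im := by
      intro w hw
      obtain ⟨e, he, hwe⟩ := Finset.mem_biUnion.1 hw
      exact (Finset.mem_filter.1 he).2.2 w (Sym2.mem_toFinset.1 hwe)
    calc (vs T).card ≤ Im.card := Finset.card_le_card h1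
      _ ≤ (univ : Finset β).card := Finset.card_image_le
      _ = Fintype.card β := Finset.card_univ
  have hl : 0 ≤ l := by linarith [hs.l1]
  have hlam : 0 ≤ lam := by linarith [hs.lam1]
  have h1 : (T.card : ℝ) * lam ≤ (Fintype.card β : ℝ) * l := by
    refine hdens.trans (mul_le_mul_of_nonneg_right ?_ hl)
    exact_mod_cast hvs
  -- the chords at a vertex
  have hcount : ∀ x : β, ((nb H (φ x)) ∩ Im).card - (nb G x).card ≤
      (D.filter (fun e => φ x ∈ e)).card := by
    intro x
    set N : Finset V := (nb H (φ x)) ∩ Im with hN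
    set M : Finset V := (nb G x).image φ with hM
    have hMcard : M.card ≤ (nb G x).card := Finset.card_image_le
    have h2 : N.card ≤ (N \ M).card + M.card := by
      have := Finset.card_le_card_sdiff_add_card (s := N) (t := M)
      omega
    have h3 : (N \ M).card ≤ (D.filter (fun e => φ x ∈ e)).card := by
      refine Finset.card_le_card_of_injOn (fun w => s(φ x, w)) ?_ ?_
      · intro w hw
        have hw' := Finset.mem_sdiff.1 hw
        have hwN := Finset.mem_inter.1 hw'.1
        have hadj : H.Adj (φ x) w := mem_nb.1 hwN.1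
        refine Finset.mem_filter.2 ⟨Finset.mem_sdiff.2 ⟨?_, ?_⟩, Sym2.mem_mk_left _ _⟩
        · exact mem_eIn_pair.2 ⟨hadj, Finset.mem_image_of_mem _ (mem_univ _), hwN.2⟩
        · intro hE
          obtain ⟨e', he', hee⟩ := Finset.mem_image.1 hE
          induction e' using Sym2.ind with
          | _ a b =>
            have hab := (mem_eIn_pair.1 he').1
            rw [Sym2.map_mk] at hee
            rcases Sym2.eq_iff.1 hee with ⟨h4, h5⟩ | ⟨h4, h5⟩
            · have h6 : a = x := hinj h4
              subst h6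
              exact hw'.2 (by
                rw [hM]
                exact Finset.mem_image.2 ⟨b, mem_nb.2 hab, h5⟩)
            · have h6 : b = x := hinj h5
              subst h6
              exact hw'.2 (by
                rw [hM]
                exact Finset.mem_image.2 ⟨a, mem_nb.2 hab.symm, h4⟩)
      · intro w _ w' _ hww
        exact (Sym2.congr_right.1 hww)
    omega
  -- double counting
  have hdouble : ∑ x : β, (D.filter (fun e => φ x ∈ e)).card ≤ 2 * D.card := by
    have h2 : ∑ x : β, (D.filter (fun e => φ x ∈ e)).card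
        = ∑ e ∈ D, ((univ : Finset β).filter (fun x => φ x ∈ e)).card := by
      simp only [Finset.card_filter]
      rw [Finset.sum_comm]
    rw [h2]
    calc ∑ e ∈ D, ((univ : Finset β).filter (fun x => φ x ∈ e)).card ≤ ∑ _e ∈ D, 2 := by
          refine Finset.sum_le_sum ?_
          intro e _
          induction e using Sym2.ind with
          | _ a b =>
            have h3 : ((univ : Finset β).filter (fun x => φ x ∈ s(a, b))).card ≤
                ({a, b} : Finset V).card := by
              refine Finset.card_le_card_of_injOn φ ?_ hinj.injOn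
              intro x hx
              have := (Finset.mem_filter.1 hx).2
              simpa using Sym2.mem_iff.1 this
            exact h3.trans Finset.card_le_two
      _ = 2 * D.card := by simp [mul_comm]
  have h7 : ∑ y, (((nb H (φ y)) ∩ Im).card - (nb G y).card) ≤ 2 * D.card :=
    (Finset.sum_le_sum fun x _ => hcount x).trans hdouble
  have h8 : ((∑ y, (((nb H (φ y)) ∩ Im).card - (nb G y).card) : ℕ) : ℝ) ≤ 2 * (D.card : ℝ) := by
    exact_mod_cast h7
  have h10 := mul_le_mul_of_nonneg_right h8 hlam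
  have h11 : (EG.card : ℝ) = ((eIn G univ).card : ℝ) := by exact_mod_cast hEGcard
  rw [hDcard, h11] at h10
  nlinarith

/-- A spanning tree has `v - 1` distinct edges, so `v ≤ e + 1`. -/
theorem v_le_e_add_one {G : SimpleGraph β} {z : β} {par : β → β} {r : β → ℕ} (hT : RootedT G z par r) :
    Fintype.card β ≤ (eIn G univ).card + 1 := by
  have h1 : (univ.erase z).card ≤ (eIn G univ).card := by
    refine Finset.card_le_card_of_injOn (fun v => s(par v, v)) ?_ ?_
    · intro v hv
      have hv' : v ≠ z := (Finset.mem_erase.1 hv).1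
      exact mem_eIn_pair.2 ⟨(hT.hpar v hv').2, mem_univ _, mem_univ _⟩
    · intro v hv w hw hvw
      have hv' : v ≠ z := (Finset.mem_erase.1 (Finset.mem_coe.1 hv)).1
      have hw' : w ≠ z := (Finset.mem_erase.1 (Finset.mem_coe.1 hw)).1
      rcases Sym2.eq_iff.1 hvw with ⟨_, h5⟩ | ⟨h4, h5⟩
      · exact h5
      · exfalso
        have h6 := (hT.hpar v hv').1
        have h7 := (hT.hpar w hw').1
        rw [h4] at h6
        rw [← h5] at h7
        omega
  have h2 : (univ.erase z).card = Fintype.card β - 1 := by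
    rw [Finset.card_erase_of_mem (mem_univ _), Finset.card_univ]
  omega

/-- The chord heavy vertices (class `Sum.inl 2`, a set `Ch`) cost little: `∏_Ch (2 Δ)^(ct y) ≤ exp v`.
`ct y ≤ δ y ≤ inn y - δ y` (spec (4)); `X = Σ_Ch (inn - δ)`.  `chord_sum` and `v ≤ e + 1`: `X lam ≤ 2 (v (l - lam) + lam)`.  If `Ch` is nonempty, `X ≥ 512`, so `X lam ≤ 4 v (l - lam)`;
`X log (2 Δ) ≤ X log (8 Δ) ≤ v` by `N7`. -/
theorem ch_budget (hG : GoodDensity n q H) {Δ A₁ : ℝ} {s₁ I : ℕ} (hV : Fintype.card V ≤ n)
    (hp : QPar n q l lam Δ A₁ s₁ I) {G : SimpleGraph β} {φ : β → V} (hφ : φ ∈ emb G H)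
    {z : β} {par : β → β} {r : β → ℕ} (hT : RootedT G z par r) :
    ∏ y ∈ univ.filter (fun y => classOf G H A₁ I φ y = Sum.inl 2), (2 * Δ) ^ ct z par y ≤
      Real.exp (Fintype.card β) := by
  set Ch := univ.filter (fun y => classOf G H A₁ I φ y = Sum.inl 2) with hCh
  have hs := hp.std
  have hl1 : 1 ≤ l := hs.l1
  have hlam1 : 1 ≤ lam := hs.lam1
  have hlaml : lam ≤ l := hs.lam_le
  have hD1 := hp.D1
  have hΔ : 1 ≤ Δ := by
    have h1 := hp.Δdeg
    have h2 : (1:ℝ) ≤ Real.exp 2 := Real.one_le_exp (by norm_num)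
    nlinarith
  have hv0 : (0:ℝ) ≤ (Fintype.card β : ℝ) := Nat.cast_nonneg _
  rcases Ch.eq_empty_or_nonempty with hE | hNE
  · rw [hE, Finset.prod_empty]
    exact Real.one_le_exp hv0
  set x : β → ℕ := fun y => ((nb H (φ y)) ∩ univ.image φ).card - (nb G y).card with hx
  have hspec : ∀ y ∈ Ch, ct z par y ≤ x y ∧ 512 ≤ x y := by
    intro y hy
    have hcl : classOf G H A₁ I φ y = Sum.inl 2 := (Finset.mem_filter.1 hy).2
    obtain ⟨h2, h3⟩ := (classOf_spec hG hV hp G hφ y).2.2.2 hcl
    have hct : ct z par y ≤ (nb G y).card := by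
      unfold ct
      refine Finset.card_le_card ?_
      intro u hu
      have hu' := (Finset.mem_filter.1 hu).2
      have hu1 := hu'.1
      have hu2 := hu'.2
      have := (hT.hpar u hu1).2
      rw [hu2] at this
      exact mem_nb.2 this
    simp only [hx]
    omega
  set X : ℕ := ∑ y ∈ Ch, x y with hX
  have hXle : X ≤ ∑ y, x y := Finset.sum_le_sum_of_subset (Finset.subset_univ _)
  have hchord := chord_sum hG hs G hφ
  have hXle' : (X : ℝ) ≤ ((∑ y, x y : ℕ) : ℝ) := by exact_mod_cast hXle
  have hlam0 : 0 ≤ lam := by linarith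
  have h1 : (X : ℝ) * lam ≤ 2 * ((Fintype.card β : ℝ) * l - ((eIn G univ).card : ℝ) * lam) :=
    (mul_le_mul_of_nonneg_right hXle' hlam0).trans hchord
  have hve : ((Fintype.card β : ℝ)) ≤ ((eIn G univ).card : ℝ) + 1 := by
    exact_mod_cast v_le_e_add_one hT
  have h2 : (X : ℝ) * lam ≤ 2 * ((Fintype.card β : ℝ) * (l - lam) + lam) := by
    nlinarith
  have hX512 : (512 : ℝ) ≤ X := by
    obtain ⟨y, hy⟩ := hNE
    have h3 : x y ≤ X := Finset.single_le_sum (f := x) (fun i _ => Nat.zero_le _) hy
    have h4 := (hspec y hy).2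
    exact_mod_cast h4.trans h3
  have hlv : 0 ≤ (Fintype.card β : ℝ) * (l - lam) := mul_nonneg hv0 (by linarith)
  have h3 : (X : ℝ) * lam ≤ 4 * ((Fintype.card β : ℝ) * (l - lam)) := by
    nlinarith
  have hlog : 0 ≤ Real.log (8 * Δ) := Real.log_nonneg (by linarith)
  have hN7 := hp.N7
  have h4 : (X : ℝ) * Real.log (8 * Δ) ≤ (Fintype.card β : ℝ) := by
    have h5 : (X : ℝ) * Real.log (8 * Δ) * lam ≤ (Fintype.card β : ℝ) * lam := by
      calc (X : ℝ) * Real.log (8 * Δ) * lam = ((X : ℝ) * lam) * Real.log (8 * Δ) := by ring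
        _ ≤ (4 * ((Fintype.card β : ℝ) * (l - lam))) * Real.log (8 * Δ) :=
            mul_le_mul_of_nonneg_right h3 hlog
        _ = (Fintype.card β : ℝ) * (4 * (l - lam) * Real.log (8 * Δ)) := by ring
        _ ≤ (Fintype.card β : ℝ) * lam := mul_le_mul_of_nonneg_left hN7 hv0
    exact le_of_mul_le_mul_right h5 (by linarith)
  have h8Δ : (0:ℝ) < 8 * Δ := by linarith
  calc ∏ y ∈ Ch, (2 * Δ) ^ ct z par y ≤ ∏ y ∈ Ch, (8 * Δ) ^ x y := by
        refine Finset.prod_le_prod (fun y _ => by positivity) fun y hy => ?_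
        calc (2 * Δ) ^ ct z par y ≤ (8 * Δ) ^ ct z par y :=
              pow_le_pow_left₀ (by positivity) (by linarith) _
          _ ≤ (8 * Δ) ^ x y := pow_le_pow_right₀ (by linarith) (hspec y hy).1
    _ = (8 * Δ) ^ X := Finset.prod_pow_eq_pow_sum _ _ _
    _ = Real.exp ((X : ℝ) * Real.log (8 * Δ)) := by
        rw [Real.exp_nat_mul, Real.exp_log h8Δ]
    _ ≤ Real.exp (Fintype.card β) := Real.exp_le_exp.2 h4

end Vale.Agent.Lib.P064Q
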