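import Vale.Agent.Lib.P064U.WCopies

/-!
Pairwise disjoint copies of a graph with a group of automorphisms (notes/P064Q_blueprint.md, part CG).
-/

open Finset

namespace Vale.Agent.Lib.P064Q

open Vale.Agent.Lib.P064 Vale.Agent.Lib.P064E Vale.Agent.Lib.P064U
open scoped Classical

variable {V : Type} {H : SimpleGraph V} {n : ℕ} {q : ℝ}

/-- The action of the wreath product on the disjoint union. -/
def copiesIsoG {γ I : Type} (W : SimpleGraph γ) (Γ : Subgroup (Equiv.Perm γ))
    (hΓ : ∀ σ ∈ Γ, ∀ a b, W.Adj a b → W.Adj (σ a) (σ b))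
    (g : Equiv.Perm I × (I → Γ)) :
    copiesGraph W I ≃g copiesGraph W I where
  toEquiv := Equiv.prodShear g.1 (fun i => ((g.2 i).1 : Equiv.Perm γ))
  map_rel_iff' := by
    rintro ⟨i, a⟩ ⟨j, b⟩
    constructor
    · rintro ⟨h1, h2⟩
      have hij : i = j := g.1.injective h1
      subst hij
      refine ⟨rfl, ?_⟩
      have h3 := hΓ _ (Γ.inv_mem (g.2 i).2) _ _ h2
      simpa using h3
    · rintro ⟨h1, h2⟩
      have hij : i = j := h1
      subst hij
      exact ⟨rfl, hΓ _ (g.2 i).2 _ _ h2⟩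

/-- `h` pairwise disjoint copies of `W` in `H`, `Γ` a group of automorphisms of `W`: `h |Γ| ≤ e n^|γ| q^e(W)`.
Proof: exactly `copies_factorial` of Lib/P064U/WCopies.lean with the group `Perm (Fin h) × (Fin h → Γ)` in place of
`Perm I × (I → {σ // c ∘ σ = c})` (adjacency in `W` is preserved both ways since `Γ` is a group), then
`card_mul_le_of_factorial`. -/
theorem copies_group_bound {γ : Type} [Fintype γ] (hG : GoodDensity n q H) (hq0 : 0 < q) (hq1 : q ≤ 1)
    (W : SimpleGraph γ) (hW : W.edgeSet.Nonempty) (Γ : Subgroup (Equiv.Perm γ))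
    (hΓ : ∀ σ ∈ Γ, ∀ a b, W.Adj a b → W.Adj (σ a) (σ b))
    {h : ℕ} (hh : 1 ≤ h) (ψ : Fin h → γ → V) (hinj : ∀ i, Function.Injective (ψ i))
    (hhom : ∀ i a b, W.Adj a b → H.Adj (ψ i a) (ψ i b))
    (hdis : ∀ i j, i ≠ j → ∀ a b, ψ i a ≠ ψ j b) :
    (h : ℝ) * (Nat.card Γ : ℝ) ≤
      Real.exp 1 * ((n : ℝ) ^ Fintype.card γ * q ^ W.edgeSet.ncard) := by
  classical
  haveI : Fintype Γ := Fintype.ofFinite _
  haveI : Nonempty (Fin h) := ⟨⟨0, hh⟩⟩
  set R : ℝ := (n : ℝ) ^ Fintype.card γ * q ^ W.edgeSet.ncard with hR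
  have hR0 : 0 ≤ R := by positivity
  have hf : ((h.factorial : ℕ) : ℝ) * ((Nat.card Γ : ℕ) : ℝ) ^ h ≤ R ^ h := by
    set U := copiesGraph W (Fin h) with hU
    have hcopy : Nonempty (U.Copy H) := by
      refine ⟨⟨⟨fun x => ψ x.1 x.2, ?_⟩, ?_⟩⟩
      · rintro ⟨i, a⟩ ⟨j, b⟩ ⟨h1, h2⟩
        have hij : i = j := h1
        subst hij
        exact hhom i a b h2
      · rintro ⟨i, a⟩ ⟨j, b⟩ hx
        by_cases hij : i = j
        · subst hij
          have : a = b := hinj i hx
          rw [this]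
        · exact absurd hx (hdis i j hij a b)
    have hedges := copies_edges (I := Fin h) W
    have hIpos : 0 < Fintype.card (Fin h) := Fintype.card_pos
    have hWpos : 0 < W.edgeSet.ncard := (Set.ncard_pos (Set.toFinite _)).2 hW
    have hne : U.edgeSet.Nonempty := by
      apply Set.nonempty_of_ncard_ne_zero
      have h3 := Nat.mul_pos hIpos hWpos
      have h4 : 0 < U.edgeSet.ncard := lt_of_lt_of_le h3 hedges
      exact h4.ne'
    have h1 := hG (Fin h × γ) U hcopy hne
    have h2 := copyCount_mul_card_le (Γ := Equiv.Perm (Fin h) × (Fin h → Γ))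
      n U (copiesIsoG W Γ hΓ) ?_
    · have hcardΓ : Fintype.card (Equiv.Perm (Fin h) × (Fin h → Γ)) =
          h.factorial * (Nat.card Γ) ^ h := by
        rw [Fintype.card_prod, Fintype.card_perm, Fintype.card_fun, Nat.card_eq_fintype_card]
        simp
      rw [hcardΓ, Fintype.card_prod] at h2
      have h3 : ((⊤ : SimpleGraph (Fin n)).copyCount U : ℝ) *
          ((h.factorial : ℝ) * ((Nat.card Γ : ℕ) : ℝ) ^ h)
          ≤ (n : ℝ) ^ (h * Fintype.card γ) := by
        have h2' := h2
        simp only [Fintype.card_fin] at h2'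
        exact_mod_cast h2'
      have hedges' : h * W.edgeSet.ncard ≤ U.edgeSet.ncard := by
        simpa using hedges
      have h5 : q ^ U.edgeSet.ncard ≤ q ^ (h * W.edgeSet.ncard) :=
        pow_le_pow_of_le_one hq0.le hq1 hedges'
      set Y : ℝ := (h.factorial : ℝ) * ((Nat.card Γ : ℕ) : ℝ) ^ h with hY
      have hY0 : 0 ≤ Y := by positivity
      have hcop : (0 : ℝ) ≤ ((⊤ : SimpleGraph (Fin n)).copyCount U : ℝ) := Nat.cast_nonneg _
      calc Y = 1 * Y := (one_mul _).symm
        _ ≤ (((⊤ : SimpleGraph (Fin n)).copyCount U : ℝ) * q ^ U.edgeSet.ncard) * Y :=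
            mul_le_mul_of_nonneg_right h1 hY0
        _ ≤ (((⊤ : SimpleGraph (Fin n)).copyCount U : ℝ) *
              q ^ (h * W.edgeSet.ncard)) * Y := by gcongr
        _ = (((⊤ : SimpleGraph (Fin n)).copyCount U : ℝ) * Y) *
              q ^ (h * W.edgeSet.ncard) := by ring
        _ ≤ (n : ℝ) ^ (h * Fintype.card γ) *
              q ^ (h * W.edgeSet.ncard) :=
            mul_le_mul_of_nonneg_right h3 (by positivity)
        _ = R ^ h := by
            rw [hR, mul_pow, ← pow_mul, ← pow_mul]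
            ring_nf
    · rintro ⟨π, s⟩ ⟨π', s'⟩ hh'
      have hpi : ∀ x : Fin h × γ, Equiv.prodShear π (fun i => ((s i).1 : Equiv.Perm γ)) x =
          Equiv.prodShear π' (fun i => ((s' i).1 : Equiv.Perm γ)) x := hh'
      obtain ⟨e, he⟩ := hW
      obtain ⟨a₀⟩ : Nonempty γ := by
        induction e using Sym2.ind with
        | _ a b => exact ⟨a⟩
      have h1 : π = π' := by
        ext i
        have := hpi (i, a₀)
        simp only [Equiv.prodShear_apply, Prod.mk.injEq] at this
        rw [this.1]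
      have h2 : s = s' := by
        funext i
        apply Subtype.ext
        ext a
        have := hpi (i, a)
        simp only [Equiv.prodShear_apply, Prod.mk.injEq] at this
        rw [this.2]
      rw [h1, h2]
  exact card_mul_le_of_factorial hh (Nat.cast_nonneg _) hR0 hf

end Vale.Agent.Lib.P064Q
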