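import Vale.Agent.Lib.P064Q.Forest
import Vale.Agent.Lib.P064U.WDefs

/-!
The decorated graph with variable numbers of hairs, and its forest structure (notes/P064Q_blueprint.md, part DG).
-/

open Finset

namespace Vale.Agent.Lib.P064Q

open Vale.Agent.Lib.P064 Vale.Agent.Lib.P064E Vale.Agent.Lib.P064U
open scoped Classical

variable {β : Type} [Fintype β]

/-- The vertices of the decorated graph. -/
abbrev Plus (β : Type) (j : β → ℕ) := β ⊕ (Σ x : β, Fin (j x))

/-- `G` with `j x` pendant vertices (hairs) at each `x`. -/
def decoQ (G : SimpleGraph β) (j : β → ℕ) : SimpleGraph (Plus β j) where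
  Adj a b := match a, b with
    | Sum.inl x, Sum.inl y => G.Adj x y
    | Sum.inl x, Sum.inr c => x = c.1
    | Sum.inr c, Sum.inl x => x = c.1
    | Sum.inr _, Sum.inr _ => False
  symm := ⟨by
    rintro (x | c) (y | d) h
    · exact SimpleGraph.Adj.symm h
    · exact h
    · exact h
    · exact h⟩
  loopless := ⟨by
    rintro (x | c) h
    · exact G.loopless.1 x h
    · exact h⟩

lemma card_plus (j : β → ℕ) : Fintype.card (Plus β j) = Fintype.card β + ∑ x, j x := by
  simp [Plus]

/-- Edges: those of `G` and one per hair. (Compare `deco_edges` in Lib/P064U/WDeco.lean.) -/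
lemma decoQ_edges (G : SimpleGraph β) (j : β → ℕ) :
    (decoQ G j).edgeSet.ncard = (eIn G univ).card + ∑ x, j x := by
  set A : Finset (Sym2 (Plus β j)) := (eIn G univ).image (Sym2.map Sum.inl) with hA
  set B : Finset (Sym2 (Plus β j)) :=
    (univ : Finset (Σ x : β, Fin (j x))).image (fun c => s(Sum.inl c.1, Sum.inr c)) with hB
  have hset : (decoQ G j).edgeSet = ((A ∪ B : Finset _) : Set _) := by
    apply Set.Subset.antisymm
    · intro e
      induction e using Sym2.ind with
      | _ a b =>
        intro he
        have he' : (decoQ G j).Adj a b := he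
        rcases a with x | c <;> rcases b with y | d
        · have hxy : G.Adj x y := he'
          refine Finset.mem_coe.2 (Finset.mem_union_left _ (Finset.mem_image.2 ⟨s(x, y), ?_, rfl⟩))
          exact mem_eIn_pair.2 ⟨hxy, mem_univ _, mem_univ _⟩
        · have hx : x = d.1 := he'
          refine Finset.mem_coe.2 (Finset.mem_union_right _ (Finset.mem_image.2 ⟨d, mem_univ _, ?_⟩))
          rw [hx]
        · have hy : y = c.1 := he'
          refine Finset.mem_coe.2 (Finset.mem_union_right _ (Finset.mem_image.2 ⟨c, mem_univ _, ?_⟩))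
          rw [hy]
          exact Sym2.eq_swap
        · exact he'.elim
    · intro e he
      rcases Finset.mem_union.1 (Finset.mem_coe.1 he) with h | h
      · obtain ⟨e', he', rfl⟩ := Finset.mem_image.1 h
        induction e' using Sym2.ind with
        | _ u v =>
          have := (mem_eIn_pair.1 he').1
          exact this
      · obtain ⟨c, -, rfl⟩ := Finset.mem_image.1 h
        show (decoQ G j).Adj (Sum.inl c.1) (Sum.inr c)
        exact rfl
  have hdisj : Disjoint A B := by
    rw [Finset.disjoint_left]
    intro e he he2
    obtain ⟨e', -, rfl⟩ := Finset.mem_image.1 he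
    obtain ⟨c, -, hc⟩ := Finset.mem_image.1 he2
    induction e' using Sym2.ind with
    | _ u v =>
      have h3 : s((Sum.inl c.1 : Plus β j), Sum.inr c) = s(Sum.inl u, Sum.inl v) := hc
      rcases Sym2.eq_iff.1 h3 with ⟨_, h⟩ | ⟨_, h⟩ <;> exact absurd h (by simp)
  have hAc : A.card = (eIn G univ).card :=
    Finset.card_image_of_injective _ (Sym2.map.injective Sum.inl_injective)
  have hBc : B.card = ∑ x, j x := by
    rw [hB, Finset.card_image_of_injective]
    · simp
    · intro c c' h
      have h3 : s((Sum.inl c.1 : Plus β j), Sum.inr c) = s(Sum.inl c'.1, Sum.inr c') := h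
      rcases Sym2.eq_iff.1 h3 with ⟨_, h⟩ | ⟨h, _⟩
      · exact Sum.inr_injective h
      · exact absurd h (by simp)
  rw [hset, Set.ncard_coe_finset, Finset.card_union_of_disjoint hdisj, hAc, hBc]

/-- A rooted spanning tree of `G` given by a parent map. -/
structure RootedT (G : SimpleGraph β) (z : β) (par : β → β) (r : β → ℕ) : Prop where
  parz : par z = z
  hpar : ∀ v, v ≠ z → r (par v) < r v ∧ G.Adj (par v) v

/-- Vertices with an edge of `G` that is not a tree edge. -/
noncomputable def badV (G : SimpleGraph β) (par : β → β) : Finset β :=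
  univ.filter fun u => ∃ w, G.Adj u w ∧ u ≠ par w ∧ w ≠ par u

/-- The root together with all ancestors (themselves included) of bad vertices. -/
noncomputable def coreS (G : SimpleGraph β) (z : β) (par : β → β) : Finset β :=
  insert z (univ.filter fun y => ∃ u ∈ badV G par, ∃ k : ℕ, par^[k] u = y)

/-- Tree children off the core: they are pendant subtrees. -/
noncomputable def cf (G : SimpleGraph β) (z : β) (par : β → β) (y : β) : ℕ :=
  (univ.filter fun u => u ∉ coreS G z par ∧ par u = y).card

/-- Tree children in the core. -/
noncomputable def cs (G : SimpleGraph β) (z : β) (par : β → β) (y : β) : ℕ :=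
  (univ.filter fun u => u ∈ coreS G z par ∧ u ≠ z ∧ par u = y).card

/-- All tree children. -/
noncomputable def ct (z : β) (par : β → β) (y : β) : ℕ :=
  (univ.filter fun u => u ≠ z ∧ par u = y).card

lemma z_mem_coreS (G : SimpleGraph β) (z : β) (par : β → β) : z ∈ coreS G z par :=
  Finset.mem_insert_self _ _

lemma ct_eq (G : SimpleGraph β) (z : β) (par : β → β) (y : β) :
    ct z par y = cf G z par y + cs G z par y := by
  unfold ct cf cs
  rw [← Finset.card_union_of_disjoint]
  · refine congrArg Finset.card ?_
    ext u
    simp only [Finset.mem_filter, Finset.mem_univ, true_and, Finset.mem_union]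
    constructor
    · rintro ⟨h1, h2⟩
      by_cases hu : u ∈ coreS G z par
      · exact Or.inr ⟨hu, h1, h2⟩
      · exact Or.inl ⟨hu, h2⟩
    · rintro (⟨h1, h2⟩ | ⟨_, h2, h3⟩)
      · refine ⟨?_, h2⟩
        rintro rfl
        exact h1 (z_mem_coreS G _ par)
      · exact ⟨h2, h3⟩
  · rw [Finset.disjoint_left]
    intro u hu hu'
    exact (Finset.mem_filter.1 hu).2.1 (Finset.mem_filter.1 hu').2.1

/-- The roots of the forest on the decorated vertex set. -/
noncomputable def SQ (G : SimpleGraph β) (z : β) (par : β → β) (j : β → ℕ) : Finset (Plus β j) :=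
  (coreS G z par).image Sum.inl

/-- The parent map of the forest on the decorated vertex set. -/
noncomputable def parQ (G : SimpleGraph β) (z : β) (par : β → β) (j : β → ℕ) : Plus β j → Plus β j
  | Sum.inl y => if y ∈ coreS G z par then Sum.inl y else Sum.inl (par y)
  | Sum.inr c => Sum.inl c.1

lemma inl_mem_SQ {G : SimpleGraph β} {z : β} {par : β → β} {j : β → ℕ} {y : β} :
    (Sum.inl y : Plus β j) ∈ SQ G z par j ↔ y ∈ coreS G z par := by
  unfold SQ
  constructor
  · intro h
    obtain ⟨u, hu, huy⟩ := Finset.mem_image.1 h
    rwa [← Sum.inl_injective huy]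
  · intro h
    exact Finset.mem_image_of_mem _ h

lemma inr_notMem_SQ {G : SimpleGraph β} {z : β} {par : β → β} {j : β → ℕ}
    (c : Σ x : β, Fin (j x)) : (Sum.inr c : Plus β j) ∉ SQ G z par j := by
  unfold SQ
  intro h
  obtain ⟨u, _, huy⟩ := Finset.mem_image.1 h
  exact absurd huy (by simp)

lemma mem_kids_aux {γ : Type} [Fintype γ] {S : Finset γ} {par : γ → γ} {y u : γ} :
    u ∈ kids S par y ↔ u ∉ S ∧ par u = y := by
  unfold kids
  simp

/-- Apply `forest_aut` with `S = SQ`, `par = parQ`, rank `r y` on `inl y`, `r c.1 + 1` on hairs.  Children of `inl y`: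
`inl u` with `u` off the core and `par u = y`, and the `j y` hairs; hairs have no children. -/
theorem aut_lower {G : SimpleGraph β} {z : β} {par : β → β} {r : β → ℕ} (hT : RootedT G z par r)
    (j : β → ℕ) :
    ∏ y : β, (cf G z par y + j y).factorial ≤
      Nat.card (forestGroup (SQ G z par j) (parQ G z par j)) * 4 ^ Fintype.card (Plus β j) := by
  have hS : ∀ a ∈ SQ G z par j, parQ G z par j a = a := by
    intro a ha
    rcases a with y | c
    · have hy := inl_mem_SQ.1 ha
      simp [parQ, hy]
    · exact absurd ha (inr_notMem_SQ c)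
  let r' : Plus β j → ℕ := fun a => match a with
    | Sum.inl y => r y
    | Sum.inr c => r c.1 + 1
  have hr : ∀ a, a ∉ SQ G z par j → r' (parQ G z par j a) < r' a := by
    intro a ha
    rcases a with y | c
    · have hy : y ∉ coreS G z par := fun h => ha (inl_mem_SQ.2 h)
      have hyz : y ≠ z := by
        rintro rfl
        exact hy (z_mem_coreS G _ par)
      simp only [parQ, if_neg hy, r']
      exact (hT.hpar y hyz).1
    · simp only [parQ, r']
      omega
  have hmain := forest_aut (SQ G z par j) (parQ G z par j) r' hS hr
  have hprod : ∏ a : Plus β j, ((kids (SQ G z par j) (parQ G z par j) a).card).factorial =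
      ∏ y : β, (cf G z par y + j y).factorial := by
    rw [Fintype.prod_sum_type]
    have h1 : ∀ c : (Σ x : β, Fin (j x)),
        ((kids (SQ G z par j) (parQ G z par j) (Sum.inr c)).card).factorial = 1 := by
      intro c
      have : kids (SQ G z par j) (parQ G z par j) (Sum.inr c) = ∅ := by
        rw [Finset.eq_empty_iff_forall_notMem]
        intro a ha0
        obtain ⟨ha, hpa⟩ := mem_kids_aux.1 ha0
        rcases a with u | d
        · have hu : u ∉ coreS G z par := fun h => ha (inl_mem_SQ.2 h)
          simp only [parQ, if_neg hu] at hpa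
          exact absurd hpa (by simp)
        · simp only [parQ] at hpa
          exact absurd hpa (by simp)
      rw [this]
      simp
    rw [Finset.prod_congr rfl (fun c _ => h1 c)]
    simp only [Finset.prod_const_one, mul_one]
    refine Finset.prod_congr rfl fun y _ => ?_
    congr 1
    -- the children of `inl y`
    have hk : kids (SQ G z par j) (parQ G z par j) (Sum.inl y) =
        ((univ.filter fun u => u ∉ coreS G z par ∧ par u = y).image Sum.inl) ∪
          ((univ : Finset (Fin (j y))).image fun i => Sum.inr ⟨y, i⟩) := by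
      ext a
      rw [mem_kids_aux]
      simp only [Finset.mem_filter, Finset.mem_univ, true_and, Finset.mem_union, Finset.mem_image]
      constructor
      · rintro ⟨ha, hpa⟩
        rcases a with u | d
        · have hu : u ∉ coreS G z par := fun h => ha (inl_mem_SQ.2 h)
          simp only [parQ, if_neg hu] at hpa
          exact Or.inl ⟨u, ⟨hu, Sum.inl_injective hpa⟩, rfl⟩
        · simp only [parQ] at hpa
          have hd : d.1 = y := Sum.inl_injective hpa
          obtain ⟨d1, d2⟩ := d
          simp only at hd
          subst hd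
          exact Or.inr ⟨d2, rfl⟩
      · rintro (⟨u, ⟨hu, hpu⟩, rfl⟩ | ⟨i, rfl⟩)
        · refine ⟨fun h => hu (inl_mem_SQ.1 h), ?_⟩
          simp only [parQ, if_neg hu, hpu]
        · exact ⟨inr_notMem_SQ _, rfl⟩
    rw [hk, Finset.card_union_of_disjoint, Finset.card_image_of_injective _ Sum.inl_injective,
      Finset.card_image_of_injective]
    · simp [cf]
    · intro i i' h
      have h2 : (⟨y, i⟩ : Σ x : β, Fin (j x)) = ⟨y, i'⟩ := Sum.inr_injective h
      simpa using h2
    · rw [Finset.disjoint_left]
      intro a ha ha'
      obtain ⟨u, _, rfl⟩ := Finset.mem_image.1 ha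
      obtain ⟨i, _, hi⟩ := Finset.mem_image.1 ha'
      exact absurd hi (by simp)
  rw [hprod] at hmain
  exact hmain

/-- The core is closed under the parent map. -/
lemma par_mem_coreS {G : SimpleGraph β} {z : β} {par : β → β} {r : β → ℕ} (hT : RootedT G z par r)
    {y : β} (hy : y ∈ coreS G z par) : par y ∈ coreS G z par := by
  rcases Finset.mem_insert.1 hy with rfl | h
  · rw [hT.parz]
    exact z_mem_coreS G _ par
  · obtain ⟨-, u, hu, k, rfl⟩ := Finset.mem_filter.1 h
    refine Finset.mem_insert_of_mem (Finset.mem_filter.2 ⟨mem_univ _, u, hu, k + 1, ?_⟩)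
    rw [Function.iterate_succ_apply']

/-- A vertex off the core is not bad. -/
lemma notBad_of_notMem {G : SimpleGraph β} {z : β} {par : β → β} {u w : β}
    (hu : u ∉ coreS G z par) (huw : G.Adj u w) : u = par w ∨ w = par u := by
  by_contra hcon
  push Not at hcon
  apply hu
  refine Finset.mem_insert_of_mem (Finset.mem_filter.2 ⟨mem_univ _, u, ?_, 0, rfl⟩)
  exact Finset.mem_filter.2 ⟨mem_univ _, w, huw, hcon.1, hcon.2⟩

/-- A vertex off the roots is adjacent to its parent. -/
lemma adj_parQ {G : SimpleGraph β} {z : β} {par : β → β} {r : β → ℕ} (hT : RootedT G z par r)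
    (j : β → ℕ) {a : Plus β j} (ha : a ∉ SQ G z par j) :
    (decoQ G j).Adj a (parQ G z par j a) := by
  rcases a with y | c
  · have hy : y ∉ coreS G z par := fun h => ha (inl_mem_SQ.2 h)
    have hyz : y ≠ z := by
      rintro rfl
      exact hy (z_mem_coreS G _ par)
    simp only [parQ, if_neg hy]
    exact (hT.hpar y hyz).2.symm
  · simp only [parQ]
    exact rfl

/-- Every element of the forest group preserves adjacency in `decoQ G j`.  Facts: `coreS` contains `z`, is closed
under `par`; a vertex `y` off `coreS` is not bad, so each `G`-neighbour of `y` is `par y` or a child of `y`, and children of `y` are off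
`coreS`.  Hence an edge of `decoQ` has both ends in `SQ` (fixed by `σ`) or is `{a, parQ a}` with `a ∉ SQ`; and `σ` maps
`{a, parQ a}` to `{σ a, parQ (σ a)}`, with `σ a ∉ SQ`, again an edge. -/
theorem forest_preserves {G : SimpleGraph β} {z : β} {par : β → β} {r : β → ℕ} (hT : RootedT G z par r)
    (j : β → ℕ) : ∀ σ ∈ forestGroup (SQ G z par j) (parQ G z par j), ∀ a b,
      (decoQ G j).Adj a b → (decoQ G j).Adj (σ a) (σ b) := by
  rintro σ ⟨hfix, hcomm⟩ a b hab
  -- an edge `{c, parQ c}` with `c` off the roots goes to an edge
  have key : ∀ c : Plus β j, c ∉ SQ G z par j →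
      (decoQ G j).Adj (σ c) (σ (parQ G z par j c)) := by
    intro c hc
    have hσc : σ c ∉ SQ G z par j := by
      intro h
      have h2 := hfix _ h
      exact hc (σ.injective h2 ▸ h)
    rw [hcomm c]
    exact adj_parQ hT j hσc
  rcases a with x | c <;> rcases b with y | d
  · have hxy : G.Adj x y := hab
    by_cases hx : x ∈ coreS G z par
    · by_cases hy : y ∈ coreS G z par
      · rw [hfix _ (inl_mem_SQ.2 hx), hfix _ (inl_mem_SQ.2 hy)]
        exact hab
      · -- `y` off the core: `x = par y` or `y = par x`
        have hyn : (Sum.inl y : Plus β j) ∉ SQ G z par j := fun h => hy (inl_mem_SQ.1 h)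
        rcases notBad_of_notMem hy hxy.symm with h | h
        · exfalso
          apply hy
          rw [h]
          exact par_mem_coreS hT hx
        · have h3 := key _ hyn
          simp only [parQ, if_neg hy] at h3
          rw [← h] at h3
          exact h3.symm
    · have hxn : (Sum.inl x : Plus β j) ∉ SQ G z par j := fun h => hx (inl_mem_SQ.1 h)
      rcases notBad_of_notMem hx hxy with h | h
      · -- `x = par y`: then `y` is off the core
        have hy : y ∉ coreS G z par := fun hy => hx (h ▸ par_mem_coreS hT hy)
        have hyn : (Sum.inl y : Plus β j) ∉ SQ G z par j := fun h' => hy (inl_mem_SQ.1 h')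
        have h3 := key _ hyn
        simp only [parQ, if_neg hy] at h3
        rw [← h] at h3
        exact h3.symm
      · have h3 := key _ hxn
        simp only [parQ, if_neg hx] at h3
        rw [← h] at h3
        exact h3
  · have hx : x = d.1 := hab
    have h3 := key _ (inr_notMem_SQ d)
    simp only [parQ] at h3
    rw [← hx] at h3
    exact h3.symm
  · have hy : y = c.1 := hab
    have h3 := key _ (inr_notMem_SQ c)
    simp only [parQ] at h3
    rw [← hy] at h3
    exact h3
  · exact hab.elim

end Vale.Agent.Lib.P064Q
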