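import Vale.Agent.Lib.P064Q.Final1
import Vale.Agent.Lib.P064.Final
import Vale.Agent.Lib.P064N.Final

/-!
The main theorem of the part `FI2` (notes/P064Q_blueprint.md): the thresholds from the embedding bound.
-/

open Finset

namespace Vale.Agent.Lib.P064Q

open Vale.Agent.Lib.P064 Vale.Agent.Lib.P064E Vale.Agent.Lib.P064U Vale.Agent.Lib.P064N
open scoped Classical

/-- `n q² ≤ 16 n P² + 1/n` for `q = max (4 P) (1/n)`. -/
private lemma n_q_sq_le {n : ℕ} {P : ℝ} (hn : (0 : ℝ) < n) :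
    (n : ℝ) * (max (4 * P) (1 / (n : ℝ))) ^ 2 ≤ 16 * (1 / (n : ℝ) + (n : ℝ) * P ^ 2) := by
  have hi : 0 < 1 / (n : ℝ) := by positivity
  have hnP : 0 ≤ (n : ℝ) * P ^ 2 := by positivity
  rcases le_total (4 * P) (1 / (n : ℝ)) with h | h
  · rw [max_eq_right h]
    have h1 : (n : ℝ) * (1 / (n : ℝ)) ^ 2 = 1 / (n : ℝ) := by
      field_simp
    rw [h1]
    nlinarith
  · rw [max_eq_left h]
    nlinarith

/-- The main theorem.  `q = max (4 pE) (1/n)`, `good_of_pE`.
Case `L ≥ 10000` and `n pE ≤ L`: `D = n q ≤ 4 L`, `exists_qpar`, `embBound_Q`, `pTilde_le_of_embBound`, `pc_le_of_embBound`: `Θ = C D q = C n q^2 ≤ C (16 n pE^2 + 1/n)`.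
Otherwise `pTilde_le_pE_log`, `pc_le_pE_log_sq`: if `n pE > L`: `pE L ≤ n pE^2`; if `L < 10000` and `n pE ≤ L`: `pE L ≤ L^2 / n ≤ 10^8 / n`. -/
theorem q_thresholds_main :
    ∃ C : ℝ, 0 < C ∧ ∀ (n : ℕ) (V : Type) [Fintype V] (H : SimpleGraph V), 2 ≤ n →
      Fintype.card V ≤ n → H ≠ ⊥ →
      pTilde n H ≤ C * (1 / (n : ℝ) + (n : ℝ) * pE n H ^ 2) ∧
      pc n H ≤ C * Real.log n * (1 / (n : ℝ) + (n : ℝ) * pE n H ^ 2) := by
  obtain ⟨C₀, hC₀, h0⟩ := pTilde_le_pE_log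
  obtain ⟨C₁, hC₁, h1⟩ := pc_le_pE_log_sq
  set A0 : ℝ := Real.exp 100 * (16 * Real.exp 1) * 8192 with hA0
  have hA0pos : 0 < A0 := by positivity
  refine ⟨8192 * A0 + 10 ^ 8 * C₀ + 10 ^ 8 * C₁, by positivity, ?_⟩
  intro n V _ H hn hV hH
  have hn2 : (2 : ℝ) ≤ n := by exact_mod_cast hn
  have hn0 : (0 : ℝ) < n := by linarith
  have hL0 : 0 < Real.log n := Real.log_pos (by linarith)
  have hP0 : 0 < pE n H := pE_pos hn hV hH
  set P := pE n H with hP
  set L := Real.log n with hL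
  set S := 1 / (n : ℝ) + (n : ℝ) * P ^ 2 with hS
  have hinv : 0 < 1 / (n : ℝ) := by positivity
  have hnP2 : 0 ≤ (n : ℝ) * P ^ 2 := by positivity
  have hS0 : 0 < S := by positivity
  have h01 := h0 n hn V H hV hH
  have h11 := h1 n hn V H hV hH
  rw [← hP, ← hL] at h01
  rw [← hP, ← hL] at h11
  by_cases hcase : 10000 ≤ L ∧ (n : ℝ) * P ≤ L
  · obtain ⟨hL1, hPL⟩ := hcase
    set q : ℝ := max (4 * P) (1 / (n : ℝ)) with hq
    have hq1 : 4 * P ≤ q := le_max_left _ _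
    have hq2 : 1 / (n : ℝ) ≤ q := le_max_right _ _
    have hq0 : 0 < q := by linarith
    have hD1 : 1 ≤ (n : ℝ) * q := by
      have : (n : ℝ) * (1 / (n : ℝ)) ≤ (n : ℝ) * q := mul_le_mul_of_nonneg_left hq2 hn0.le
      have h2 : (n : ℝ) * (1 / (n : ℝ)) = 1 := by field_simp
      linarith
    have hD2 : (n : ℝ) * q ≤ 4 * L := by
      rw [hq]
      rcases le_total (4 * P) (1 / (n : ℝ)) with h | h
      · rw [max_eq_right h]
        have h2 : (n : ℝ) * (1 / (n : ℝ)) = 1 := by field_simp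
        rw [h2]
        linarith
      · rw [max_eq_left h]
        nlinarith
    have hG : GoodDensity n q H := good_of_pE hn hV hH hq1
    obtain ⟨l, lam, Δ, A₁, s₁, I, hpar, hA₁⟩ := exists_qpar hn hL1 hD1 hD2
    have hEmb := embBound_Q hG hV hpar
    have hA₁pos : 0 < A₁ := by
      rw [hpar.A₁eq]
      positivity
    have hΘ0 : 0 < Real.exp 100 * (16 * Real.exp 1 * A₁) * q := by positivity
    have hT := pTilde_le_of_embBound hV hΘ0 hEmb
    have hC := pc_le_of_embBound hn hV hH hΘ0 hEmb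
    have hnq := n_q_sq_le (n := n) (P := P) hn0
    rw [← hq, ← hS] at hnq
    have hΘ : Real.exp 100 * (16 * Real.exp 1 * A₁) * q ≤ 16 * A0 * S := by
      calc Real.exp 100 * (16 * Real.exp 1 * A₁) * q
          ≤ Real.exp 100 * (16 * Real.exp 1 * (8192 * ((n : ℝ) * q))) * q := by
            gcongr
        _ = A0 * ((n : ℝ) * q ^ 2) := by rw [hA0]; ring
        _ ≤ A0 * (16 * S) := mul_le_mul_of_nonneg_left hnq hA0pos.le
        _ = 16 * A0 * S := by ring
    have hbig : 16 * A0 * S ≤ (8192 * A0 + 10 ^ 8 * C₀ + 10 ^ 8 * C₁) * S := by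
      apply mul_le_mul_of_nonneg_right _ hS0.le
      nlinarith
    have hbig2 : 512 * (16 * A0 * S) ≤ (8192 * A0 + 10 ^ 8 * C₀ + 10 ^ 8 * C₁) * S := by
      apply le_of_eq_of_le (b := (8192 * A0) * S) (by ring)
      apply mul_le_mul_of_nonneg_right _ hS0.le
      nlinarith
    constructor
    · linarith
    · calc pc n H ≤ 512 * L * (Real.exp 100 * (16 * Real.exp 1 * A₁) * q) := hC
        _ ≤ 512 * L * (16 * A0 * S) := mul_le_mul_of_nonneg_left hΘ (by positivity)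
        _ = L * (512 * (16 * A0 * S)) := by ring
        _ ≤ L * ((8192 * A0 + 10 ^ 8 * C₀ + 10 ^ 8 * C₁) * S) :=
            mul_le_mul_of_nonneg_left hbig2 hL0.le
        _ = _ := by ring
  · -- in the remaining cases `P L ≤ 10^8 S`
    have hPL : P * L ≤ 10 ^ 8 * S := by
      by_cases h1' : (n : ℝ) * P ≤ L
      · have hL1 : L < 10000 := by
          by_contra h2
          exact hcase ⟨not_lt.1 h2, h1'⟩
        have hP1 : P ≤ L / n := by
          rw [le_div_iff₀ hn0]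
          linarith
        have h3 : P * L ≤ L / n * L := mul_le_mul_of_nonneg_right hP1 hL0.le
        have h4 : L / n * L = L ^ 2 * (1 / (n : ℝ)) := by ring
        have h5 : L ^ 2 ≤ 10 ^ 8 := by nlinarith
        have h6 : L ^ 2 * (1 / (n : ℝ)) ≤ 10 ^ 8 * (1 / (n : ℝ)) :=
          mul_le_mul_of_nonneg_right h5 hinv.le
        nlinarith
      · push Not at h1'
        have h3 : P * L ≤ P * ((n : ℝ) * P) := mul_le_mul_of_nonneg_left h1'.le hP0.le
        have h4 : P * ((n : ℝ) * P) = (n : ℝ) * P ^ 2 := by ring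
        nlinarith
    have hbig : C₀ * (10 ^ 8 * S) ≤ (8192 * A0 + 10 ^ 8 * C₀ + 10 ^ 8 * C₁) * S := by
      have : C₀ * (10 ^ 8 * S) = (10 ^ 8 * C₀) * S := by ring
      rw [this]
      apply mul_le_mul_of_nonneg_right _ hS0.le
      nlinarith
    have hbig2 : C₁ * (10 ^ 8 * S) ≤ (8192 * A0 + 10 ^ 8 * C₀ + 10 ^ 8 * C₁) * S := by
      have : C₁ * (10 ^ 8 * S) = (10 ^ 8 * C₁) * S := by ring
      rw [this]
      apply mul_le_mul_of_nonneg_right _ hS0.le
      nlinarith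
    constructor
    · calc pTilde n H ≤ C₀ * P * L := h01
        _ = C₀ * (P * L) := by ring
        _ ≤ C₀ * (10 ^ 8 * S) := mul_le_mul_of_nonneg_left hPL hC₀.le
        _ ≤ _ := hbig
    · calc pc n H ≤ C₁ * P * L ^ 2 := h11
        _ = L * (C₁ * (P * L)) := by ring
        _ ≤ L * (C₁ * (10 ^ 8 * S)) :=
            mul_le_mul_of_nonneg_left (mul_le_mul_of_nonneg_left hPL hC₁.le) hL0.le
        _ ≤ L * ((8192 * A0 + 10 ^ 8 * C₀ + 10 ^ 8 * C₁) * S) :=
            mul_le_mul_of_nonneg_left hbig2 hL0.le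
        _ = _ := by ring

end Vale.Agent.Lib.P064Q
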