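import Vale.Agent.Lib.P064Q.Deco
import Vale.Agent.Lib.P064U.WAnchor

/-!
The anchor set with variable numbers of hairs (notes/P064Q_blueprint.md, part AN).
-/

open Finset

namespace Vale.Agent.Lib.P064Q

open Vale.Agent.Lib.P064 Vale.Agent.Lib.P064E Vale.Agent.Lib.P064U
open scoped Classical

variable {V β : Type} [Fintype V] [Fintype β] {H : SimpleGraph V} {n : ℕ} {q l lam : ℝ}

/-- Hall with variable numbers of hairs. -/
lemma hall_decoQ (hG : GoodDensity n q H) (hs : Std n q l lam) (hρ : 2 * l ≤ 3 * lam)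
    (f : β → V) (hf : Function.Injective f) (Dh : Finset β) (i j : β → ℕ)
    (hj : ∀ x, j x = if x ∈ Dh then 2 ^ (i x - 3) else 0) (hi5 : ∀ x ∈ Dh, 5 ≤ i x)
    (N : β → Finset V) (hN : ∀ x ∈ Dh, N x ⊆ nb H (f x))
    (hoff : ∀ x ∈ Dh, ∀ w ∈ N x, w ∉ univ.image f)
    (hsize : ∀ x ∈ Dh, 2 ^ (i x - 2) ≤ (N x).card) :
    ∃ g : (Σ x : β, Fin (j x)) → V, Function.Injective g ∧ ∀ c, g c ∈ N c.1 := by
  have hl : 0 < l := by
    have := hs.l1
    linarith
  have hlam : 0 < lam := by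
    have := hs.lam1
    linarith
  refine (Finset.all_card_le_biUnion_card_iff_exists_injective
    (fun c : (Σ x : β, Fin (j x)) => N c.1)).1 ?_
  intro S
  obtain ⟨X, hX⟩ : ∃ X : Finset β, X = S.image (fun c => c.1) := ⟨_, rfl⟩
  have hXD : ∀ x ∈ X, x ∈ Dh := by
    intro x hx
    rw [hX] at hx
    obtain ⟨c, _, rfl⟩ := Finset.mem_image.1 hx
    by_contra hc
    have h0 := hj c.1
    rw [if_neg hc] at h0
    have := c.2.2
    omega
  have hS : S.card ≤ ∑ x ∈ X, j x := by
    have hsub : S ⊆ X.sigma (fun x => (univ : Finset (Fin (j x)))) := by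
      intro c hc
      rw [Finset.mem_sigma]
      refine ⟨?_, Finset.mem_univ _⟩
      rw [hX]
      exact Finset.mem_image_of_mem _ hc
    have := Finset.card_le_card hsub
    rw [Finset.card_sigma] at this
    simpa using this
  have hunion : X.biUnion N = S.biUnion (fun c => N c.1) := by
    ext v
    simp only [Finset.mem_biUnion, hX, Finset.mem_image]
    constructor
    · rintro ⟨x, ⟨c, hc, rfl⟩, hv⟩
      exact ⟨c, hc, hv⟩
    · rintro ⟨c, hc, hv⟩
      exact ⟨c.1, ⟨c, hc, rfl⟩, hv⟩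
  have hb := bip_count hG hs X f (fun x _ y _ h => hf h) N (fun x hx => hN x (hXD x hx))
    (by
      intro x hx w hw y _ heq
      exact hoff x (hXD x hx) w hw (by rw [heq]; exact Finset.mem_image_of_mem _ (Finset.mem_univ _)))
  -- every term gains
  have hterm : ∀ x ∈ X, (j x : ℝ) + 1 ≤ (2 / 3) * ((N x).card : ℝ) := by
    intro x hx
    have hxD := hXD x hx
    have h5 := hi5 x hxD
    have hjx : j x = 2 ^ (i x - 3) := by rw [hj x, if_pos hxD]
    have hs1 : (2:ℝ) ^ (i x - 2) ≤ ((N x).card : ℝ) := by exact_mod_cast hsize x hxD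
    have hpow : (2:ℝ) ^ (i x - 2) = 2 * 2 ^ (i x - 3) := by
      have : i x - 2 = (i x - 3) + 1 := by omega
      rw [this, pow_succ]
      ring
    have h4 : (4:ℝ) ≤ 2 ^ (i x - 3) := by
      have h2 : (2:ℝ) ^ 2 ≤ 2 ^ (i x - 3) := pow_le_pow_right₀ (by norm_num) (by omega)
      linarith
    rw [hjx]
    push_cast
    linarith
  have hsum : (∑ x ∈ X, ((j x : ℝ) + 1)) ≤ (2 / 3) * ((∑ x ∈ X, (N x).card : ℕ) : ℝ) := by
    push_cast
    rw [Finset.mul_sum]
    exact Finset.sum_le_sum hterm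
  have hsum2 : (∑ x ∈ X, ((j x : ℝ) + 1)) = ((∑ x ∈ X, j x : ℕ) : ℝ) + (X.card : ℝ) := by
    rw [Finset.sum_add_distrib]
    simp
  -- the density bound
  have h1 : (2 / 3) * ((∑ x ∈ X, (N x).card : ℕ) : ℝ) * l
      ≤ ((X.card : ℝ) + ((X.biUnion N).card : ℝ)) * l := by
    have h2 : (2 / 3) * ((∑ x ∈ X, (N x).card : ℕ) : ℝ) * l
        ≤ ((∑ x ∈ X, (N x).card : ℕ) : ℝ) * lam := by
      have h0 : (0:ℝ) ≤ ((∑ x ∈ X, (N x).card : ℕ) : ℝ) := Nat.cast_nonneg _
      nlinarith
    exact h2.trans hb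
  have h4 : (2 / 3) * ((∑ x ∈ X, (N x).card : ℕ) : ℝ)
      ≤ (X.card : ℝ) + ((X.biUnion N).card : ℝ) :=
    le_of_mul_le_mul_right h1 hl
  have h5 : ((∑ x ∈ X, j x : ℕ) : ℝ) ≤ ((X.biUnion N).card : ℝ) := by linarith
  have h6 : ∑ x ∈ X, j x ≤ (X.biUnion N).card := by exact_mod_cast h5
  rw [← hunion]
  exact hS.trans h6

/-- Adapt `anchor` of Lib/P064U/WAnchor.lean.  Hairs `j x = 2^(i x - 3)` at `x ∈ Dh`, none elsewhere.  `Z'` = vertex set of a maximal
family of disjoint decorated copies extending members of `E`; `A = Z' ∪ {w : |N(w) ∩ Z'| ≥ A₁/4}`; `card_heavy_le` with `τ = A₁`.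
If `φ ∈ E` misses `A`: for `x ∈ Dh`, `N x = nb H (φ x) \ image φ \ Z'` has at least `2^(i x) - 2^(i x - 1) - 2^(i x - 2) = 2^(i x - 2)` elements;
Hall (`Finset.all_card_le_biUnion_card_iff_exists_injective`) on the index type `Σ x : Dh, Fin (j x)`: for `X ⊂ Dh`, the edges `φ x - w`, `x ∈ X`, `w ∈ N x` are distinct,
`bip_count`: `(Σ_X 2^(i x - 2)) lam ≤ (|X| + |⋃ N x|) l`, so with `2 l ≤ 3 lam`, `|⋃ N x| ≥ (2/3) Σ_X 2^(i x - 2) - |X| ≥ Σ_X 2^(i x - 3)` as `i x ≥ 5`.  So `φ` extends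
to a decorated copy disjoint from `Z'`: contradiction to maximality. -/
theorem anchorQ [Nonempty β] (hG : GoodDensity n q H) (hs : Std n q l lam) {A₁ : ℝ} (hA0 : 0 < A₁)
    (hA8 : 8 * l ≤ A₁ * lam) (hρ : 2 * l ≤ 3 * lam)
    (G : SimpleGraph β) (E : Finset (β → V)) (hE : ∀ φ ∈ E, φ ∈ emb G H) (Dh : Finset β) (i : β → ℕ)
    (j : β → ℕ) (hj : ∀ x, j x = if x ∈ Dh then 2 ^ (i x - 3) else 0)
    (hi5 : ∀ x ∈ Dh, 5 ≤ i x) (hiA : ∀ x ∈ Dh, A₁ ≤ 2 ^ (i x))
    (hdeg : ∀ φ ∈ E, ∀ x ∈ Dh, 2 ^ (i x) ≤ (nb H (φ x)).card)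
    (hlight : ∀ φ ∈ E, ∀ x ∈ Dh, ((nb H (φ x)) ∩ univ.image φ).card < 2 ^ (i x - 1)) :
    ∃ (h : ℕ) (ψ : Fin h → Plus β j → V) (A : Finset V),
      (∀ k, Function.Injective (ψ k)) ∧
      (∀ k a b, (decoQ G j).Adj a b → H.Adj (ψ k a) (ψ k b)) ∧
      (∀ k k', k ≠ k' → ∀ a b, ψ k a ≠ ψ k' b) ∧
      (A.card : ℝ) ≤ 2 * (h : ℝ) * (Fintype.card β + ∑ x, j x : ℕ) ∧
      ∀ φ ∈ E, ∃ z, φ z ∈ A := by
  classical
  let Good : (Plus β j → V) → Prop := fun ψ =>
    Function.Injective ψ ∧ ∀ a b, (decoQ G j).Adj a b → H.Adj (ψ a) (ψ b)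
  let Fam : Finset (Finset (Plus β j → V)) := (univ : Finset (Finset (Plus β j → V))).filter fun S =>
    (∀ ψ ∈ S, Good ψ) ∧ ∀ ψ ∈ S, ∀ ψ' ∈ S, ψ ≠ ψ' → ∀ a b, ψ a ≠ ψ' b
  have hFam : Fam.Nonempty := ⟨∅, by simp [Fam]⟩
  obtain ⟨S, hSF, hmax⟩ := Finset.exists_max_image Fam Finset.card hFam
  obtain ⟨hS1, hS2⟩ := (Finset.mem_filter.1 hSF).2
  obtain ⟨Z', hZ'⟩ : ∃ Z' : Finset V, Z' = S.biUnion fun ψ => univ.image ψ := ⟨_, rfl⟩
  obtain ⟨Y, hY⟩ : ∃ Y : Finset V, Y = (univ.filter fun w => A₁ / 4 ≤ (((nb H w) ∩ Z').card : ℝ)) \ Z' := ⟨_, rfl⟩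
  have hYc : Y.card ≤ Z'.card := by
    rw [hY]
    exact card_heavy_le hG hs hA0 hA8 Z'
  have hZc : Z'.card ≤ S.card * (Fintype.card β + ∑ x, j x) := by
    have h1 : Z'.card ≤ S.card • (Fintype.card (Plus β j)) := by
      rw [hZ']
      apply Finset.card_biUnion_le_card_mul
      intro ψ _
      exact (Finset.card_image_le).trans (by simp)
    rw [card_plus] at h1
    simpa using h1
  refine ⟨S.card, fun k => (S.equivFin.symm k).1, Z' ∪ Y, ?_, ?_, ?_, ?_, ?_⟩
  · intro k
    exact (hS1 _ (S.equivFin.symm k).2).1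
  · intro k a b hab
    exact (hS1 _ (S.equivFin.symm k).2).2 a b hab
  · intro k k' hkk a b
    refine hS2 _ (S.equivFin.symm k).2 _ (S.equivFin.symm k').2 ?_ a b
    intro heq
    apply hkk
    have := S.equivFin.symm.injective (Subtype.ext heq)
    exact this
  · have h1 : (Z' ∪ Y).card ≤ 2 * (S.card * (Fintype.card β + ∑ x, j x)) := by
      have := Finset.card_union_le Z' Y
      omega
    have h2 : (((Z' ∪ Y).card : ℕ) : ℝ) ≤ ((2 * (S.card * (Fintype.card β + ∑ x, j x)) : ℕ) : ℝ) := by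
      exact_mod_cast h1
    rw [Nat.cast_mul, Nat.cast_mul] at h2
    push_cast at h2 ⊢
    linarith
  · intro φ hφ
    by_contra hcon
    push Not at hcon
    have hφe := mem_emb.1 (hE φ hφ)
    have hz1 : ∀ z, φ z ∉ Z' := fun z h => hcon z (Finset.mem_union_left _ h)
    have hz2 : ∀ z, ¬ (A₁ / 4 ≤ (((nb H (φ z)) ∩ Z').card : ℝ)) := by
      intro z h
      refine hcon z (Finset.mem_union_right _ ?_)
      rw [hY]
      exact Finset.mem_sdiff.2 ⟨Finset.mem_filter.2 ⟨Finset.mem_univ _, h⟩, hz1 z⟩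
    -- the free neighbours
    let N : β → Finset V := fun x => (nb H (φ x)) \ ((univ.image φ) ∪ Z')
    have hNsize : ∀ x ∈ Dh, 2 ^ (i x - 2) ≤ (N x).card := by
      intro x hx
      have h1 := hdeg φ hφ x hx
      have h2 := hlight φ hφ x hx
      have h3 := hz2 x
      push Not at h3
      have h5x := hi5 x hx
      have hiA' := hiA x hx
      have h4 : (nb H (φ x)).card ≤ (N x).card + ((nb H (φ x)) ∩ univ.image φ).card + ((nb H (φ x)) ∩ Z').card := by
        have : nb H (φ x) ⊆ N x ∪ ((nb H (φ x)) ∩ univ.image φ) ∪ ((nb H (φ x)) ∩ Z') := by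
          intro v hv
          by_cases hv1 : v ∈ univ.image φ
          · exact Finset.mem_union_left _ (Finset.mem_union_right _ (Finset.mem_inter.2 ⟨hv, hv1⟩))
          · by_cases hv2 : v ∈ Z'
            · exact Finset.mem_union_right _ (Finset.mem_inter.2 ⟨hv, hv2⟩)
            · refine Finset.mem_union_left _ (Finset.mem_union_left _ ?_)
              refine Finset.mem_sdiff.2 ⟨hv, ?_⟩
              intro hv3
              rcases Finset.mem_union.1 hv3 with h | h
              · exact hv1 h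
              · exact hv2 h
        calc (nb H (φ x)).card ≤ _ := Finset.card_le_card this
          _ ≤ (N x ∪ ((nb H (φ x)) ∩ univ.image φ)).card + ((nb H (φ x)) ∩ Z').card := Finset.card_union_le _ _
          _ ≤ _ := by
            have := Finset.card_union_le (N x) ((nb H (φ x)) ∩ univ.image φ)
            omega
      -- the powers of two
      have hp1 : 2 ^ (i x) = 4 * 2 ^ (i x - 2) := by
        have : i x = (i x - 2) + 2 := by omega
        conv_lhs => rw [this, pow_add]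
        ring
      have hp2 : 2 ^ (i x - 1) = 2 * 2 ^ (i x - 2) := by
        have : i x - 1 = (i x - 2) + 1 := by omega
        rw [this, pow_succ]
        ring
      have h3' : (((nb H (φ x)) ∩ Z').card : ℝ) < 2 ^ (i x - 2) := by
        have hp1' : (2:ℝ) ^ (i x) = 4 * 2 ^ (i x - 2) := by exact_mod_cast hp1
        linarith
      have h3'' : ((nb H (φ x)) ∩ Z').card < 2 ^ (i x - 2) := by exact_mod_cast h3'
      omega
    obtain ⟨g, hg1, hg2⟩ := hall_decoQ hG hs hρ φ hφe.1 Dh i j hj hi5 N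
      (fun x _ => Finset.sdiff_subset)
      (by
        intro x _ w hw hw2
        exact (Finset.mem_sdiff.1 hw).2 (Finset.mem_union_left _ hw2))
      hNsize
    let ψ : Plus β j → V := Sum.elim φ g
    have hψgood : Good ψ := by
      constructor
      · rintro (a | a) (b | b) hab
        · exact congrArg Sum.inl (hφe.1 hab)
        · exfalso
          have h1 := (Finset.mem_sdiff.1 (hg2 b)).2
          apply h1
          apply Finset.mem_union_left
          rw [show g b = φ a from hab.symm]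
          exact Finset.mem_image_of_mem _ (Finset.mem_univ _)
        · exfalso
          have h1 := (Finset.mem_sdiff.1 (hg2 a)).2
          apply h1
          apply Finset.mem_union_left
          rw [show g a = φ b from hab]
          exact Finset.mem_image_of_mem _ (Finset.mem_univ _)
        · exact congrArg Sum.inr (hg1 hab)
      · rintro (a | a) (b | b) hab
        · exact hφe.2 a b hab
        · have hab' : a = b.1 := hab
          have h1 := (Finset.mem_sdiff.1 (hg2 b)).1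
          rw [mem_nb] at h1
          show H.Adj (φ a) (g b)
          rw [hab']
          exact h1
        · have hab' : b = a.1 := hab
          have h1 := (Finset.mem_sdiff.1 (hg2 a)).1
          rw [mem_nb] at h1
          show H.Adj (g a) (φ b)
          rw [hab']
          exact h1.symm
        · exact False.elim hab
    have hψoff : ∀ a, ψ a ∉ Z' := by
      rintro (a | a)
      · exact hz1 a
      · intro h
        have h1 := (Finset.mem_sdiff.1 (hg2 a)).2
        exact h1 (Finset.mem_union_right _ h)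
    have hdisj : ∀ ψ' ∈ S, ∀ a b, ψ a ≠ ψ' b := by
      intro ψ' hψ' a b heq
      apply hψoff a
      rw [heq, hZ']
      exact Finset.mem_biUnion.2 ⟨ψ', hψ', Finset.mem_image_of_mem _ (Finset.mem_univ _)⟩
    have hnot : ψ ∉ S := by
      intro hmem
      obtain ⟨z⟩ := (inferInstance : Nonempty β)
      exact hdisj ψ hmem (Sum.inl z) (Sum.inl z) rfl
    have hins : insert ψ S ∈ Fam := by
      refine Finset.mem_filter.2 ⟨Finset.mem_univ _, ?_, ?_⟩
      · intro ψ' hψ'
        rcases Finset.mem_insert.1 hψ' with rfl | h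
        · exact hψgood
        · exact hS1 _ h
      · intro ψ₁ h1 ψ₂ h2 hne a b
        rcases Finset.mem_insert.1 h1 with rfl | h1
        · rcases Finset.mem_insert.1 h2 with rfl | h2
          · exact absurd rfl hne
          · exact hdisj ψ₂ h2 a b
        · rcases Finset.mem_insert.1 h2 with rfl | h2
          · exact fun heq => hdisj ψ₁ h1 b a heq.symm
          · exact hS2 _ h1 _ h2 hne a b
    have := hmax _ hins
    rw [Finset.card_insert_of_notMem hnot] at this
    omega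

end Vale.Agent.Lib.P064Q
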