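import Vale.Agent.Lib.P064Q.Classes

/-!
The core of a rooted spanning tree (notes/P064Q_blueprint.md, part CH2).
-/

open Finset

namespace Vale.Agent.Lib.P064Q

open Vale.Agent.Lib.P064 Vale.Agent.Lib.P064E Vale.Agent.Lib.P064U
open scoped Classical

variable {V β : Type} [Fintype V] [Fintype β] {H : SimpleGraph V} {n : ℕ} {q l lam : ℝ}

section tree

variable {G : SimpleGraph β} {z : β} {par : β → β} {r : β → ℕ}

/-- The tree edges. -/
noncomputable def treeE (z : β) (par : β → β) : Finset (Sym2 β) :=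
  (univ.erase z).image fun y => s(par y, y)

lemma treeE_card (hT : RootedT G z par r) : (treeE z par).card = Fintype.card β - 1 := by
  unfold treeE
  rw [Finset.card_image_of_injOn, Finset.card_erase_of_mem (mem_univ z), Finset.card_univ]
  intro a ha b hb hab
  have ha' : a ≠ z := (Finset.mem_erase.1 ha).1
  have hb' : b ≠ z := (Finset.mem_erase.1 hb).1
  rcases Sym2.eq_iff.1 hab with ⟨_, h2⟩ | ⟨h1, h2⟩
  · exact h2
  · exfalso
    have h3 := (hT.hpar a ha').1
    have h4 := (hT.hpar b hb').1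
    rw [h1] at h3
    rw [← h2] at h4
    omega

lemma treeE_subset (hT : RootedT G z par r) : treeE z par ⊆ eIn G univ := by
  intro e he
  obtain ⟨y, hy, rfl⟩ := Finset.mem_image.1 he
  have hy' : y ≠ z := (Finset.mem_erase.1 hy).1
  exact mem_eIn_pair.2 ⟨(hT.hpar y hy').2, mem_univ _, mem_univ _⟩

lemma badV_card (hT : RootedT G z par r) :
    (badV G par).card ≤ 2 * ((eIn G univ).card - (Fintype.card β - 1)) := by
  have hsub : badV G par ⊆ (eIn G univ \ treeE z par).biUnion fun f => f.toFinset := by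
    intro u hu
    obtain ⟨w, hadj, h1, h2⟩ := (Finset.mem_filter.1 hu).2
    refine Finset.mem_biUnion.2 ⟨s(u, w), Finset.mem_sdiff.2 ⟨mem_eIn_pair.2 ⟨hadj, mem_univ _, mem_univ _⟩, ?_⟩, ?_⟩
    · intro hmem
      obtain ⟨y, _, hy⟩ := Finset.mem_image.1 hmem
      rcases Sym2.eq_iff.1 hy with ⟨h3, h4⟩ | ⟨h3, h4⟩
      · exact h1 (by rw [← h4, h3])
      · exact h2 (by rw [← h3, h4])
    · exact Sym2.mem_toFinset.2 (Sym2.mem_mk_left u w)
  have hc : ∀ f ∈ eIn G univ \ treeE z par, (f.toFinset).card ≤ 2 := by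
    intro f _
    by_cases hd : f.IsDiag
    · rw [Sym2.card_toFinset_of_isDiag f hd]
      omega
    · rw [Sym2.card_toFinset_of_not_isDiag f hd]
  have h1 := (Finset.card_le_card hsub).trans (Finset.card_biUnion_le_card_mul _ _ 2 hc)
  rw [Finset.card_sdiff_of_subset (treeE_subset hT), treeE_card hT] at h1
  omega

lemma z_mem_core : z ∈ coreS G z par := Finset.mem_insert_self _ _

lemma par_mem_core (hT : RootedT G z par r) {y : β} (hy : y ∈ coreS G z par) :
    par y ∈ coreS G z par := by
  rcases Finset.mem_insert.1 hy with rfl | h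
  · rw [hT.parz]
    exact z_mem_core
  · obtain ⟨u, hu, k, hk⟩ := (Finset.mem_filter.1 h).2
    refine Finset.mem_insert_of_mem (Finset.mem_filter.2 ⟨mem_univ _, u, hu, k + 1, ?_⟩)
    rw [Function.iterate_succ_apply', hk]

lemma cs_off (hT : RootedT G z par r) {y : β} (hy : y ∉ coreS G z par) : cs G z par y = 0 := by
  unfold cs
  rw [Finset.card_eq_zero, Finset.filter_eq_empty_iff]
  rintro u - ⟨h1, _, h3⟩
  exact hy (h3 ▸ par_mem_core hT h1)

lemma sum_cs (hT : RootedT G z par r) :
    ∑ y, cs G z par y + 1 = (coreS G z par).card := by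
  have h1 : ((coreS G z par).erase z).card =
      ∑ y, (((coreS G z par).erase z).filter fun u => par u = y).card :=
    Finset.card_eq_sum_card_fiberwise (fun _ _ => mem_univ _)
  have h2 : ∀ y, ((((coreS G z par).erase z).filter fun u => par u = y).card) = cs G z par y := by
    intro y
    unfold cs
    congr 1
    ext u
    simp only [Finset.mem_filter, Finset.mem_erase, mem_univ, true_and]
    tauto
  simp only [h2] at h1
  rw [← h1, Finset.card_erase_of_mem z_mem_core]
  have : 0 < (coreS G z par).card := Finset.card_pos.2 ⟨z, z_mem_core⟩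
  omega

lemma leaf_bad (hT : RootedT G z par r) {y : β} (hy : y ∈ coreS G z par) (hz : y ≠ z)
    (h0 : cs G z par y = 0) : y ∈ badV G par := by
  rcases Finset.mem_insert.1 hy with h | h
  · exact absurd h hz
  · obtain ⟨u, hu, k, hk⟩ := (Finset.mem_filter.1 h).2
    cases k with
    | zero =>
      simp only [Function.iterate_zero, id] at hk
      exact hk ▸ hu
    | succ k =>
      exfalso
      rw [Function.iterate_succ_apply'] at hk
      by_cases hc : par^[k] u = z
      · rw [hc, hT.parz] at hk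
        exact hz hk.symm
      · have hmem : par^[k] u ∈ (univ.filter fun u => u ∈ coreS G z par ∧ u ≠ z ∧ par u = y) := by
          refine Finset.mem_filter.2 ⟨mem_univ _, Finset.mem_insert_of_mem
            (Finset.mem_filter.2 ⟨mem_univ _, u, hu, k, rfl⟩), hc, hk⟩
        have : 0 < cs G z par y := Finset.card_pos.2 ⟨_, hmem⟩
        omega

lemma sum_cs_sub_one (hT : RootedT G z par r) :
    ∑ y, (cs G z par y - 1) ≤ (badV G par).card := by
  set S := coreS G z par with hS
  have h0 : ∑ y, (cs G z par y - 1) = ∑ y ∈ S, (cs G z par y - 1) := by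
    refine (Finset.sum_subset (Finset.subset_univ S) ?_).symm
    intro y _ hy
    rw [cs_off hT hy]
    rfl
  have h1 : ∑ y, cs G z par y = ∑ y ∈ S, cs G z par y := by
    refine (Finset.sum_subset (Finset.subset_univ S) ?_).symm
    intro y _ hy
    exact cs_off hT hy
  have h2 : ∑ y ∈ S, ((cs G z par y - 1) + 1) = ∑ y ∈ S, (cs G z par y + if cs G z par y = 0 then 1 else 0) := by
    refine Finset.sum_congr rfl fun y _ => ?_
    split_ifs <;> omega
  rw [Finset.sum_add_distrib, Finset.sum_add_distrib] at h2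
  simp only [Finset.sum_const, smul_eq_mul, mul_one] at h2
  rw [← Finset.card_filter] at h2
  have h3 : ∑ y, cs G z par y + 1 = S.card := sum_cs hT
  rw [h1] at h3
  have h4 : (S.filter fun y => cs G z par y = 0) ⊆ insert z (badV G par) := by
    intro y hy
    obtain ⟨hy1, hy2⟩ := Finset.mem_filter.1 hy
    by_cases hz : y = z
    · rw [hz]
      exact Finset.mem_insert_self _ _
    · exact Finset.mem_insert_of_mem (leaf_bad hT hy1 hz hy2)
  have h5 := (Finset.card_le_card h4).trans (Finset.card_insert_le _ _)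
  rw [h0]
  omega

/-- `Σ_y (cs y - 3) ≤ 2 (e - v)` (truncated subtraction). -/
theorem cs_excess (hT : RootedT G z par r) :
    ∑ y, (cs G z par y - 3) ≤ 2 * ((eIn G univ).card - Fintype.card β) := by
  by_cases hex : ∃ y₀, 4 ≤ cs G z par y₀
  · obtain ⟨y₀, hy₀⟩ := hex
    have h1 : ∑ y, (cs G z par y - 3) + 2 ≤ ∑ y, (cs G z par y - 1) := by
      rw [← Finset.add_sum_erase univ _ (mem_univ y₀), ← Finset.add_sum_erase univ (fun y => cs G z par y - 1) (mem_univ y₀)]
      have h2 : ∑ y ∈ univ.erase y₀, (cs G z par y - 3) ≤ ∑ y ∈ univ.erase y₀, (cs G z par y - 1) :=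
        Finset.sum_le_sum fun y _ => by omega
      omega
    have h3 := sum_cs_sub_one hT
    have h4 := badV_card hT
    have hv : 0 < Fintype.card β := Fintype.card_pos_iff.2 ⟨z⟩
    omega
  · have h0 : ∑ y, (cs G z par y - 3) = 0 := by
      refine Finset.sum_eq_zero fun y _ => ?_
      have := not_exists.1 hex y
      omega
    omega

end tree

/-- `(8 Δ)^(Σ (cs - 3)) ≤ exp e`. -/
theorem core_budget (hG : GoodDensity n q H) {Δ A₁ : ℝ} {s₁ I : ℕ} (hV : Fintype.card V ≤ n)
    (hp : QPar n q l lam Δ A₁ s₁ I) {G : SimpleGraph β} {φ : β → V} (hφ : φ ∈ emb G H)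
    {z : β} {par : β → β} {r : β → ℕ} (hT : RootedT G z par r) :
    (8 * Δ) ^ (∑ y, (cs G z par y - 3)) ≤ Real.exp ((eIn G univ).card) := by
  set X := ∑ y, (cs G z par y - 3) with hXdef
  set e := (eIn G univ).card with he
  set v := Fintype.card β with hv
  have hXle : X ≤ 2 * (e - v) := cs_excess hT
  by_cases hev : e ≤ v
  · have hX0 : X = 0 := by omega
    rw [hX0, pow_zero]
    exact Real.one_le_exp (by positivity)
  have hvlt : v < e := not_le.1 hev
  have hs := hp.std
  have hl0 : 0 < l := by linarith [hs.l1]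
  have hD1 := hp.D1
  have hΔ1 : 1 ≤ Δ := by
    have h1 := hp.Δdeg
    have h2 : (1 : ℝ) ≤ Real.exp 2 := Real.one_le_exp (by norm_num)
    have h3 : (1 : ℝ) ≤ (n : ℝ) * q + l := by linarith [hs.l1]
    nlinarith
  have h8 : 0 < 8 * Δ := by linarith
  have hL8 : 0 ≤ Real.log (8 * Δ) := Real.log_nonneg (by linarith)
  -- density
  obtain ⟨hinj, hhom⟩ := mem_emb.1 hφ
  have hdens : (e : ℝ) * lam ≤ (v : ℝ) * l := by
    set T : Finset (Sym2 V) := (eIn G univ).image (Sym2.map φ) with hTdef
    have hTcard : T.card = e := Finset.card_image_of_injective _ (Sym2.map.injective hinj)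
    have hTedge : ∀ f ∈ T, f ∈ H.edgeSet := by
      intro f hf
      obtain ⟨f', hf', rfl⟩ := Finset.mem_image.1 hf
      induction f' using Sym2.ind with
      | _ a b =>
        rw [Sym2.map_mk]
        exact hhom a b (mem_eIn_pair.1 hf').1
    have h1 := density_log hG hs T hTedge
    have hvs : (vs T).card ≤ v := by
      have h2 : vs T ⊆ univ.image φ := by
        intro w hw
        obtain ⟨f, hf, hwf⟩ := Finset.mem_biUnion.1 hw
        obtain ⟨f', _, rfl⟩ := Finset.mem_image.1 hf
        have hw' := Sym2.mem_toFinset.1 hwf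
        obtain ⟨a, _, rfl⟩ := Sym2.mem_map.1 hw'
        exact Finset.mem_image_of_mem _ (mem_univ _)
      calc (vs T).card ≤ (univ.image φ).card := Finset.card_le_card h2
        _ ≤ (univ : Finset β).card := Finset.card_image_le
        _ = v := Finset.card_univ
    rw [hTcard] at h1
    refine h1.trans (mul_le_mul_of_nonneg_right ?_ hl0.le)
    exact_mod_cast hvs
  have hXr : (X : ℝ) ≤ 2 * ((e : ℝ) - v) := by
    have : ((2 * (e - v) : ℕ) : ℝ) = 2 * ((e : ℝ) - v) := by
      push_cast [Nat.cast_sub hvlt.le]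
      ring
    rw [← this]
    exact_mod_cast hXle
  have hN7 := hp.N7
  set L8 := Real.log (8 * Δ) with hL8def
  have h1 : (X : ℝ) * L8 ≤ 2 * ((e : ℝ) - v) * L8 := mul_le_mul_of_nonneg_right hXr hL8
  have h2 : ((e : ℝ) - v) * l ≤ e * (l - lam) := by nlinarith
  have he0 : (0 : ℝ) ≤ e := Nat.cast_nonneg _
  have h3 : 2 * ((e : ℝ) - v) * L8 * l ≤ (e : ℝ) * l := by
    have h4 : 2 * L8 * (((e : ℝ) - v) * l) ≤ 2 * L8 * ((e : ℝ) * (l - lam)) :=
      mul_le_mul_of_nonneg_left h2 (by positivity)
    have h5 : (e : ℝ) * (4 * (l - lam) * L8) ≤ (e : ℝ) * lam := mul_le_mul_of_nonneg_left hN7 he0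
    have h6 : (e : ℝ) * lam ≤ (e : ℝ) * l := mul_le_mul_of_nonneg_left hs.lam_le he0
    nlinarith
  have h7 : 2 * ((e : ℝ) - v) * L8 ≤ (e : ℝ) := le_of_mul_le_mul_right h3 hl0
  have h9 : (X : ℝ) * L8 ≤ (e : ℝ) := h1.trans h7
  calc (8 * Δ) ^ X = Real.exp ((X : ℝ) * L8) := by
        rw [Real.exp_nat_mul, Real.exp_log h8]
    _ ≤ Real.exp (e : ℝ) := Real.exp_le_exp.2 h9

end Vale.Agent.Lib.P064Q
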