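import Vale.Agent.Lib.P064Q.Deco
import Vale.Agent.Lib.P064U.WAnchor
import Vale.Agent.Lib.P064S.Degree

/-!
Vertex classes of an embedding, numeric parameters (notes/P064Q_blueprint.md, part CL).
-/

open Finset

namespace Vale.Agent.Lib.P064Q

open Vale.Agent.Lib.P064 Vale.Agent.Lib.P064E Vale.Agent.Lib.P064U
open scoped Classical

variable {V β : Type} [Fintype V] [Fintype β] {H : SimpleGraph V} {n : ℕ} {q l lam : ℝ}

/-- The numeric parameters.  `D = n q`; `A₁ = 2 ^ s₁ ≥ 4096 D`; `Δ` bounds degrees, `Δ < 2 ^ I`. -/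
structure QPar (n : ℕ) (q l lam Δ A₁ : ℝ) (s₁ I : ℕ) : Prop where
  std : Std n q l lam
  D1 : 1 ≤ (n : ℝ) * q
  s12 : 12 ≤ s₁
  A₁eq : A₁ = 2 ^ s₁
  Alow : 4096 * ((n : ℝ) * q) ≤ A₁
  Δdeg : Real.exp 2 * ((n : ℝ) * q + l) ≤ Δ
  ΔI : Δ < 2 ^ I
  rho : 2 * l ≤ 3 * lam
  N7 : 4 * (l - lam) * Real.log (8 * Δ) ≤ lam

/-- Classes: `Sum.inl 0` low, `Sum.inl 1` dense in `G`, `Sum.inl 2` chord heavy, `Sum.inr i` hub of level `i`. -/
abbrev Cls (I : ℕ) := Fin 3 ⊕ Fin I

/-- The class of `y` for the embedding `φ`.  `a = deg φ y`, `inn` = neighbours of `φ y` in the image of `φ`, `i = log₂ a`. -/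
noncomputable def classOf (G : SimpleGraph β) (H : SimpleGraph V) (A₁ : ℝ) (I : ℕ) (φ : β → V) (y : β) : Cls I :=
  if ((nb H (φ y)).card : ℝ) < A₁ then Sum.inl 0
  else if ((nb H (φ y)) ∩ univ.image φ).card < 2 ^ (Nat.log 2 (nb H (φ y)).card - 1) then
    (if h : Nat.log 2 (nb H (φ y)).card < I then Sum.inr ⟨_, h⟩ else Sum.inl 0)
  else if ((nb H (φ y)) ∩ univ.image φ).card ≤ 2 * (nb G y).card then Sum.inl 1 else Sum.inl 2

/-- The degree bound of a class. -/
noncomputable def fQ {I : ℕ} (A₁ Δ : ℝ) (δ : ℕ) : Cls I → ℝ :=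
  Sum.elim (fun k => if k = 0 then A₁ else if k = 1 then 8 * (δ : ℝ) else 2 * Δ)
    (fun i => 2 ^ ((i : ℕ) + 1))

/-- The number of hairs of a class. -/
def jQ {I : ℕ} : Cls I → ℕ := Sum.elim (fun _ => 0) (fun i => 2 ^ ((i : ℕ) - 3))

/-- Facts on classes, for `φ ∈ emb G H`, all from the definition, `Nat.log` (`2^i ≤ a < 2^(i+1)`) and `degree_bound`
(Lib/P064S/Degree.lean: all degrees are at most `Δ`):
(1) `deg ≤ fQ`; (2) hub of level `i`: `s₁ ≤ i`, `2^i ≤ a`, `inn < 2^(i-1)`, `2^i ≤ Δ`; (3) dense in `G`: `nb G y` has at most `Δ` elements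
and `a ≤ 8 δ`; (4) chord heavy: `2 δ < inn`, `512 ≤ inn - δ` and `δ ≤ inn - δ`. -/
theorem classOf_spec (hG : GoodDensity n q H) {Δ A₁ : ℝ} {s₁ I : ℕ} (hV : Fintype.card V ≤ n)
    (hp : QPar n q l lam Δ A₁ s₁ I)
    (G : SimpleGraph β) {φ : β → V} (hφ : φ ∈ emb G H) (y : β) :
    (((nb H (φ y)).card : ℝ) ≤ fQ A₁ Δ (nb G y).card (classOf G H A₁ I φ y)) ∧
    ((nb G y).card : ℝ) ≤ Δ ∧
    (∀ i : Fin I, classOf G H A₁ I φ y = Sum.inr i →
      s₁ ≤ (i : ℕ) ∧ 2 ^ (i : ℕ) ≤ (nb H (φ y)).card ∧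
        ((nb H (φ y)) ∩ univ.image φ).card < 2 ^ ((i : ℕ) - 1) ∧ (2 : ℝ) ^ (i : ℕ) ≤ Δ) ∧
    (classOf G H A₁ I φ y = Sum.inl 2 →
      2 * (nb G y).card < ((nb H (φ y)) ∩ univ.image φ).card ∧
        512 ≤ ((nb H (φ y)) ∩ univ.image φ).card - (nb G y).card) := by
  classical
  have hstd := hp.std
  have hq1 : q ≤ 1 := hstd.q1
  -- degree bound
  have hdeg : ((nb H (φ y)).card : ℝ) ≤ Δ := by
    have h := degree_bound hG hstd.q0 hq1 hstd.n1 hV hp.D1 (φ y)
    have hnb : ((univ : Finset V).filter (fun b => H.Adj (φ y) b)) = nb H (φ y) := rfl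
    rw [hnb] at h
    have hl := hstd.l_eq
    have hd := hp.Δdeg
    rw [hl] at hd
    linarith
  -- the degree of y in G is at most the degree of φ y in H
  have hinj : Function.Injective φ := (mem_emb.1 hφ).1
  have hadj : ∀ u v, G.Adj u v → H.Adj (φ u) (φ v) := (mem_emb.1 hφ).2
  have hsub : (nb G y).card ≤ (nb H (φ y)).card := by
    refine Finset.card_le_card_of_injOn φ ?_ (fun a _ b _ hab => hinj hab)
    intro u hu
    have hu' : u ∈ nb G y := by simpa using hu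
    have : φ u ∈ nb H (φ y) := mem_nb.2 (hadj _ _ (mem_nb.1 hu'))
    simpa using this
  have hδ : ((nb G y).card : ℝ) ≤ Δ :=
    le_trans (by exact_mod_cast hsub) hdeg
  have hA₁ : A₁ = 2 ^ s₁ := hp.A₁eq
  -- abbreviations
  set a := (nb H (φ y)).card with ha
  set inn := ((nb H (φ y)) ∩ univ.image φ).card with hinn
  set δ := (nb G y).card with hδdef
  have hbig : (A₁ ≤ (a : ℝ)) → s₁ ≤ Nat.log 2 a ∧ 12 ≤ Nat.log 2 a ∧ a ≠ 0 := by
    intro hA
    have h2 : (2 : ℝ) ^ s₁ ≤ (a : ℝ) := by rw [← hA₁]; exact hA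
    have h3 : 2 ^ s₁ ≤ a := by exact_mod_cast h2
    have ha0 : a ≠ 0 := by
      intro h0
      rw [h0] at h3
      have : 0 < 2 ^ s₁ := by positivity
      omega
    have h4 : s₁ ≤ Nat.log 2 a := Nat.le_log_of_pow_le (by norm_num) h3
    exact ⟨h4, le_trans hp.s12 h4, ha0⟩
  have hpow : a ≠ 0 → 2 ^ Nat.log 2 a ≤ a := fun h => Nat.pow_log_le_self 2 h
  have hlt : a < 2 ^ (Nat.log 2 a + 1) := Nat.lt_pow_succ_log_self (by norm_num) a
  have hΔ0 : 0 ≤ Δ := le_trans (by positivity) hdeg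
  unfold classOf
  by_cases h1 : (a : ℝ) < A₁
  · -- low
    rw [if_pos h1]
    refine ⟨?_, hδ, ?_, ?_⟩
    · simp only [fQ, Sum.elim_inl]
      simpa using h1.le
    · intro i hi; exact absurd hi (by simp)
    · intro hi; exact absurd hi (by simp)
  · rw [if_neg h1]
    have h1' : A₁ ≤ (a : ℝ) := not_lt.1 h1
    obtain ⟨hs, h12, ha0⟩ := hbig h1'
    have hpw := hpow ha0
    by_cases h2 : inn < 2 ^ (Nat.log 2 a - 1)
    · rw [if_pos h2]
      by_cases h3 : Nat.log 2 a < I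
      · rw [dif_pos h3]
        refine ⟨?_, hδ, ?_, ?_⟩
        · simp only [fQ, Sum.elim_inr]
          have : ((a : ℝ)) ≤ ((2 ^ (Nat.log 2 a + 1) : ℕ) : ℝ) := by exact_mod_cast hlt.le
          simpa using this
        · intro i hi
          have hi' : (⟨Nat.log 2 a, h3⟩ : Fin I) = i := Sum.inr_injective hi
          have hival : (i : ℕ) = Nat.log 2 a := by rw [← hi']
          rw [hival]
          refine ⟨hs, hpw, h2, ?_⟩
          have : ((2 ^ Nat.log 2 a : ℕ) : ℝ) ≤ (a : ℝ) := by exact_mod_cast hpw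
          have h5 : ((2 : ℝ) ^ Nat.log 2 a) ≤ (a : ℝ) := by simpa using this
          linarith
        · intro hi; exact absurd hi (by simp)
      · exfalso
        have h4 : I ≤ Nat.log 2 a := not_lt.1 h3
        have h5 : (2 : ℕ) ^ I ≤ a := le_trans (Nat.pow_le_pow_right (by norm_num) h4) hpw
        have h6 : ((2 : ℝ) ^ I) ≤ (a : ℝ) := by exact_mod_cast h5
        have h7 := hp.ΔI
        linarith
    · rw [if_neg h2]
      have h2' : 2 ^ (Nat.log 2 a - 1) ≤ inn := not_lt.1 h2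
      have hsplit : 2 ^ (Nat.log 2 a + 1) = 4 * 2 ^ (Nat.log 2 a - 1) := by
        have : Nat.log 2 a + 1 = (Nat.log 2 a - 1) + 2 := by omega
        rw [this, pow_add]; ring
      have hinn2048 : 2048 ≤ inn := by
        have : 2 ^ 11 ≤ 2 ^ (Nat.log 2 a - 1) :=
          Nat.pow_le_pow_right (by norm_num) (by omega)
        have h2048 : (2 : ℕ) ^ 11 = 2048 := by norm_num
        omega
      by_cases h3 : inn ≤ 2 * δ
      · rw [if_pos h3]
        refine ⟨?_, hδ, ?_, ?_⟩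
        · simp only [fQ, Sum.elim_inl]
          have h8 : a ≤ 8 * δ := by omega
          have : (a : ℝ) ≤ ((8 * δ : ℕ) : ℝ) := by exact_mod_cast h8
          have h9 : ((8 * δ : ℕ) : ℝ) = 8 * (δ : ℝ) := by push_cast; ring
          simpa [h9] using this
        · intro i hi; exact absurd hi (by simp)
        · intro hi
          have : (1 : Fin 3) = 2 := Sum.inl_injective hi
          exact absurd this (by decide)
      · rw [if_neg h3]
        have h3' : 2 * δ < inn := not_le.1 h3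
        refine ⟨?_, hδ, ?_, ?_⟩
        · simp only [fQ, Sum.elim_inl]
          have : (if (2 : Fin 3) = 0 then A₁ else if (2 : Fin 3) = 1 then 8 * (δ : ℝ) else 2 * Δ) = 2 * Δ := by
            simp
          rw [this]
          linarith
        · intro i hi; exact absurd hi (by simp)
        · intro _
          refine ⟨h3', ?_⟩
          omega

end Vale.Agent.Lib.P064Q
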