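import Vale.Agent.Lib.P064Q.Classes

/-!
The weight of a vertex (notes/P064Q_blueprint.md, part NV).  All real inequalities, no graphs.
-/

open Finset

namespace Vale.Agent.Lib.P064Q

/-- The weight of a class, with `cF` forest children and `cS` core children. -/
noncomputable def WQ {I : ℕ} (A₁ D : ℝ) (s₁ δ cF cS : ℕ) : Cls I → ℝ :=
  Sum.elim
    (fun k => if k = 0 then A₁ ^ (cF + cS)
      else if k = 1 then (8 * (δ : ℝ)) ^ cF / (cF.factorial : ℝ) * (8 * (δ : ℝ)) ^ (min cS 3) else 1)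
    (fun i => if s₁ ≤ (i : ℕ) then
        (1 + ((2 ^ ((i : ℕ) - 3) : ℕ) : ℝ)) * (4 * D) ^ (2 ^ ((i : ℕ) - 3)) *
          ((2 : ℝ) ^ ((i : ℕ) + 1)) ^ (cF + min cS 3) / ((cF + 2 ^ ((i : ℕ) - 3)).factorial : ℝ)
      else 0)

/-- `N^N ≤ exp N * N!`. -/
theorem nv_pow_self_le (N : ℕ) : (N : ℝ) ^ N ≤ Real.exp N * (N.factorial : ℝ) := by
  have h := Real.pow_div_factorial_le_exp (N : ℝ) (Nat.cast_nonneg N) N
  have hf : (0 : ℝ) < (N.factorial : ℝ) := by exact_mod_cast Nat.factorial_pos N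
  rwa [div_le_iff₀ hf] at h


theorem nv_sixteen_mul_le (j : ℕ) (hj : 8 ≤ j) : 16 * j ≤ 2 ^ j := by
  induction j, hj using Nat.le_induction with
  | base => norm_num
  | succ n hn ih =>
    rw [pow_succ]
    omega


/-- The main numeric step of the hub weight. -/
theorem nv_hub_core (j cF : ℕ) (hj : 512 ≤ j) (x : ℝ) (hx0 : 0 ≤ x) (hx : x ≤ (j : ℝ) / 128) :
    x ^ j * ((16 : ℝ) * j) ^ cF / ((cF + j).factorial : ℝ) ≤
      (16 * Real.exp 1) ^ cF * (Real.exp 1 / 128) ^ j := by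
  have hj0 : (0 : ℝ) < (j : ℝ) := by
    have : 0 < j := by omega
    exact_mod_cast this
  set N := cF + j with hN
  have hN0 : (0 : ℝ) < (N : ℝ) := by
    have : 0 < N := by omega
    exact_mod_cast this
  have hf : (0 : ℝ) < (N.factorial : ℝ) := by exact_mod_cast Nat.factorial_pos N
  have hjN : (j : ℝ) ≤ (N : ℝ) := by
    rw [hN]; push_cast; linarith [(Nat.cast_nonneg cF : (0:ℝ) ≤ cF)]
  have h1 : (1 : ℝ) / (N.factorial : ℝ) ≤ Real.exp N / (N : ℝ) ^ N := by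
    rw [div_le_div_iff₀ hf (pow_pos hN0 N)]
    have := nv_pow_self_le N
    linarith
  have hexp : Real.exp N = Real.exp 1 ^ cF * Real.exp 1 ^ j := by
    rw [← pow_add, ← Real.exp_nat_mul]
    simp [hN]
  have hNpow : (N : ℝ) ^ N = (N : ℝ) ^ cF * (N : ℝ) ^ j := by
    rw [hN, pow_add]
  calc x ^ j * ((16 : ℝ) * j) ^ cF / (N.factorial : ℝ)
      = x ^ j * ((16 : ℝ) * j) ^ cF * (1 / (N.factorial : ℝ)) := by ring
    _ ≤ ((j : ℝ) / 128) ^ j * ((16 : ℝ) * j) ^ cF * (Real.exp N / (N : ℝ) ^ N) := by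
        apply mul_le_mul _ h1 (by positivity) (by positivity)
        apply mul_le_mul_of_nonneg_right _ (by positivity)
        exact pow_le_pow_left₀ hx0 hx j
    _ = (16 * Real.exp 1 * ((j : ℝ) / N)) ^ cF * (Real.exp 1 / 128 * ((j : ℝ) / N)) ^ j := by
        rw [hexp, hNpow]
        simp only [mul_pow, div_pow]
        have h2 : (N : ℝ) ^ cF ≠ 0 := (pow_pos hN0 _).ne'
        have h3 : (N : ℝ) ^ j ≠ 0 := (pow_pos hN0 _).ne'
        have h4 : (128 : ℝ) ^ j ≠ 0 := (pow_pos (by norm_num) _).ne'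
        field_simp
    _ ≤ (16 * Real.exp 1) ^ cF * (Real.exp 1 / 128) ^ j := by
        have hr0 : 0 ≤ (j : ℝ) / N := by positivity
        have hr1 : (j : ℝ) / N ≤ 1 := by
          rw [div_le_one hN0]; exact hjN
        have he : 0 ≤ Real.exp 1 := (Real.exp_pos 1).le
        apply mul_le_mul
        · apply pow_le_pow_left₀ (by positivity)
          nlinarith [mul_nonneg he hr0, mul_nonneg (sub_nonneg.2 hr1) he]
        · apply pow_le_pow_left₀ (by positivity)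
          nlinarith [mul_nonneg he hr0, mul_nonneg (sub_nonneg.2 hr1) he]
        · positivity
        · positivity

/-- The weight of a hub.  `j = 2^(i-3) ≥ 512`, `2^(i+1) = 16 j`, `4 D ≤ j / 128`.  With `N = cF + j ≥ j`, `N^N ≤ exp N * N!` (`Real.pow_div_factorial_le_exp`):
`(16 j)^cF (j/128)^j / N! ≤ (16 j e / N)^cF (j e / (128 N))^j ≤ (16 e)^cF (e/128)^j`; and `(1 + j) (16 j)^3 (e/128)^j ≤ 2^(-4 j) ≤ 2^(-i)`. -/
theorem hub_weight_le {A₁ D : ℝ} {s₁ cF cS i : ℕ} (hs : 12 ≤ s₁) (hA : A₁ = 2 ^ s₁)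
    (hD0 : 0 ≤ D) (hD : 4096 * D ≤ A₁) (hi : s₁ ≤ i) :
    (1 + ((2 ^ (i - 3) : ℕ) : ℝ)) * (4 * D) ^ (2 ^ (i - 3)) *
        ((2 : ℝ) ^ (i + 1)) ^ (cF + min cS 3) / ((cF + 2 ^ (i - 3)).factorial : ℝ) ≤
      (16 * Real.exp 1) ^ cF * (1 / 2) ^ i := by
  obtain ⟨t, rfl⟩ : ∃ t, i = t + 3 := ⟨i - 3, by omega⟩
  have ht : 9 ≤ t := by omega
  simp only [Nat.add_sub_cancel]
  set j : ℕ := 2 ^ t with hj
  have hjr : (j : ℝ) = 2 ^ t := by rw [hj]; push_cast; rfl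
  have hj512 : 512 ≤ j := by
    calc 512 = 2 ^ 9 := by norm_num
      _ ≤ 2 ^ t := Nat.pow_le_pow_right (by norm_num) ht
  have hjr1 : (512 : ℝ) ≤ (j : ℝ) := by exact_mod_cast hj512
  have h2i : (2 : ℝ) ^ (t + 3 + 1) = 16 * j := by
    rw [hjr]; ring
  have h4D : 4 * D ≤ (j : ℝ) / 128 := by
    have h1 : A₁ ≤ 2 ^ (t + 3) := by
      rw [hA]; exact pow_le_pow_right₀ (by norm_num) hi
    have h2 : (2 : ℝ) ^ (t + 3) = 8 * j := by rw [hjr]; ring
    rw [h2] at h1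
    linarith
  rw [h2i]
  have hc3 : min cS 3 ≤ 3 := min_le_right _ _
  have hpow : ((16 : ℝ) * j) ^ (cF + min cS 3) ≤ ((16 : ℝ) * j) ^ cF * ((16 : ℝ) * j) ^ 3 := by
    rw [pow_add]
    apply mul_le_mul_of_nonneg_left _ (by positivity)
    apply pow_le_pow_right₀ _ hc3
    nlinarith
  have hf : (0 : ℝ) < ((cF + j).factorial : ℝ) := by exact_mod_cast Nat.factorial_pos _
  have hcore := nv_hub_core j cF hj512 (4 * D) (by positivity) h4D
  have he3 : Real.exp 1 ≤ 4 := by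
    have := Real.exp_one_lt_d9
    linarith
  have he0 : 0 ≤ Real.exp 1 := (Real.exp_pos 1).le
  -- the numeric tail
  have htail : (1 + (j : ℝ)) * ((16 : ℝ) * j) ^ 3 * (Real.exp 1 / 128) ^ j ≤ (1 / 2) ^ (t + 3) := by
    have h32 : (Real.exp 1 / 128) ^ j ≤ (1 / 32 : ℝ) ^ j := by
      apply pow_le_pow_left₀ (by positivity)
      linarith
    have hkey : (16 * j) ≤ 2 ^ j := nv_sixteen_mul_le j (by omega)
    have hkeyr : (16 * (j : ℝ)) ≤ 2 ^ j := by exact_mod_cast hkey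
    have h5 : (16 * (j : ℝ)) ^ 5 ≤ (32 : ℝ) ^ j := by
      calc (16 * (j : ℝ)) ^ 5 ≤ ((2 : ℝ) ^ j) ^ 5 := pow_le_pow_left₀ (by positivity) hkeyr 5
        _ = (32 : ℝ) ^ j := by
          rw [← pow_mul, mul_comm, pow_mul]; norm_num
    have h32' : ((1 : ℝ) / 32) ^ j = 1 / (32 : ℝ) ^ j := by
      rw [div_pow, one_pow]
    have hhalf : ((1 : ℝ) / 2) ^ (t + 3) = 1 / (8 * (j : ℝ)) := by
      rw [div_pow, one_pow, hjr]
      ring
    rw [hhalf]
    have hp32 : (0 : ℝ) < (32 : ℝ) ^ j := by positivity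
    have hjpos : (0 : ℝ) < j := by linarith
    calc (1 + (j : ℝ)) * ((16 : ℝ) * j) ^ 3 * (Real.exp 1 / 128) ^ j
        ≤ (1 + (j : ℝ)) * ((16 : ℝ) * (j : ℝ)) ^ 3 * (1 / (32 : ℝ) ^ j) := by
          rw [← h32']
          exact mul_le_mul_of_nonneg_left h32 (by positivity)
      _ ≤ 1 / (8 * (j : ℝ)) := by
          rw [mul_one_div, div_le_div_iff₀ hp32 (by positivity)]
          have : (1 + (j : ℝ)) * (16 * (j : ℝ)) ^ 3 * (8 * j) ≤ (16 * (j : ℝ)) ^ 5 := by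
            have hjj : (1 + (j : ℝ)) ≤ 2 * j := by linarith
            have h7 : (2 * (j : ℝ)) * (16 * (j : ℝ)) ^ 3 * (8 * (j : ℝ)) ≤ (16 * (j : ℝ)) ^ 5 := by
              have h8 : (0 : ℝ) ≤ (j : ℝ) ^ 5 := by positivity
              have h9 : (16 * (j : ℝ)) ^ 5 = 1048576 * (j : ℝ) ^ 5 := by ring
              have h10 : (2 * (j : ℝ)) * (16 * (j : ℝ)) ^ 3 * (8 * (j : ℝ)) = 65536 * (j : ℝ) ^ 5 := by
                ring
              rw [h9, h10]
              linarith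
            refine le_trans ?_ h7
            apply mul_le_mul_of_nonneg_right _ (by positivity)
            apply mul_le_mul_of_nonneg_right hjj (by positivity)
          linarith
  have hone : (0 : ℝ) ≤ 1 + (j : ℝ) := by positivity
  calc (1 + (j : ℝ)) * (4 * D) ^ j * ((16 : ℝ) * j) ^ (cF + min cS 3) / ((cF + j).factorial : ℝ)
      ≤ (1 + (j : ℝ)) * (4 * D) ^ j * (((16 : ℝ) * j) ^ cF * ((16 : ℝ) * j) ^ 3) /
          ((cF + j).factorial : ℝ) := by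
        apply div_le_div_of_nonneg_right _ hf.le
        apply mul_le_mul_of_nonneg_left hpow (by positivity)
    _ = (1 + (j : ℝ)) * ((16 : ℝ) * j) ^ 3 *
          ((4 * D) ^ j * ((16 : ℝ) * j) ^ cF / ((cF + j).factorial : ℝ)) := by ring
    _ ≤ (1 + (j : ℝ)) * ((16 : ℝ) * j) ^ 3 *
          ((16 * Real.exp 1) ^ cF * (Real.exp 1 / 128) ^ j) := by
        apply mul_le_mul_of_nonneg_left hcore (by positivity)
    _ = (16 * Real.exp 1) ^ cF * ((1 + (j : ℝ)) * ((16 : ℝ) * j) ^ 3 * (Real.exp 1 / 128) ^ j) := by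
        ring
    _ ≤ (16 * Real.exp 1) ^ cF * (1 / 2) ^ (t + 3) := by
        apply mul_le_mul_of_nonneg_left htail (by positivity)

/-- The sum of the weights over all classes: low `≤ A₁^(cF+cS)`; dense: `x^k/k! ≤ exp x` and `(8 δ)^(min cS 3) ≤ exp (24 δ)`; chord: `1`; hubs: `hub_weight_le` and the geometric series. -/
theorem vertex_sum {I : ℕ} {A₁ D : ℝ} {s₁ δ cF cS : ℕ} (hs : 12 ≤ s₁) (hA : A₁ = 2 ^ s₁)
    (hD0 : 0 ≤ D) (hD : 4096 * D ≤ A₁) :
    ∑ c : Cls I, WQ A₁ D s₁ δ cF cS c ≤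
      5 * (16 * Real.exp 1 * A₁) ^ (cF + cS) * Real.exp (32 * (δ : ℝ)) := by
  have he1 : 1 ≤ Real.exp 1 := by
    have := Real.add_one_le_exp (1 : ℝ); linarith
  have hA1 : 1 ≤ A₁ := by
    rw [hA]; exact one_le_pow₀ (by norm_num)
  set K : ℝ := (16 * Real.exp 1 * A₁) ^ (cF + cS) * Real.exp (32 * (δ : ℝ)) with hK
  have hbase1 : 1 ≤ 16 * Real.exp 1 * A₁ := by nlinarith
  have hK1 : 1 ≤ (16 * Real.exp 1 * A₁) ^ (cF + cS) := one_le_pow₀ hbase1
  have hE1 : 1 ≤ Real.exp (32 * (δ : ℝ)) := by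
    apply Real.one_le_exp; positivity
  have hKpos : 1 ≤ K := by
    rw [hK]; nlinarith
  rw [Fintype.sum_sum_type]
  have h3 : ∑ k : Fin 3, WQ (I := I) A₁ D s₁ δ cF cS (Sum.inl k) ≤ 3 * K := by
    rw [Fin.sum_univ_three]
    have h0 : WQ (I := I) A₁ D s₁ δ cF cS (Sum.inl 0) ≤ K := by
      simp only [WQ, Sum.elim_inl, if_true]
      rw [hK]
      have : A₁ ^ (cF + cS) ≤ (16 * Real.exp 1 * A₁) ^ (cF + cS) := by
        apply pow_le_pow_left₀ (by linarith)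
        nlinarith
      nlinarith [pow_pos (show (0 : ℝ) < A₁ by linarith) (cF + cS)]
    have h1 : WQ (I := I) A₁ D s₁ δ cF cS (Sum.inl 1) ≤ K := by
      have hWQ : WQ (I := I) A₁ D s₁ δ cF cS (Sum.inl 1) =
          (8 * (δ : ℝ)) ^ cF / (cF.factorial : ℝ) * (8 * (δ : ℝ)) ^ (min cS 3) := by
        simp [WQ]
      rw [hWQ]
      set x : ℝ := 8 * (δ : ℝ) with hx
      have hx0 : 0 ≤ x := by positivity
      have ha : x ^ cF / (cF.factorial : ℝ) ≤ Real.exp x := Real.pow_div_factorial_le_exp x hx0 cF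
      have hb : x ^ (min cS 3) ≤ Real.exp (3 * x) := by
        have hxe : x ≤ Real.exp x := by
          have := Real.add_one_le_exp x; linarith
        calc x ^ (min cS 3) ≤ (Real.exp x) ^ (min cS 3) := pow_le_pow_left₀ hx0 hxe _
          _ ≤ (Real.exp x) ^ 3 := by
              apply pow_le_pow_right₀ (Real.one_le_exp hx0) (min_le_right _ _)
          _ = Real.exp (3 * x) := by
              rw [← Real.exp_nat_mul]; norm_num
      have hc : x ^ cF / (cF.factorial : ℝ) * x ^ (min cS 3) ≤ Real.exp (32 * (δ : ℝ)) := by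
        calc x ^ cF / (cF.factorial : ℝ) * x ^ (min cS 3)
            ≤ Real.exp x * Real.exp (3 * x) :=
              mul_le_mul ha hb (by positivity) (Real.exp_pos _).le
          _ = Real.exp (32 * (δ : ℝ)) := by
              rw [← Real.exp_add]; congr 1; rw [hx]; ring
      rw [hK]
      calc _ ≤ Real.exp (32 * (δ : ℝ)) := hc
        _ ≤ _ := by nlinarith
    have h2 : WQ (I := I) A₁ D s₁ δ cF cS (Sum.inl 2) ≤ K := by
      have hWQ : WQ (I := I) A₁ D s₁ δ cF cS (Sum.inl 2) = 1 := by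
        simp [WQ]
      rw [hWQ]
      exact hKpos
    linarith
  have hI : ∑ i : Fin I, WQ (I := I) A₁ D s₁ δ cF cS (Sum.inr i) ≤ 2 * K := by
    have hgeo : ∑ i : Fin I, ((1 : ℝ) / 2) ^ (i : ℕ) ≤ 2 := by
      rw [Fin.sum_univ_eq_sum_range (fun i => ((1 : ℝ) / 2) ^ i) I]
      have := (summable_geometric_two).sum_le_tsum (range I) (fun i _ => by positivity)
      rw [tsum_geometric_two] at this
      exact this
    have hterm : ∀ i : Fin I, WQ (I := I) A₁ D s₁ δ cF cS (Sum.inr i) ≤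
        (16 * Real.exp 1) ^ cF * (1 / 2) ^ (i : ℕ) := by
      intro i
      simp only [WQ, Sum.elim_inr]
      split_ifs with h
      · exact hub_weight_le hs hA hD0 hD h
      · positivity
    calc ∑ i : Fin I, WQ (I := I) A₁ D s₁ δ cF cS (Sum.inr i)
        ≤ ∑ i : Fin I, (16 * Real.exp 1) ^ cF * (1 / 2) ^ (i : ℕ) :=
          Finset.sum_le_sum fun i _ => hterm i
      _ = (16 * Real.exp 1) ^ cF * ∑ i : Fin I, ((1 : ℝ) / 2) ^ (i : ℕ) := by
          rw [Finset.mul_sum]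
      _ ≤ (16 * Real.exp 1) ^ cF * 2 := by
          apply mul_le_mul_of_nonneg_left hgeo (by positivity)
      _ ≤ 2 * K := by
          have h5 : (16 * Real.exp 1) ^ cF ≤ (16 * Real.exp 1 * A₁) ^ (cF + cS) := by
            calc (16 * Real.exp 1) ^ cF ≤ (16 * Real.exp 1 * A₁) ^ cF := by
                  apply pow_le_pow_left₀ (by positivity)
                  nlinarith
              _ ≤ _ := pow_le_pow_right₀ hbase1 (by omega)
          rw [hK]
          have h6 : 0 ≤ (16 * Real.exp 1) ^ cF := by positivity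
          nlinarith [mul_le_mul h5 hE1 (by norm_num) (by positivity : (0:ℝ) ≤ (16 * Real.exp 1 * A₁) ^ (cF + cS))]
  have : 5 * (16 * Real.exp 1 * A₁) ^ (cF + cS) * Real.exp (32 * (δ : ℝ)) = 5 * K := by
    rw [hK]; ring
  rw [this]
  linarith

/-- The factor of a class other than chord heavy is at most the weight times `(8 Δ)^(cS - 3)`. Hypotheses: `1 ≤ 8 Δ`; for a dense class `δ ≤ Δ`; for a hub of level `i`: `s₁ ≤ i`, `2^i ≤ Δ`.
(`x^(cF+cS) ≤ x^(cF + min cS 3) (8 Δ)^(cS - 3)` if `1 ≤ ... `, `x ≤ 8 Δ`; for `low` use `1 ≤ cF!`, `1 ≤ (8 Δ)^_`.) -/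
theorem factor_le_weight {I : ℕ} {A₁ D Δ : ℝ} {s₁ δ cF cS : ℕ} (hA0 : 1 ≤ A₁) (hD0 : 0 ≤ D) (hΔ : 1 ≤ 8 * Δ)
    (hδ : (δ : ℝ) ≤ Δ) (c : Cls I) (hc : c ≠ Sum.inl 2)
    (hhub : ∀ i : Fin I, c = Sum.inr i → s₁ ≤ (i : ℕ) ∧ (2 : ℝ) ^ (i : ℕ) ≤ Δ) :
    (1 + (jQ c : ℝ)) * (4 * D) ^ (jQ c) * (fQ A₁ Δ δ c) ^ (cF + cS) / ((cF + jQ c).factorial : ℝ) ≤
      (8 * Δ) ^ (cS - 3) * WQ A₁ D s₁ δ cF cS c := by
  have hsplit : cS = min cS 3 + (cS - 3) := by omega
  have hone : (1 : ℝ) ≤ (8 * Δ) ^ (cS - 3) := one_le_pow₀ hΔ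
  rcases c with k | i
  · fin_cases k
    · -- low
      simp only [jQ, fQ, WQ, Sum.elim_inl]
      simp
      have hf : (1 : ℝ) ≤ (cF.factorial : ℝ) := by exact_mod_cast Nat.factorial_pos cF
      have hp : 0 ≤ A₁ ^ (cF + cS) := by positivity
      calc A₁ ^ (cF + cS) / (cF.factorial : ℝ) ≤ A₁ ^ (cF + cS) := div_le_self hp hf
        _ ≤ (8 * Δ) ^ (cS - 3) * A₁ ^ (cF + cS) := le_mul_of_one_le_left hp hone
    · -- dense
      simp only [jQ, fQ, WQ, Sum.elim_inl]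
      simp
      have hf : (0 : ℝ) < (cF.factorial : ℝ) := by exact_mod_cast Nat.factorial_pos cF
      have hd0 : (0 : ℝ) ≤ (δ : ℝ) := Nat.cast_nonneg δ
      have hpow : (8 * (δ : ℝ)) ^ (cS - 3) ≤ (8 * Δ) ^ (cS - 3) :=
        pow_le_pow_left₀ (by positivity) (by linarith) _
      have heq : (8 * (δ : ℝ)) ^ (cF + cS) =
          (8 * (δ : ℝ)) ^ cF * (8 * (δ : ℝ)) ^ (min cS 3) * (8 * (δ : ℝ)) ^ (cS - 3) := by
        rw [← pow_add, ← pow_add]
        congr 1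
        omega
      rw [heq]
      have hnn : 0 ≤ (8 * (δ : ℝ)) ^ cF * (8 * (δ : ℝ)) ^ (min cS 3) / (cF.factorial : ℝ) := by
        positivity
      calc (8 * (δ : ℝ)) ^ cF * (8 * (δ : ℝ)) ^ (min cS 3) * (8 * (δ : ℝ)) ^ (cS - 3) /
            (cF.factorial : ℝ)
          = (8 * (δ : ℝ)) ^ (cS - 3) *
              ((8 * (δ : ℝ)) ^ cF * (8 * (δ : ℝ)) ^ (min cS 3) / (cF.factorial : ℝ)) := by ring
        _ ≤ (8 * Δ) ^ (cS - 3) *
              ((8 * (δ : ℝ)) ^ cF * (8 * (δ : ℝ)) ^ (min cS 3) / (cF.factorial : ℝ)) :=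
            mul_le_mul_of_nonneg_right hpow hnn
        _ = _ := by ring
    · exact absurd rfl hc
  · obtain ⟨h1, h2⟩ := hhub i rfl
    simp only [jQ, fQ, WQ, Sum.elim_inr, if_pos h1]
    set j : ℕ := 2 ^ ((i : ℕ) - 3) with hj
    have hf : (0 : ℝ) < ((cF + j).factorial : ℝ) := by exact_mod_cast Nat.factorial_pos _
    have hb0 : (0 : ℝ) ≤ 2 ^ ((i : ℕ) + 1) := by positivity
    have hb : (2 : ℝ) ^ ((i : ℕ) + 1) ≤ 8 * Δ := by
      rw [pow_succ]
      have : (0 : ℝ) < 2 ^ (i : ℕ) := by positivity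
      linarith
    have hpow : ((2 : ℝ) ^ ((i : ℕ) + 1)) ^ (cS - 3) ≤ (8 * Δ) ^ (cS - 3) :=
      pow_le_pow_left₀ hb0 hb _
    have heq : ((2 : ℝ) ^ ((i : ℕ) + 1)) ^ (cF + cS) =
        ((2 : ℝ) ^ ((i : ℕ) + 1)) ^ (cF + min cS 3) * ((2 : ℝ) ^ ((i : ℕ) + 1)) ^ (cS - 3) := by
      rw [← pow_add]
      congr 1
      omega
    rw [heq]
    have hnn : 0 ≤ (1 + (j : ℝ)) * (4 * D) ^ j * ((2 : ℝ) ^ ((i : ℕ) + 1)) ^ (cF + min cS 3) /
        ((cF + j).factorial : ℝ) := by positivity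
    calc (1 + (j : ℝ)) * (4 * D) ^ j *
          (((2 : ℝ) ^ ((i : ℕ) + 1)) ^ (cF + min cS 3) * ((2 : ℝ) ^ ((i : ℕ) + 1)) ^ (cS - 3)) /
          ((cF + j).factorial : ℝ)
        = ((2 : ℝ) ^ ((i : ℕ) + 1)) ^ (cS - 3) *
            ((1 + (j : ℝ)) * (4 * D) ^ j * ((2 : ℝ) ^ ((i : ℕ) + 1)) ^ (cF + min cS 3) /
              ((cF + j).factorial : ℝ)) := by ring
      _ ≤ (8 * Δ) ^ (cS - 3) *
            ((1 + (j : ℝ)) * (4 * D) ^ j * ((2 : ℝ) ^ ((i : ℕ) + 1)) ^ (cF + min cS 3) /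
              ((cF + j).factorial : ℝ)) := mul_le_mul_of_nonneg_right hpow hnn

end Vale.Agent.Lib.P064Q
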