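import Vale.Agent.Lib.P064Q.TypeBound
import Vale.Agent.Lib.P064Q.Chord
import Vale.Agent.Lib.P064Q.Weights
import Vale.Agent.Lib.P064S.Tree
import Vale.Agent.Lib.P064U.TFacts

/-!
Connected graphs: the sum over all types (notes/P064Q_blueprint.md, part CO).
-/

open Finset

namespace Vale.Agent.Lib.P064Q

open Vale.Agent.Lib.P064 Vale.Agent.Lib.P064E Vale.Agent.Lib.P064U
open scoped Classical

variable {V β : Type} [Fintype V] [Fintype β] {H : SimpleGraph V} {n : ℕ} {q l lam : ℝ}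

/-- `v + Σ j ≤ v ∏ (1 + j)`. -/
private lemma card_add_sum_le (j : β → ℕ) (hv : 1 ≤ Fintype.card β) :
    ((Fintype.card β + ∑ x, j x : ℕ) : ℝ) ≤
      (Fintype.card β : ℝ) * ∏ y, (1 + (j y : ℝ)) := by
  have h1 : ∀ s : Finset β, (1 : ℝ) + ∑ x ∈ s, (j x : ℝ) ≤ ∏ y ∈ s, (1 + (j y : ℝ)) := by
    intro s
    induction s using Finset.induction_on with
    | empty => simp
    | insert a s ha ih =>
      rw [Finset.sum_insert ha, Finset.prod_insert ha]
      have hj : (0 : ℝ) ≤ j a := Nat.cast_nonneg _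
      have hs : (0 : ℝ) ≤ ∑ x ∈ s, (j x : ℝ) := Finset.sum_nonneg fun _ _ => Nat.cast_nonneg _
      nlinarith
  have h2 := h1 univ
  have hv' : (1 : ℝ) ≤ Fintype.card β := by exact_mod_cast hv
  have hs : (0 : ℝ) ≤ ∑ x, (j x : ℝ) := Finset.sum_nonneg fun _ _ => Nat.cast_nonneg _
  push_cast
  calc (Fintype.card β : ℝ) + ∑ x, (j x : ℝ)
      ≤ (Fintype.card β : ℝ) * (1 + ∑ x, (j x : ℝ)) := by nlinarith
    _ ≤ _ := mul_le_mul_of_nonneg_left h2 (by linarith)

/-- The bound of one nonempty type by the product of weights: split `y` by `τ y = Sum.inl 2` or not; `v + Σ j ≤ v ∏ (1 + j)`; `factor_le_weight`, `ch_budget`, `core_budget`; `WQ (Sum.inl 2) = 1`; `cf + cs = ct`;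
`n^(v+Σj) q^(e+Σj)` and `4^(v+Σj)` give `(4 D)^j` per vertex.  Here `D = n q`, `φ` any member of the type. -/
theorem BBQ_le (hG : GoodDensity n q H) {Δ A₁ : ℝ} {s₁ I : ℕ} (hV : Fintype.card V ≤ n)
    (hp : QPar n q l lam Δ A₁ s₁ I) {G : SimpleGraph β} [Nonempty β] {τ : β → Cls I} {φ : β → V}
    (hφ : φ ∈ typedQ G H A₁ I τ) {z : β} {par : β → β} {r : β → ℕ} (hT : RootedT G z par r) :
    BBQ G n q Δ A₁ τ z par ≤
      2 * Real.exp 1 * (Fintype.card β : ℝ) * (4 : ℝ) ^ Fintype.card β *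
        ((n : ℝ) ^ Fintype.card β * q ^ (eIn G univ).card) *
        Real.exp (Fintype.card β) * Real.exp ((eIn G univ).card) *
        ∏ y, WQ A₁ ((n : ℝ) * q) s₁ (nb G y).card (cf G z par y) (cs G z par y) (τ y) := by
  classical
  have hφ' : φ ∈ emb G H := (Finset.mem_filter.1 hφ).1
  have hτ : ∀ y, classOf G H A₁ I φ y = τ y := (Finset.mem_filter.1 hφ).2
  have hq0 : 0 < q := hp.std.q0
  have hn0 : (0 : ℝ) ≤ (n : ℝ) := Nat.cast_nonneg _
  have hD0 : (0 : ℝ) ≤ (n : ℝ) * q := mul_nonneg hn0 hq0.le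
  have hD1 := hp.D1
  have hA1 : (1 : ℝ) ≤ A₁ := by
    rw [hp.A₁eq]; exact one_le_pow₀ (by norm_num)
  have hl1 := hp.std.l1
  have hΔ0 : 1 ≤ Δ := by
    have h1 := hp.Δdeg
    have h2 : (1 : ℝ) ≤ Real.exp 2 := Real.one_le_exp (by norm_num)
    nlinarith
  have hΔ8 : (1 : ℝ) ≤ 8 * Δ := by linarith
  have hf0 : ∀ y, 0 ≤ fQ A₁ Δ (nb G y).card (τ y) := by
    intro y
    unfold fQ
    rcases τ y with k | i
    · simp only [Sum.elim_inl]
      split_ifs
      · linarith
      · positivity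
      · linarith
    · simp only [Sum.elim_inr]
      positivity
  set v := Fintype.card β with hv
  have hv1 : 1 ≤ v := Fintype.card_pos
  set j : β → ℕ := fun y => jQ (τ y) with hj
  set J := ∑ x, j x with hJ
  set P0 : ℝ := (n : ℝ) ^ v * q ^ (eIn G univ).card with hP0
  have hP00 : 0 ≤ P0 := by positivity
  set F : β → ℝ := fun y =>
    (1 + (j y : ℝ)) * (4 * ((n : ℝ) * q)) ^ (j y) *
      (fQ A₁ Δ (nb G y).card (τ y)) ^ (cf G z par y + cs G z par y) /
        ((cf G z par y + j y).factorial : ℝ) with hF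
  have hF0 : ∀ y, 0 ≤ F y := by
    intro y
    have := hf0 y
    simp only [hF]
    positivity
  -- the bound by the product of `F`
  have hBBQ : BBQ G n q Δ A₁ τ z par ≤
      2 * Real.exp 1 * (v : ℝ) * (4 : ℝ) ^ v * P0 * ∏ y, F y := by
    have hprodF : ∏ y, F y = (∏ y, (1 + (j y : ℝ))) * (4 * ((n : ℝ) * q)) ^ J *
        (∏ y, (fQ A₁ Δ (nb G y).card (τ y)) ^ ct z par y) /
          ∏ y, ((cf G z par y + j y).factorial : ℝ) := by
      simp only [hF, Finset.prod_div_distrib, Finset.prod_mul_distrib, Finset.prod_pow_eq_pow_sum, hJ,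
        ct_eq G z par]
    rw [hprodF]
    unfold BBQ
    have hbig : 0 ≤ (4 * ((n : ℝ) * q)) ^ J := by positivity
    have hC : 0 ≤ ∏ y, (fQ A₁ Δ (nb G y).card (τ y)) ^ ct z par y :=
      Finset.prod_nonneg fun y _ => pow_nonneg (hf0 y) _
    have hfac : 0 ≤ ∏ y, ((cf G z par y + j y).factorial : ℝ) :=
      Finset.prod_nonneg fun _ _ => Nat.cast_nonneg _
    have hpow : (4 : ℝ) ^ (v + J) * (P0 * ((n : ℝ) * q) ^ J) =
        (4 : ℝ) ^ v * P0 * (4 * ((n : ℝ) * q)) ^ J := by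
      rw [pow_add, mul_pow]; ring
    have hsum := card_add_sum_le j hv1
    have hE : (0 : ℝ) ≤ 2 * Real.exp 1 := by positivity
    have h4 : (0 : ℝ) ≤ (4 : ℝ) ^ v := by positivity
    calc 2 * Real.exp 1 * ((v + J : ℕ) : ℝ) * (4 : ℝ) ^ (v + J) * (P0 * ((n : ℝ) * q) ^ J) *
            (∏ y, (fQ A₁ Δ (nb G y).card (τ y)) ^ ct z par y) /
              ∏ y, ((cf G z par y + j y).factorial : ℝ)
        = 2 * Real.exp 1 * ((v + J : ℕ) : ℝ) * ((4 : ℝ) ^ (v + J) * (P0 * ((n : ℝ) * q) ^ J)) *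
            (∏ y, (fQ A₁ Δ (nb G y).card (τ y)) ^ ct z par y) /
              ∏ y, ((cf G z par y + j y).factorial : ℝ) := by ring
      _ ≤ 2 * Real.exp 1 * ((v : ℝ) * ∏ y, (1 + (j y : ℝ))) * ((4 : ℝ) ^ (v + J) * (P0 * ((n : ℝ) * q) ^ J)) *
            (∏ y, (fQ A₁ Δ (nb G y).card (τ y)) ^ ct z par y) /
              ∏ y, ((cf G z par y + j y).factorial : ℝ) := by
          rw [hpow]
          apply div_le_div_of_nonneg_right _ hfac
          apply mul_le_mul_of_nonneg_right _ hC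
          apply mul_le_mul_of_nonneg_right _ (by positivity)
          exact mul_le_mul_of_nonneg_left hsum hE
      _ = _ := by
          rw [hpow]; ring
  -- the factor of each vertex
  set Ch : Finset β := univ.filter (fun y => τ y = Sum.inl 2) with hCh
  set W : β → ℝ := fun y => WQ A₁ ((n : ℝ) * q) s₁ (nb G y).card (cf G z par y) (cs G z par y) (τ y)
    with hW
  set g : β → ℝ := fun y => if τ y = Sum.inl 2 then (2 * Δ) ^ ct z par y else (8 * Δ) ^ (cs G z par y - 3)
    with hg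
  have hWch : ∀ y, τ y = Sum.inl 2 → W y = 1 := by
    intro y hy
    simp only [hW, hy, WQ, Sum.elim_inl]
    rw [if_neg (by decide), if_neg (by decide)]
  have hfactor : ∀ y, F y ≤ g y * W y := by
    intro y
    by_cases hy : τ y = Sum.inl 2
    · have hjy : j y = 0 := by simp only [hj, hy, jQ, Sum.elim_inl]
      have hfy : fQ A₁ Δ (nb G y).card (Sum.inl 2 : Cls I) = 2 * Δ := by
        simp only [fQ, Sum.elim_inl]
        rw [if_neg (by decide), if_neg (by decide)]
      simp only [hg, hy, if_true, hWch y hy, mul_one, hF]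
      rw [hjy, hfy, ← ct_eq G z par]
      have hfac1 : (1 : ℝ) ≤ ((cf G z par y + 0).factorial : ℝ) := by
        exact_mod_cast Nat.succ_le_of_lt (Nat.factorial_pos _)
      have hpos : (0 : ℝ) ≤ (2 * Δ) ^ ct z par y := by positivity
      simp only [Nat.cast_zero, add_zero, pow_zero, mul_one, one_mul] at hfac1 ⊢
      exact div_le_self hpos hfac1
    · have hspec := classOf_spec hG hV hp G hφ' y
      rw [hτ y] at hspec
      obtain ⟨_, hδ, hhub, _⟩ := hspec
      have := factor_le_weight (I := I) (A₁ := A₁) (D := (n : ℝ) * q) (Δ := Δ) (s₁ := s₁)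
        (δ := (nb G y).card) (cF := cf G z par y) (cS := cs G z par y) hA1 hD0 hΔ8 hδ (τ y) hy
        (fun i hi => by
          obtain ⟨h1, _, _, h4⟩ := hhub i hi
          exact ⟨h1, h4⟩)
      simp only [hg, hy, if_false, hF, hW, hj]
      exact this
  have hg0 : ∀ y, 0 ≤ g y := by
    intro y
    simp only [hg]
    split_ifs <;> positivity
  have hW0 : ∀ y, 0 ≤ g y * W y := fun y => (hF0 y).trans (hfactor y)
  have hprod : ∏ y, F y ≤ (∏ y, g y) * ∏ y, W y := by
    rw [← Finset.prod_mul_distrib]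
    exact Finset.prod_le_prod (fun y _ => hF0 y) (fun y _ => hfactor y)
  -- the budgets
  have hfil : ∀ y, (classOf G H A₁ I φ y = Sum.inl 2) ↔ τ y = Sum.inl 2 := by
    intro y; rw [hτ y]
  have hch := ch_budget hG hV hp hφ' hT
  have hcore := core_budget hG hV hp hφ' hT
  have hgprod : ∏ y, g y ≤ Real.exp v * Real.exp ((eIn G univ).card) := by
    have hsplit : ∏ y, g y = (∏ y ∈ Ch, (2 * Δ) ^ ct z par y) *
        ∏ y ∈ univ.filter (fun y => ¬ τ y = Sum.inl 2), (8 * Δ) ^ (cs G z par y - 3) := by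
      simp only [hg]
      rw [Finset.prod_ite]
    rw [hsplit]
    have h1 : ∏ y ∈ Ch, (2 * Δ) ^ ct z par y ≤ Real.exp v := by
      have : Ch = univ.filter (fun y => classOf G H A₁ I φ y = Sum.inl 2) := by
        ext y; simp [hCh, hfil y]
      rw [this]; exact hch
    have h2 : ∏ y ∈ univ.filter (fun y => ¬ τ y = Sum.inl 2), (8 * Δ) ^ (cs G z par y - 3) ≤
        Real.exp ((eIn G univ).card) := by
      refine le_trans ?_ hcore
      rw [Finset.prod_pow_eq_pow_sum]
      apply pow_le_pow_right₀ hΔ8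
      exact Finset.sum_le_sum_of_subset (Finset.filter_subset _ _)
    exact mul_le_mul h1 h2 (Finset.prod_nonneg fun _ _ => by positivity) (Real.exp_pos _).le
  have hWprod : 0 ≤ ∏ y, W y := by
    -- from the weights: nonnegativity of every weight
    refine Finset.prod_nonneg fun y _ => ?_
    simp only [hW, WQ]
    rcases τ y with k | i
    · simp only [Sum.elim_inl]
      split_ifs <;> positivity
    · simp only [Sum.elim_inr]
      split_ifs <;> positivity
  calc BBQ G n q Δ A₁ τ z par ≤ 2 * Real.exp 1 * (v : ℝ) * (4 : ℝ) ^ v * P0 * ∏ y, F y := hBBQ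
    _ ≤ 2 * Real.exp 1 * (v : ℝ) * (4 : ℝ) ^ v * P0 *
          ((Real.exp v * Real.exp ((eIn G univ).card)) * ∏ y, W y) := by
        apply mul_le_mul_of_nonneg_left _ (by positivity)
        exact hprod.trans (mul_le_mul_of_nonneg_right hgprod hWprod)
    _ = _ := by ring

/-- `Σ_y ct y = v - 1`. -/
lemma sum_ct {G : SimpleGraph β} {z : β} {par : β → β} {r : β → ℕ} (hT : RootedT G z par r) :
    ∑ y, ct z par y + 1 = Fintype.card β := by
  have h1 : ∑ y, ct z par y = (univ.erase z).card := by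
    unfold ct
    rw [Finset.card_eq_sum_card_fiberwise (f := par) (s := univ.erase z) (t := univ)
      (fun _ _ => Finset.mem_coe.2 (Finset.mem_univ _))]
    refine Finset.sum_congr rfl fun y _ => ?_
    congr 1
    ext u
    simp
  rw [h1, Finset.card_erase_of_mem (Finset.mem_univ z), Finset.card_univ]
  have : 0 < Fintype.card β := Fintype.card_pos_iff.2 ⟨z⟩
  omega

/-- The bound for a connected graph.  Trees for every root by `exists_par_rank`.  `emb = ⋃_τ typedQ τ`, `type_bound`, `BBQ_le` on nonempty types, exchange sum over `z` and `τ`;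
`Finset.prod_univ_sum` turns `Σ_τ ∏_y WQ` into `∏_y Σ_c WQ`; `vertex_sum`; `Σ ct = v - 1 ≤ e`, `Σ δ = 2 e`. -/
theorem conn_boundQ (hG : GoodDensity n q H) {Δ A₁ : ℝ} {s₁ I : ℕ} (hV : Fintype.card V ≤ n)
    (hp : QPar n q l lam Δ A₁ s₁ I) (G : SimpleGraph β) [Nonempty β] (hiso : ∀ x, ∃ y, G.Adj x y)
    (hconn : ∀ D : Finset β, D.Nonempty → D ≠ univ → ∃ u ∈ D, ∃ w, w ∉ D ∧ G.Adj u w) :
    ((emb G H).card : ℝ) ≤
      Real.exp (10 * (Fintype.card β : ℝ) + 70 * ((eIn G univ).card : ℝ)) *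
        (16 * Real.exp 1 * A₁) ^ (eIn G univ).card *
        ((n : ℝ) ^ Fintype.card β * q ^ (eIn G univ).card) := by
  classical
  have hq0 : 0 < q := hp.std.q0
  have hA1 : (1 : ℝ) ≤ A₁ := by
    rw [hp.A₁eq]
    exact one_le_pow₀ (by norm_num)
  have hD0 : (0 : ℝ) ≤ (n : ℝ) * q := by positivity
  -- trees for every root
  have htree : ∀ z : β, ∃ (par : β → β) (r : β → ℕ), RootedT G z par r := by
    intro z
    obtain ⟨par, r, h1, h2⟩ := exists_par_rank (F := G) (I := univ) (x := z) (mem_univ z)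
      (fun D hD _ hne => by
        obtain ⟨u, hu, w, hw, huw⟩ := hconn D hD hne
        exact ⟨u, hu, w, by simp [hw], huw⟩)
    exact ⟨par, r, ⟨h1, fun v hv => ⟨(h2 v (mem_univ v) hv).2.1, (h2 v (mem_univ v) hv).2.2⟩⟩⟩
  choose par r hT using htree
  set v : ℕ := Fintype.card β with hv
  set e : ℕ := (eIn G univ).card with he
  have hve : v ≤ 2 * e := (vertices_le_darts hiso).trans darts_card_le
  have hv1 : 1 ≤ v := Fintype.card_pos
  have he1 : 1 ≤ e := by omega
  set W : β → β → (β → Cls I) → ℝ := fun z y τ =>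
    WQ A₁ ((n : ℝ) * q) s₁ (nb G y).card (cf G z (par z) y) (cs G z (par z) y) (τ y) with hW
  set X : ℝ := 2 * Real.exp 1 * (v : ℝ) * (4 : ℝ) ^ v *
        ((n : ℝ) ^ v * q ^ e) * Real.exp (v : ℝ) * Real.exp (e : ℝ) with hX
  have hX0 : 0 ≤ X := by rw [hX]; positivity
  -- nonnegativity of the weights
  have hWQ0 : ∀ (δ cF cS : ℕ) (c : Cls I), 0 ≤ WQ A₁ ((n : ℝ) * q) s₁ δ cF cS c := by
    intro δ cF cS c
    rcases c with k | i
    · simp only [WQ, Sum.elim_inl]
      split_ifs <;> positivity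
    · simp only [WQ, Sum.elim_inr]
      split_ifs <;> positivity
  -- one type
  have htype : ∀ τ : β → Cls I, ((typedQ G H A₁ I τ).card : ℝ) ≤
      ∑ z, X * ∏ y, WQ A₁ ((n : ℝ) * q) s₁ (nb G y).card (cf G z (par z) y) (cs G z (par z) y) (τ y) := by
    intro τ
    by_cases hne : (typedQ G H A₁ I τ).Nonempty
    · obtain ⟨φ, hφ⟩ := hne
      refine (type_bound (H := H) hG hV hp G ?_ par r hT τ).trans ?_
      · exact he1
      · refine Finset.sum_le_sum fun z _ => ?_
        exact BBQ_le (H := H) hG hV hp hφ (hT z)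
    · rw [Finset.not_nonempty_iff_eq_empty.1 hne]
      simp only [Finset.card_empty, Nat.cast_zero]
      refine Finset.sum_nonneg fun z _ => mul_nonneg hX0 (Finset.prod_nonneg fun y _ => hWQ0 _ _ _ _)
  -- all types
  have hsub : emb G H ⊆ (univ : Finset (β → Cls I)).biUnion fun τ => typedQ G H A₁ I τ := by
    intro φ hφ
    refine Finset.mem_biUnion.2 ⟨fun y => classOf G H A₁ I φ y, mem_univ _, ?_⟩
    exact Finset.mem_filter.2 ⟨hφ, fun y => rfl⟩
  have hcard : ((emb G H).card : ℝ) ≤ ∑ τ : β → Cls I, ((typedQ G H A₁ I τ).card : ℝ) := by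
    have h1 := (Finset.card_le_card hsub).trans Finset.card_biUnion_le
    exact_mod_cast h1
  -- the sum of products
  have hprod : ∀ z : β, ∑ τ : β → Cls I, ∏ y,
      WQ A₁ ((n : ℝ) * q) s₁ (nb G y).card (cf G z (par z) y) (cs G z (par z) y) (τ y) ≤
      (5 : ℝ) ^ v * (16 * Real.exp 1 * A₁) ^ e * Real.exp (64 * (e : ℝ)) := by
    intro z
    have h1 : ∑ τ : β → Cls I, ∏ y,
        WQ A₁ ((n : ℝ) * q) s₁ (nb G y).card (cf G z (par z) y) (cs G z (par z) y) (τ y) =
        ∏ y, ∑ c : Cls I,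
          WQ A₁ ((n : ℝ) * q) s₁ (nb G y).card (cf G z (par z) y) (cs G z (par z) y) c := by
      rw [Finset.prod_univ_sum, Fintype.piFinset_univ]
    rw [h1]
    have h2 : ∏ y, ∑ c : Cls I,
          WQ A₁ ((n : ℝ) * q) s₁ (nb G y).card (cf G z (par z) y) (cs G z (par z) y) c ≤
        ∏ y, (5 * (16 * Real.exp 1 * A₁) ^ (cf G z (par z) y + cs G z (par z) y) *
          Real.exp (32 * ((nb G y).card : ℝ))) := by
      refine Finset.prod_le_prod (fun y _ => Finset.sum_nonneg fun c _ => hWQ0 _ _ _ _) fun y _ => ?_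
      exact vertex_sum hp.s12 hp.A₁eq hD0 hp.Alow
    refine h2.trans ?_
    have hK1 : (1 : ℝ) ≤ 16 * Real.exp 1 * A₁ := by
      have h3 : (1 : ℝ) ≤ Real.exp 1 := Real.one_le_exp (by norm_num)
      nlinarith
    rw [Finset.prod_mul_distrib, Finset.prod_mul_distrib, Finset.prod_const, Finset.prod_pow_eq_pow_sum,
      ← Real.exp_sum]
    have hsumct : ∑ y, (cf G z (par z) y + cs G z (par z) y) ≤ e := by
      have h4 := sum_ct (hT z)
      have h5 : ∑ y, (cf G z (par z) y + cs G z (par z) y) = ∑ y, ct z (par z) y := by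
        refine Finset.sum_congr rfl fun y _ => (ct_eq G z (par z) y).symm
      rw [h5]
      have h6 := v_le_e_add_one (hT z)
      omega
    have hsumdeg : ∑ y, (32 * ((nb G y).card : ℝ)) ≤ 64 * (e : ℝ) := by
      rw [← Finset.mul_sum]
      have h7 : ∑ y, ((nb G y).card : ℝ) ≤ 2 * (e : ℝ) := by
        have h9 := sum_nbIn_self_le (F := G) (univ : Finset β)
        have h10 : ∀ y, nbIn G univ y = (nb G y).card := fun y => by
          simp [nbIn, nb]
        simp only [h10] at h9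
        exact_mod_cast h9
      linarith
    rw [Finset.card_univ]
    have h11 : Real.exp (∑ y, (32 * ((nb G y).card : ℝ))) ≤ Real.exp (64 * (e : ℝ)) :=
      Real.exp_le_exp.2 hsumdeg
    have h8 : (16 * Real.exp 1 * A₁) ^ ∑ y, (cf G z (par z) y + cs G z (par z) y) ≤
        (16 * Real.exp 1 * A₁) ^ e := pow_le_pow_right₀ hK1 hsumct
    gcongr
  -- the constant
  have hconst : (v : ℝ) * (2 * Real.exp 1 * (v : ℝ) * (4 : ℝ) ^ v * Real.exp (v : ℝ) * Real.exp (e : ℝ)) *
        ((5 : ℝ) ^ v * Real.exp (64 * (e : ℝ))) ≤ Real.exp (10 * (v : ℝ) + 70 * (e : ℝ)) := by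
    have hexp1 : (v : ℝ) ≤ Real.exp (v : ℝ) := by
      have := Real.add_one_le_exp (v : ℝ)
      linarith
    have h2e : 2 * Real.exp 1 ≤ Real.exp (2 * (e : ℝ)) := by
      have he1' : (1 : ℝ) ≤ e := by exact_mod_cast he1
      have h3 : Real.exp 2 = Real.exp 1 * Real.exp 1 := by
        rw [← Real.exp_add]; norm_num
      have h4 : (2 : ℝ) ≤ Real.exp 1 := by
        have := Real.add_one_le_exp (1 : ℝ)
        linarith
      have h5 : Real.exp 2 ≤ Real.exp (2 * (e : ℝ)) := Real.exp_le_exp.2 (by linarith)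
      have h6 : (0 : ℝ) < Real.exp 1 := Real.exp_pos 1
      nlinarith
    have h4v : (4 : ℝ) ^ v ≤ Real.exp (2 * (v : ℝ)) := by
      have h3 : Real.exp (2 * (v : ℝ)) = (Real.exp 2) ^ v := by
        rw [← Real.exp_nat_mul]
        congr 1
        ring
      rw [h3]
      refine pow_le_pow_left₀ (by norm_num) ?_ _
      have h4 : (2 : ℝ) ≤ Real.exp 1 := by
        have := Real.add_one_le_exp (1 : ℝ)
        linarith
      have h5 : Real.exp 2 = Real.exp 1 * Real.exp 1 := by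
        rw [← Real.exp_add]; norm_num
      nlinarith
    have h5v : (5 : ℝ) ^ v ≤ Real.exp (2 * (v : ℝ)) := by
      have h3 : Real.exp (2 * (v : ℝ)) = (Real.exp 2) ^ v := by
        rw [← Real.exp_nat_mul]
        congr 1
        ring
      rw [h3]
      refine pow_le_pow_left₀ (by norm_num) ?_ _
      have h4 : (2.7 : ℝ) ≤ Real.exp 1 := by
        have := Real.exp_one_gt_d9
        linarith
      have h5 : Real.exp 2 = Real.exp 1 * Real.exp 1 := by
        rw [← Real.exp_add]; norm_num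
      nlinarith
    have hvn : (0 : ℝ) ≤ v := Nat.cast_nonneg _
    have hen : (0 : ℝ) ≤ e := Nat.cast_nonneg _
    calc (v : ℝ) * (2 * Real.exp 1 * (v : ℝ) * (4 : ℝ) ^ v * Real.exp (v : ℝ) * Real.exp (e : ℝ)) *
          ((5 : ℝ) ^ v * Real.exp (64 * (e : ℝ)))
        = (v : ℝ) * (v : ℝ) * (2 * Real.exp 1) * (4 : ℝ) ^ v * Real.exp (v : ℝ) * Real.exp (e : ℝ) *
          (5 : ℝ) ^ v * Real.exp (64 * (e : ℝ)) := by ring
      _ ≤ Real.exp (v : ℝ) * Real.exp (v : ℝ) * Real.exp (2 * (e : ℝ)) * Real.exp (2 * (v : ℝ)) *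
            Real.exp (v : ℝ) * Real.exp (e : ℝ) * Real.exp (2 * (v : ℝ)) * Real.exp (64 * (e : ℝ)) := by
          gcongr
      _ = Real.exp (7 * (v : ℝ) + 67 * (e : ℝ)) := by
          simp only [← Real.exp_add]
          congr 1
          ring
      _ ≤ Real.exp (10 * (v : ℝ) + 70 * (e : ℝ)) := Real.exp_le_exp.2 (by linarith)
  -- assemble
  have hY0 : 0 ≤ (n : ℝ) ^ v * q ^ e := by positivity
  have hK0 : 0 ≤ (16 * Real.exp 1 * A₁) ^ e := by positivity
  calc ((emb G H).card : ℝ) ≤ ∑ τ : β → Cls I, ((typedQ G H A₁ I τ).card : ℝ) := hcard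
    _ ≤ ∑ τ : β → Cls I, ∑ z, X * ∏ y,
          WQ A₁ ((n : ℝ) * q) s₁ (nb G y).card (cf G z (par z) y) (cs G z (par z) y) (τ y) :=
        Finset.sum_le_sum fun τ _ => htype τ
    _ = ∑ z, X * ∑ τ : β → Cls I, ∏ y,
          WQ A₁ ((n : ℝ) * q) s₁ (nb G y).card (cf G z (par z) y) (cs G z (par z) y) (τ y) := by
        rw [Finset.sum_comm]
        refine Finset.sum_congr rfl fun z _ => ?_
        rw [Finset.mul_sum]
    _ ≤ ∑ _z : β, X * ((5 : ℝ) ^ v * (16 * Real.exp 1 * A₁) ^ e * Real.exp (64 * (e : ℝ))) :=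
        Finset.sum_le_sum fun z _ => mul_le_mul_of_nonneg_left (hprod z) hX0
    _ = ((v : ℝ) * (2 * Real.exp 1 * (v : ℝ) * (4 : ℝ) ^ v * Real.exp (v : ℝ) * Real.exp (e : ℝ)) *
          ((5 : ℝ) ^ v * Real.exp (64 * (e : ℝ)))) *
          ((16 * Real.exp 1 * A₁) ^ e * ((n : ℝ) ^ v * q ^ e)) := by
        rw [Finset.sum_const, Finset.card_univ, nsmul_eq_mul, hX]
        ring
    _ ≤ Real.exp (10 * (v : ℝ) + 70 * (e : ℝ)) *
          ((16 * Real.exp 1 * A₁) ^ e * ((n : ℝ) ^ v * q ^ e)) :=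
        mul_le_mul_of_nonneg_right hconst (mul_nonneg hK0 hY0)
    _ = _ := by ring

end Vale.Agent.Lib.P064Q
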