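import Vale.Agent.Lib.P064Q.FinalQ

/-!
The thresholds (notes/P064Q_blueprint.md, part FI).
-/

namespace Vale.Agent.Lib.P064Q

open Vale.Agent.Lib.P064

/-- The main theorem, under its blueprint name. -/
theorem q_thresholds :
    ∃ C : ℝ, 0 < C ∧ ∀ (n : ℕ) (V : Type) [Fintype V] (H : SimpleGraph V), 2 ≤ n →
      Fintype.card V ≤ n → H ≠ ⊥ →
      pTilde n H ≤ C * (1 / (n : ℝ) + (n : ℝ) * pE n H ^ 2) ∧
      pc n H ≤ C * Real.log n * (1 / (n : ℝ) + (n : ℝ) * pE n H ^ 2) :=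
  q_thresholds_main

end Vale.Agent.Lib.P064Q
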