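import Vale.Agent.Lib.P064Q.Conn
import Vale.Agent.Lib.P064U.WComp
import Vale.Agent.Lib.P064.Final
import Vale.Agent.Lib.P064N.Final

/-!
Part FI1: the embedding bound `embBound_Q` and the parameters `exists_qpar`
(notes/P064Q_blueprint.md, part FI).
-/

open Finset

namespace Vale.Agent.Lib.P064Q

open Vale.Agent.Lib.P064 Vale.Agent.Lib.P064E Vale.Agent.Lib.P064U
open scoped Classical

variable {V : Type} [Fintype V] {H : SimpleGraph V} {n : ℕ} {q l lam : ℝ}

/-- Copy the proof of `embBound_window` (Lib/P064U/WAll.lean) with `conn_boundQ`: `v ≤ 2 e`, `exp (10 v + 70 e) ≤ exp 90 ^ e`, `n^v ≤ exp v * descFactorial`. -/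
theorem embBound_Q (hG : GoodDensity n q H) {Δ A₁ : ℝ} {s₁ I : ℕ} (hV : Fintype.card V ≤ n)
    (hp : QPar n q l lam Δ A₁ s₁ I) :
    EmbBound n H (Real.exp 100 * (16 * Real.exp 1 * A₁) * q) := by
  intro β _ G hiso hvn
  have hq0 : 0 < q := hp.std.q0
  have hA0 : 0 < A₁ := by
    rw [hp.A₁eq]
    positivity
  set K : ℝ := 16 * Real.exp 1 * A₁ with hK
  have hK0 : 0 < K := by
    rw [hK]
    positivity
  have hn0 : (0 : ℝ) ≤ n := Nat.cast_nonneg _
  have hBd : 0 ≤ Real.exp 90 * K * q := by positivity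
  have hmain : ((emb G H).card : ℝ) ≤
      (Real.exp 90 * K * q) ^ (eIn G univ).card * (n : ℝ) ^ Fintype.card β := by
    refine emb_components (H := H) (n := n) hBd ?_ β G hiso
    intro γ _ G' hne hiso' hconn
    have := hne
    have h := conn_boundQ (H := H) hG hV hp G' hiso' hconn
    refine h.trans ?_
    set e := (eIn G' univ).card with he
    set v := Fintype.card γ with hv
    have hve : v ≤ 2 * e := (vertices_le_darts hiso').trans darts_card_le
    have hve' : (v : ℝ) ≤ 2 * (e : ℝ) := by exact_mod_cast hve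
    have hf : Real.exp (10 * (v : ℝ) + 70 * (e : ℝ)) ≤ Real.exp 90 ^ e := by
      rw [← Real.exp_nat_mul]
      apply Real.exp_le_exp.2
      linarith
    have hnq : 0 ≤ K ^ e * ((n : ℝ) ^ v * q ^ e) := by positivity
    calc Real.exp (10 * (v : ℝ) + 70 * (e : ℝ)) * K ^ e * ((n : ℝ) ^ v * q ^ e)
        = Real.exp (10 * (v : ℝ) + 70 * (e : ℝ)) * (K ^ e * ((n : ℝ) ^ v * q ^ e)) := by ring
      _ ≤ Real.exp 90 ^ e * (K ^ e * ((n : ℝ) ^ v * q ^ e)) :=
          mul_le_mul_of_nonneg_right hf hnq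
      _ = (Real.exp 90 * K * q) ^ e * (n : ℝ) ^ v := by
          rw [mul_pow, mul_pow]
          ring
  refine hmain.trans ?_
  set e := (eIn G univ).card with he
  set v := Fintype.card β with hv
  have hve : v ≤ 2 * e := (vertices_le_darts hiso).trans darts_card_le
  have hnd := pow_le_exp_descFactorial hvn
  set d : ℝ := (n.descFactorial v : ℝ) with hd
  have hd0 : 0 ≤ d := Nat.cast_nonneg _
  have hE1 : 1 ≤ Real.exp 1 := Real.one_le_exp (by norm_num)
  have hpow : Real.exp 1 ^ v ≤ Real.exp 2 ^ e := by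
    have h1 : Real.exp 2 ^ e = Real.exp 1 ^ (2 * e) := by
      have h0 : Real.exp 2 = Real.exp 1 ^ 2 := by
        rw [← Real.exp_nat_mul]
        norm_num
      rw [h0, ← pow_mul]
    rw [h1]
    exact pow_le_pow_right₀ hE1 hve
  have hb0 : 0 ≤ (Real.exp 90 * K * q) ^ e := by positivity
  calc (Real.exp 90 * K * q) ^ e * (n : ℝ) ^ v
      ≤ (Real.exp 90 * K * q) ^ e * (Real.exp 1 ^ v * d) :=
        mul_le_mul_of_nonneg_left hnd hb0
    _ ≤ (Real.exp 90 * K * q) ^ e * (Real.exp 2 ^ e * d) := by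
        gcongr
    _ = (Real.exp 92 * K * q) ^ e * d := by
        have h16 : Real.exp 92 = Real.exp 90 * Real.exp 2 := by
          rw [← Real.exp_add]
          norm_num
        rw [h16]
        have : Real.exp 90 * Real.exp 2 * K * q = (Real.exp 90 * K * q) * Real.exp 2 := by ring
        rw [this, mul_pow]
        ring
    _ ≤ (Real.exp 100 * K * q) ^ e * d := by
        have h : Real.exp 92 ≤ Real.exp 100 := Real.exp_le_exp.2 (by norm_num)
        gcongr

/-- The numerics behind `exists_qpar`: with `x = log (300 L)`, `L ≥ 10000`: `4 x² + x ≤ L`. -/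
private lemma num_qpar {L : ℝ} (hL : 10000 ≤ L) :
    0 ≤ Real.log (300 * L) ∧ 4 * Real.log (300 * L) ^ 2 + Real.log (300 * L) ≤ L := by
  have hL0 : 0 < L := by linarith
  set u := Real.sqrt L with hu
  have hu2 : u ^ 2 = L := Real.sq_sqrt hL0.le
  have hu0 : 0 < u := Real.sqrt_pos.2 hL0
  have hu100 : 100 ≤ u := by
    rw [hu]
    apply Real.le_sqrt_of_sq_le
    linarith
  have hlog2 := Real.log_two_lt_d9
  have hlog2' : 0 < Real.log 2 := Real.log_pos (by norm_num)
  have h300 : Real.log 300 ≤ 9 * Real.log 2 := by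
    have : Real.log 300 ≤ Real.log (2 ^ 9) := Real.log_le_log (by norm_num) (by norm_num)
    rw [Real.log_pow] at this
    simpa using this
  have h100 : Real.log 100 ≤ 7 * Real.log 2 := by
    have : Real.log 100 ≤ Real.log (2 ^ 7) := Real.log_le_log (by norm_num) (by norm_num)
    rw [Real.log_pow] at this
    simpa using this
  have hlogu : Real.log u ≤ Real.log 100 + (u / 100 - 1) := by
    have h1 : Real.log (u / 100) ≤ u / 100 - 1 :=
      Real.log_le_sub_one_of_pos (by positivity)
    rw [Real.log_div hu0.ne' (by norm_num)] at h1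
    linarith
  have hx : Real.log (300 * L) = Real.log 300 + 2 * Real.log u := by
    rw [← hu2, Real.log_mul (by norm_num) (by positivity), Real.log_pow]
    norm_num
  have hx0 : 0 ≤ Real.log (300 * L) := Real.log_nonneg (by linarith)
  have hxu : Real.log (300 * L) ≤ u / 4 := by
    rw [hx]
    linarith
  refine ⟨hx0, ?_⟩
  have h4 : 4 * Real.log (300 * L) ^ 2 ≤ L / 4 := by
    have : Real.log (300 * L) ^ 2 ≤ (u / 4) ^ 2 := pow_le_pow_left₀ hx0 hxu 2
    have h5 : (u / 4) ^ 2 = L / 16 := by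
      rw [← hu2]
      ring
    rw [h5] at this
    linarith
  have h6 : u ≤ L := by
    rw [← hu2]
    nlinarith
  linarith

/-- Parameters exist for `L = log n ≥ 10000`, `1 ≤ D = n q ≤ 4 L`.  `l = L`, `lam = L - log D`, `exists_nat_pow_near` with `x = 4096 D`, `y = 2` gives `s₁ = m + 1` (so `4096 D < 2^s₁ ≤ 8192 D`);
`Δ = exp 2 (D + L)`; `I` with `Δ < 2^I` (`pow_unbounded_of_one_lt`).  `rho`, `N7`: `log D ≤ log (4 L)`, `log (8 Δ) ≤ log (300 L)`, and `4 log (300 L)^2 + log (300 L) ≤ L` for `L ≥ 10000`. -/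
theorem exists_qpar (hn : 2 ≤ n) (hL : 10000 ≤ Real.log n) {q : ℝ} (hD1 : 1 ≤ (n : ℝ) * q)
    (hD2 : (n : ℝ) * q ≤ 4 * Real.log n) :
    ∃ (l lam Δ A₁ : ℝ) (s₁ I : ℕ), QPar n q l lam Δ A₁ s₁ I ∧ A₁ ≤ 8192 * ((n : ℝ) * q) := by
  have hn0 : (0 : ℝ) < n := by
    have : (2 : ℝ) ≤ n := by exact_mod_cast hn
    linarith
  set L := Real.log n with hLdef
  set D := (n : ℝ) * q with hD
  have hL0 : 0 < L := by linarith
  have hq0 : 0 < q := by
    by_contra hc
    push Not at hc
    have : (n : ℝ) * q ≤ 0 := mul_nonpos_of_nonneg_of_nonpos hn0.le hc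
    rw [← hD] at this
    linarith
  have hD0 : 0 < D := by linarith
  obtain ⟨hx0, hxL⟩ := num_qpar hL
  set x := Real.log (300 * L) with hx
  have hlogD0 : 0 ≤ Real.log D := Real.log_nonneg hD1
  have hlogDx : Real.log D ≤ x := by
    rw [hx]
    apply Real.log_le_log hD0
    linarith
  have hlogD : Real.log D = L + Real.log q := by
    rw [hD, hLdef, Real.log_mul hn0.ne' hq0.ne']
  have hx1 : 1 ≤ x := by
    rw [hx, Real.le_log_iff_exp_le (by positivity)]
    have h1 := Real.exp_one_lt_d9
    linarith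
  have hx4 : x ≤ L / 5 := by nlinarith
  obtain ⟨m, hm1, hm2⟩ := exists_nat_pow_near (x := 4096 * D) (y := (2 : ℝ)) (by linarith) (by norm_num)
  have hE2 : Real.exp 2 ≤ 7.5 := by
    have h0 : Real.exp 2 = Real.exp 1 ^ 2 := by
      rw [← Real.exp_nat_mul]
      norm_num
    rw [h0]
    have h1 := Real.exp_one_lt_d9
    have h2 := Real.exp_pos 1
    nlinarith
  have hE0 : 0 < Real.exp 2 := Real.exp_pos 2
  obtain ⟨I, hI⟩ := pow_unbounded_of_one_lt (Real.exp 2 * (D + L)) (one_lt_two)
  have hΔ0 : 0 < Real.exp 2 * (D + L) := by positivity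
  have hΔ8 : Real.log (8 * (Real.exp 2 * (D + L))) ≤ x := by
    rw [hx]
    apply Real.log_le_log (by positivity)
    have h1 : D + L ≤ 5 * L := by linarith
    have h2 : Real.exp 2 * (D + L) ≤ 7.5 * (5 * L) :=
      mul_le_mul hE2 h1 (by linarith) (by norm_num)
    linarith
  refine ⟨L, -Real.log q, Real.exp 2 * (D + L), 2 ^ (m + 1), m + 1, I, ?_, ?_⟩
  · refine
      { std :=
          { n1 := by omega
            l_eq := rfl
            lam_eq := rfl
            q0 := hq0
            l1 := by linarith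
            lam1 := by linarith
            lam_le := by linarith }
        D1 := hD1
        s12 := ?_
        A₁eq := rfl
        Alow := ?_
        Δdeg := le_refl _
        ΔI := hI
        rho := by linarith
        N7 := ?_ }
    · by_contra hc
      push Not at hc
      have h1 : (2 : ℝ) ^ (m + 1) ≤ 2 ^ 12 :=
        pow_le_pow_right₀ (by norm_num) (by omega)
      have h2 : (2 : ℝ) ^ 12 = 4096 := by norm_num
      rw [h2] at h1
      linarith
    · exact hm2.le
    · have h1 : L - -Real.log q = Real.log D := by linarith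
      rw [h1]
      have h2 : Real.log D * Real.log (8 * (Real.exp 2 * (D + L))) ≤ x * x :=
        mul_le_mul hlogDx hΔ8 (Real.log_nonneg (by
          have h3 : 1 ≤ Real.exp 2 := Real.one_le_exp (by norm_num)
          have h4 : 1 ≤ D + L := by linarith
          nlinarith)) hx0
      nlinarith
  · rw [pow_succ]
    linarith

end Vale.Agent.Lib.P064Q
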