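import Vale.Agent.Lib.P064Q.Shapes

/-!
The automorphisms of a rooted forest (notes/P064Q_blueprint.md, part FO).
-/

open Finset

namespace Vale.Agent.Lib.P064Q

open scoped Classical

variable {γ : Type} [Fintype γ]

/-- The children of `y`: the vertices off `S` with parent `y`. -/
noncomputable def kids (S : Finset γ) (par : γ → γ) (y : γ) : Finset γ :=
  univ.filter fun u => u ∉ S ∧ par u = y

/-- The permutations fixing the roots `S` and commuting with the parent map. -/
def forestGroup (S : Finset γ) (par : γ → γ) : Subgroup (Equiv.Perm γ) where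
  carrier := {σ | (∀ y ∈ S, σ y = y) ∧ ∀ y, σ (par y) = par (σ y)}
  mul_mem' := by
    rintro σ τ ⟨h1, h2⟩ ⟨h3, h4⟩
    refine ⟨fun y hy => ?_, fun y => ?_⟩
    · simp [h3 y hy, h1 y hy]
    · simp [h4 y, h2 (τ y)]
  one_mem' := by
    refine ⟨fun y _ => rfl, fun y => rfl⟩
  inv_mem' := by
    rintro σ ⟨h1, h2⟩
    refine ⟨fun y hy => ?_, fun y => ?_⟩
    · rw [Equiv.Perm.inv_eq_iff_eq]
      exact (h1 y hy).symm
    · rw [Equiv.Perm.inv_eq_iff_eq, h2]
      simp

private lemma mem_kids {S : Finset γ} {par : γ → γ} {x u : γ} :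
    u ∈ kids S par x ↔ u ∉ S ∧ par u = x := by
  simp [kids]

/-- Orderings of all sibling sets. -/
private abbrev Ordr (S : Finset γ) (par : γ → γ) :=
  ∀ y : γ, ↥(kids S par y) ≃ Fin (kids S par y).card

/-- The number of a root. -/
private noncomputable def rhoN (S : Finset γ) (y : γ) : ℕ :=
  if h : y ∈ S then (S.equivFin ⟨y, h⟩ : ℕ) else 0

/-- The number of a vertex among its siblings. -/
private noncomputable def wNum {S : Finset γ} {par : γ → γ} (ω : Ordr S par) (y : γ) : ℕ :=
  if h : y ∉ S then (ω (par y) ⟨y, mem_kids.2 ⟨h, rfl⟩⟩ : ℕ) else 0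

private lemma wNum_of_mem {S : Finset γ} {par : γ → γ} (ω : Ordr S par) (x : γ)
    (u : ↥(kids S par x)) : wNum ω u.1 = (ω x u : ℕ) := by
  obtain ⟨u, hu⟩ := u
  obtain ⟨h1, rfl⟩ := mem_kids.1 hu
  simp [wNum, h1]

/-- The address of a vertex. -/
private noncomputable def addr {S : Finset γ} {par : γ → γ} {r : γ → ℕ}
    (hr : ∀ y, y ∉ S → r (par y) < r y) (ω : Ordr S par) (y : γ) : List ℕ :=
  if hy : y ∈ S then [rhoN S y] else addr hr ω (par y) ++ [wNum ω y]
termination_by r y
decreasing_by exact hr y hy

variable {S : Finset γ} {par : γ → γ} {r : γ → ℕ} (hr : ∀ y, y ∉ S → r (par y) < r y)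

private lemma addr_S (ω : Ordr S par) {y : γ} (hy : y ∈ S) : addr hr ω y = [rhoN S y] := by
  rw [addr, dif_pos hy]

private lemma addr_off (ω : Ordr S par) {y : γ} (hy : y ∉ S) :
    addr hr ω y = addr hr ω (par y) ++ [wNum ω y] := by
  rw [addr, dif_neg hy]

private lemma addr_ne_nil (ω : Ordr S par) (y : γ) : addr hr ω y ≠ [] := by
  by_cases hy : y ∈ S
  · rw [addr_S hr ω hy]
    simp
  · rw [addr_off hr ω hy]
    simp

private lemma addr_len (ω : Ordr S par) {y : γ} (hy : y ∉ S) : 2 ≤ (addr hr ω y).length := by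
  rw [addr_off hr ω hy, List.length_append]
  have h1 : (addr hr ω (par y)).length ≠ 0 := by
    rw [Ne, List.length_eq_zero_iff]
    exact addr_ne_nil hr ω _
  simp only [List.length_singleton]
  omega

private lemma rhoN_inj {y y' : γ} (hy : y ∈ S) (hy' : y' ∈ S) (h : rhoN S y = rhoN S y') :
    y = y' := by
  simp only [rhoN, dif_pos hy, dif_pos hy'] at h
  have := S.equivFin.injective (Fin.ext h)
  simpa using this

private lemma wNum_inj (ω : Ordr S par) {y y' : γ} (hy : y ∉ S) (hy' : y' ∉ S)
    (hp : par y = par y') (h : wNum ω y = wNum ω y') : y = y' := by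
  have h1 : y ∈ kids S par (par y) := mem_kids.2 ⟨hy, rfl⟩
  have h2 : y' ∈ kids S par (par y) := mem_kids.2 ⟨hy', hp.symm⟩
  have h3 := wNum_of_mem ω (par y) ⟨y, h1⟩
  have h4 := wNum_of_mem ω (par y) ⟨y', h2⟩
  simp only at h3 h4
  rw [h3, h4] at h
  have h5 := (ω (par y)).injective (Fin.ext h)
  simpa using h5

private lemma addr_inj (ω : Ordr S par) (n : ℕ) : ∀ y y', r y ≤ n →
    addr hr ω y = addr hr ω y' → y = y' := by
  induction n using Nat.strong_induction_on with
  | _ n ih =>
    intro y y' hn h
    by_cases hy : y ∈ S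
    · by_cases hy' : y' ∈ S
      · rw [addr_S hr ω hy, addr_S hr ω hy'] at h
        exact rhoN_inj hy hy' (by simpa using h)
      · have h1 := addr_len hr ω hy'
        rw [← h, addr_S hr ω hy] at h1
        simp at h1
    · by_cases hy' : y' ∈ S
      · have h1 := addr_len hr ω hy
        rw [h, addr_S hr ω hy'] at h1
        simp at h1
      · rw [addr_off hr ω hy, addr_off hr ω hy'] at h
        obtain ⟨h1, h2⟩ := List.append_inj' h rfl
        have h3 : r (par y) < n := lt_of_lt_of_le (hr y hy) hn
        have hp := ih (r (par y)) h3 _ _ le_rfl h1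
        have h4 : wNum ω y = wNum ω y' := by simpa using h2
        exact wNum_inj ω hy hy' hp h4

private lemma addr_injective (ω : Ordr S par) : Function.Injective (addr hr ω) :=
  fun y y' h => addr_inj hr ω (r y) y y' le_rfl h

/-- The address set of an ordering. -/
private noncomputable def shape (ω : Ordr S par) : Finset (List ℕ) :=
  univ.image (addr hr ω)

private lemma shape_closed (ω : Ordr S par) : TreeClosed (shape hr ω) := by
  refine ⟨?_, ?_, ?_⟩
  · intro l hl
    obtain ⟨y, _, rfl⟩ := Finset.mem_image.1 hl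
    exact addr_ne_nil hr ω y
  · intro l k hl hk
    obtain ⟨y, _, hy⟩ := Finset.mem_image.1 hk
    by_cases hyS : y ∈ S
    · rw [addr_S hr ω hyS] at hy
      have h1 := congrArg List.length hy
      simp only [List.length_singleton, List.length_append] at h1
      have h2 : l.length ≠ 0 := by
        rw [Ne, List.length_eq_zero_iff]
        exact hl
      omega
    · rw [addr_off hr ω hyS] at hy
      obtain ⟨h1, _⟩ := List.append_inj' hy rfl
      rw [← h1]
      exact Finset.mem_image_of_mem _ (mem_univ _)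
  · intro l k hk
    obtain ⟨y, _, hy⟩ := Finset.mem_image.1 hk
    by_cases hyS : y ∈ S
    · rw [addr_S hr ω hyS] at hy
      have h1 := congrArg List.length hy
      simp only [List.length_singleton, List.length_append] at h1
      have hl : l = [] := by
        rw [← List.length_eq_zero_iff]
        omega
      subst hl
      have h2 : rhoN S y = k + 1 := by simpa using hy
      simp only [rhoN, dif_pos hyS] at h2
      have h3 : k < S.card := by
        have := (S.equivFin ⟨y, hyS⟩).2
        omega
      set z := S.equivFin.symm ⟨k, h3⟩ with hz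
      have h4 : rhoN S z.1 = k := by
        simp only [rhoN, dif_pos z.2]
        have : S.equivFin ⟨z.1, z.2⟩ = ⟨k, h3⟩ := by
          rw [Subtype.coe_eta, hz, Equiv.apply_symm_apply]
        rw [this]
      refine Finset.mem_image.2 ⟨z.1, mem_univ _, ?_⟩
      rw [addr_S hr ω z.2, h4]
      simp
    · rw [addr_off hr ω hyS] at hy
      obtain ⟨h1, h2⟩ := List.append_inj' hy rfl
      have h3 : wNum ω y = k + 1 := by simpa using h2
      have hmem : y ∈ kids S par (par y) := mem_kids.2 ⟨hyS, rfl⟩
      have h4 := wNum_of_mem ω (par y) ⟨y, hmem⟩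
      simp only at h4
      rw [h3] at h4
      have h5 : k < (kids S par (par y)).card := by
        have := (ω (par y) ⟨y, hmem⟩).2
        omega
      set z := (ω (par y)).symm ⟨k, h5⟩ with hz
      have h6 : wNum ω z.1 = k := by
        rw [wNum_of_mem ω (par y) z, hz, Equiv.apply_symm_apply]
      obtain ⟨h7, h8⟩ := mem_kids.1 z.2
      refine Finset.mem_image.2 ⟨z.1, mem_univ _, ?_⟩
      rw [addr_off hr ω h7, h8, h6, h1]

private lemma shape_card (ω : Ordr S par) : (shape hr ω).card = Fintype.card γ := by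
  rw [shape, Finset.card_image_of_injective _ (addr_injective hr ω), Finset.card_univ]

/-- Orderings with the same address set differ by a member of the group. -/
private lemma exists_perm (hS : ∀ y ∈ S, par y = y) (ω₀ ω : Ordr S par)
    (h : shape hr ω = shape hr ω₀) :
    ∃ σ : Equiv.Perm γ, σ ∈ forestGroup S par ∧ ∀ y, addr hr ω₀ (σ y) = addr hr ω y := by
  have hex : ∀ y, ∃ y', addr hr ω₀ y' = addr hr ω y := by
    intro y
    have h1 : addr hr ω y ∈ shape hr ω₀ := by
      rw [← h]
      exact Finset.mem_image_of_mem _ (mem_univ _)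
    obtain ⟨y', _, hy'⟩ := Finset.mem_image.1 h1
    exact ⟨y', hy'⟩
  choose f hf using hex
  have hinj : Function.Injective f := by
    intro a b hab
    apply addr_injective hr ω
    rw [← hf a, ← hf b, hab]
  have hbij := Finite.injective_iff_bijective.1 hinj
  refine ⟨Equiv.ofBijective f hbij, ⟨?_, ?_⟩, ?_⟩
  · intro y hy
    apply addr_injective hr ω₀
    change addr hr ω₀ (f y) = addr hr ω₀ y
    rw [hf, addr_S hr ω hy, addr_S hr ω₀ hy]
  · intro y
    change f (par y) = par (f y)
    by_cases hy : y ∈ S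
    · have h1 : f y = y := by
        apply addr_injective hr ω₀
        rw [hf, addr_S hr ω hy, addr_S hr ω₀ hy]
      rw [hS y hy, h1, hS y hy]
    · have h1 := addr_len hr ω hy
      have hfy : f y ∉ S := by
        intro hc
        rw [← hf y, addr_S hr ω₀ hc] at h1
        simp at h1
      have h2 := hf y
      rw [addr_off hr ω₀ hfy, addr_off hr ω hy] at h2
      obtain ⟨h3, _⟩ := List.append_inj' h2 rfl
      apply addr_injective hr ω₀
      rw [hf, h3]
  · intro y
    exact hf y

/-- The addresses determine the ordering. -/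
private lemma ordr_ext (ω ω' : Ordr S par) (h : ∀ y, addr hr ω y = addr hr ω' y) : ω = ω' := by
  funext x
  ext u
  obtain ⟨h1, _⟩ := mem_kids.1 u.2
  have h2 := h u.1
  rw [addr_off hr ω h1, addr_off hr ω' h1] at h2
  obtain ⟨_, h3⟩ := List.append_inj' h2 rfl
  have h4 : wNum ω u.1 = wNum ω' u.1 := by simpa using h3
  rw [wNum_of_mem ω x u, wNum_of_mem ω' x u] at h4
  exact h4

private lemma card_ordr : Fintype.card (Ordr S par) = ∏ y : γ, ((kids S par y).card).factorial := by
  rw [Fintype.card_pi]
  refine Finset.prod_congr rfl ?_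
  intro y _
  have e : ↥(kids S par y) ≃ Fin (kids S par y).card := (kids S par y).equivFin
  rw [Fintype.card_equiv e, Fintype.card_coe]

/-- `∏ (number of children)! ≤ |Aut| 4^|γ|`.  `S` = roots (`par y = y` there), `r` decreases along `par` off `S`.
Proof (blueprint part FO): orderings `ω ∈ Π y, kids y ≃ Fin (kids y).card` number `∏ c_y!`; addresses
`addr ω y = [ρ y]` on `S` (`ρ` a fixed numbering of `S`), `addr ω y = addr ω (par y) ++ [ω (par y) y]` off `S`;
`addr` is injective, its image is `TreeClosed` of size `|γ|`; if two orderings have the same image, `addr ω' ⁻¹ ∘ addr ω` is in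
the group and carries one ordering to the other.  So `ω ↦ (σ_ω, image)` is injective;  `card_shapes_le`. -/
theorem forest_aut (S : Finset γ) (par : γ → γ) (r : γ → ℕ) (hS : ∀ y ∈ S, par y = y)
    (hr : ∀ y, y ∉ S → r (par y) < r y) :
    ∏ y : γ, ((kids S par y).card).factorial ≤
      Nat.card (forestGroup S par) * 4 ^ Fintype.card γ := by
  classical
  rw [← card_ordr (S := S) (par := par), ← Finset.card_univ]
  set G := forestGroup S par with hG
  set Φ : Ordr S par → Finset (List ℕ) := shape hr with hΦ
  have hfib : ∀ A ∈ (univ : Finset (Ordr S par)).image Φ,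
      ((univ : Finset (Ordr S par)).filter fun ω => Φ ω = A).card ≤ Nat.card G := by
    intro A hA
    obtain ⟨ω₀, _, rfl⟩ := Finset.mem_image.1 hA
    have hex : ∀ ω : Ordr S par, Φ ω = Φ ω₀ →
        ∃ σ : Equiv.Perm γ, σ ∈ G ∧ ∀ y, addr hr ω₀ (σ y) = addr hr ω y :=
      fun ω hω => exists_perm hr hS ω₀ ω hω
    choose! g hg1 hg2 using hex
    have hcard : Nat.card G = ((univ : Finset (Equiv.Perm γ)).filter fun σ => σ ∈ G).card :=
      Nat.subtype_card _ (by simp)
    rw [hcard]
    refine Finset.card_le_card_of_injOn g ?_ ?_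
    · intro ω hω
      have h1 : Φ ω = Φ ω₀ := (Finset.mem_filter.1 hω).2
      exact Finset.mem_filter.2 ⟨mem_univ _, hg1 ω h1⟩
    · intro ω hω ω' hω' hgg
      have h1 : Φ ω = Φ ω₀ := (Finset.mem_filter.1 hω).2
      have h2 : Φ ω' = Φ ω₀ := (Finset.mem_filter.1 hω').2
      refine ordr_ext hr ω ω' ?_
      intro y
      rw [← hg2 ω h1 y, ← hg2 ω' h2 y, hgg]
  have h1 := Finset.card_le_mul_card_image (f := Φ) (univ : Finset (Ordr S par)) (Nat.card G) hfib
  have h2 : ((univ : Finset (Ordr S par)).image Φ).card ≤ 4 ^ Fintype.card γ := by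
    refine card_shapes_le _ _ ?_
    intro A hA
    obtain ⟨ω, _, rfl⟩ := Finset.mem_image.1 hA
    exact ⟨shape_closed hr ω, shape_card hr ω⟩
  exact h1.trans (Nat.mul_le_mul_left _ h2)

end Vale.Agent.Lib.P064Q
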