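import Vale.Agent.Lib.P064Q.GroupCopies
import Vale.Agent.Lib.P064Q.Deco

/-!
The bound on the number of disjoint decorated copies (notes/P064Q_blueprint.md, part HB).
-/

open Finset

namespace Vale.Agent.Lib.P064Q

open Vale.Agent.Lib.P064 Vale.Agent.Lib.P064E Vale.Agent.Lib.P064U
open scoped Classical

variable {V β : Type} [Fintype β] {H : SimpleGraph V} {n : ℕ} {q : ℝ}

/-- `copies_group_bound` with `W = decoQ G j`, `Γ = forestGroup`, `forest_preserves`, `aut_lower`, `card_plus`, `decoQ_edges`. -/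
theorem h_bound (hG : GoodDensity n q H) (hq0 : 0 < q) (hq1 : q ≤ 1) {G : SimpleGraph β} {z : β}
    {par : β → β} {r : β → ℕ} (hT : RootedT G z par r) (hedge : 1 ≤ (eIn G univ).card) (j : β → ℕ)
    {h : ℕ} (hh : 1 ≤ h) (ψ : Fin h → Plus β j → V) (hinj : ∀ i, Function.Injective (ψ i))
    (hhom : ∀ i a b, (decoQ G j).Adj a b → H.Adj (ψ i a) (ψ i b))
    (hdis : ∀ i i', i ≠ i' → ∀ a b, ψ i a ≠ ψ i' b) :
    (h : ℝ) * ∏ y : β, ((cf G z par y + j y).factorial : ℝ) ≤
      Real.exp 1 * (4 : ℝ) ^ (Fintype.card β + ∑ x, j x) *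
        (((n : ℝ) ^ Fintype.card β * q ^ (eIn G univ).card) * ((n : ℝ) * q) ^ (∑ x, j x)) := by
  have hW : (decoQ G j).edgeSet.Nonempty := by
    apply Set.nonempty_of_ncard_ne_zero
    rw [decoQ_edges]
    omega
  have hb := copies_group_bound hG hq0 hq1 (decoQ G j) hW
    (forestGroup (SQ G z par j) (parQ G z par j)) (forest_preserves hT j) hh ψ hinj hhom hdis
  rw [card_plus, decoQ_edges] at hb
  have ha := aut_lower hT j
  rw [card_plus] at ha
  have ha' : (∏ y : β, ((cf G z par y + j y).factorial : ℝ)) ≤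
      (Nat.card (forestGroup (SQ G z par j) (parQ G z par j)) : ℝ) *
        (4 : ℝ) ^ (Fintype.card β + ∑ x, j x) := by
    exact_mod_cast ha
  have hh0 : (0 : ℝ) ≤ h := by positivity
  have h4 : (0 : ℝ) ≤ (4 : ℝ) ^ (Fintype.card β + ∑ x, j x) := by positivity
  calc (h : ℝ) * ∏ y : β, ((cf G z par y + j y).factorial : ℝ)
      ≤ (h : ℝ) * ((Nat.card (forestGroup (SQ G z par j) (parQ G z par j)) : ℝ) *
          (4 : ℝ) ^ (Fintype.card β + ∑ x, j x)) := mul_le_mul_of_nonneg_left ha' hh0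
    _ = ((h : ℝ) * (Nat.card (forestGroup (SQ G z par j) (parQ G z par j)) : ℝ)) *
          (4 : ℝ) ^ (Fintype.card β + ∑ x, j x) := by ring
    _ ≤ (Real.exp 1 * ((n : ℝ) ^ (Fintype.card β + ∑ x, j x) *
          q ^ ((eIn G univ).card + ∑ x, j x))) * (4 : ℝ) ^ (Fintype.card β + ∑ x, j x) :=
        mul_le_mul_of_nonneg_right hb h4
    _ = Real.exp 1 * (4 : ℝ) ^ (Fintype.card β + ∑ x, j x) *
        (((n : ℝ) ^ Fintype.card β * q ^ (eIn G univ).card) * ((n : ℝ) * q) ^ (∑ x, j x)) := by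
        rw [pow_add, pow_add, mul_pow]
        ring

end Vale.Agent.Lib.P064Q
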