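import Mathlib

/-!
Address sets of plane forests and their number (notes/P064Q_blueprint.md, part SH).
-/

open Finset

namespace Vale.Agent.Lib.P064Q

/-- A set of addresses of a plane forest: root index first, then child indices.  Nonempty lists; the parent of
an address is in the set; the previous sibling of an address is in the set. -/
def TreeClosed (A : Finset (List ℕ)) : Prop :=
  (∀ l ∈ A, l ≠ []) ∧ (∀ l k, l ≠ [] → l ++ [k] ∈ A → l ∈ A) ∧
    (∀ l k, l ++ [k + 1] ∈ A → l ++ [k] ∈ A)

private def shiftHead : List ℕ → List ℕ
  | [] => []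
  | k :: t => (k + 1) :: t

private lemma shiftHead_inj : Function.Injective shiftHead := by
  intro a b h
  cases a with
  | nil =>
    cases b with
    | nil => rfl
    | cons k t => simp [shiftHead] at h
  | cons k t =>
    cases b with
    | nil => simp [shiftHead] at h
    | cons k' t' =>
      simp only [shiftHead, List.cons.injEq, Nat.add_right_cancel_iff] at h
      rw [h.1, h.2]

private lemma cons_zero_inj : Function.Injective (List.cons (0 : ℕ)) := by
  intro a b h
  simpa using h

private noncomputable def partL (A : Finset (List ℕ)) : Finset (List ℕ) :=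
  (A.preimage (List.cons 0) cons_zero_inj.injOn).erase []

private noncomputable def partR (A : Finset (List ℕ)) : Finset (List ℕ) :=
  A.preimage shiftHead shiftHead_inj.injOn

private lemma mem_partL {A : Finset (List ℕ)} {t : List ℕ} : t ∈ partL A ↔ t ≠ [] ∧ 0 :: t ∈ A := by
  simp [partL, Finset.mem_erase, Finset.mem_preimage]

private lemma mem_partR {A : Finset (List ℕ)} {t : List ℕ} : t ∈ partR A ↔ shiftHead t ∈ A := by
  simp [partR, Finset.mem_preimage]

private lemma treeClosed_partL {A : Finset (List ℕ)} (h : TreeClosed A) : TreeClosed (partL A) := by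
  obtain ⟨h1, h2, h3⟩ := h
  refine ⟨fun l hl => (mem_partL.1 hl).1, ?_, ?_⟩
  · intro l k hl hlk
    have h0 := (mem_partL.1 hlk).2
    have h4 : (0 :: l) ++ [k] ∈ A := by simpa using h0
    exact mem_partL.2 ⟨hl, h2 (0 :: l) k (by simp) h4⟩
  · intro l k hlk
    have h0 := (mem_partL.1 hlk).2
    have h4 : (0 :: l) ++ [k + 1] ∈ A := by simpa using h0
    have h5 := h3 (0 :: l) k h4
    exact mem_partL.2 ⟨by simp, by simpa using h5⟩

private lemma treeClosed_partR {A : Finset (List ℕ)} (h : TreeClosed A) : TreeClosed (partR A) := by
  obtain ⟨h1, h2, h3⟩ := h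
  refine ⟨?_, ?_, ?_⟩
  · intro l hl hl0
    subst hl0
    exact h1 _ (mem_partR.1 hl) rfl
  · intro l k hl hlk
    cases l with
    | nil => exact absurd rfl hl
    | cons a t =>
      have h4 : ((a + 1) :: t) ++ [k] ∈ A := by simpa [shiftHead] using mem_partR.1 hlk
      exact mem_partR.2 (by simpa [shiftHead] using h2 ((a + 1) :: t) k (by simp) h4)
  · intro l k hlk
    cases l with
    | nil =>
      have h4 : [] ++ [k + 1 + 1] ∈ A := by simpa [shiftHead] using mem_partR.1 hlk
      have h5 := h3 [] (k + 1) h4
      exact mem_partR.2 (by simpa [shiftHead] using h5)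
    | cons a t =>
      have h4 : ((a + 1) :: t) ++ [k + 1] ∈ A := by simpa [shiftHead] using mem_partR.1 hlk
      have h5 := h3 ((a + 1) :: t) k h4
      exact mem_partR.2 (by simpa [shiftHead] using h5)

private lemma root_mem {A : Finset (List ℕ)} (h : TreeClosed A) (hne : A.Nonempty) : [0] ∈ A := by
  obtain ⟨h1, h2, h3⟩ := h
  have hstep : ∀ (t : List ℕ) (k : ℕ), k :: t ∈ A → [k] ∈ A := by
    intro t
    induction t using List.reverseRecOn with
    | nil => exact fun _ h => h
    | append_singleton t j ih =>
      intro k hk
      apply ih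
      apply h2 (k :: t) j (by simp)
      simpa using hk
  have hdown : ∀ k : ℕ, [k] ∈ A → [0] ∈ A := by
    intro k
    induction k with
    | zero => exact id
    | succ k ih =>
      intro hk
      apply ih
      exact h3 [] k (by simpa using hk)
  obtain ⟨l, hl⟩ := hne
  cases l with
  | nil => exact absurd rfl (h1 _ hl)
  | cons k t => exact hdown k (hstep t k hl)

private noncomputable def rebuild (L R : Finset (List ℕ)) : Finset (List ℕ) :=
  insert [0] (L.image (List.cons 0) ∪ R.image shiftHead)

private lemma rebuild_eq {A : Finset (List ℕ)} (h : TreeClosed A) (hne : A.Nonempty) :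
    A = rebuild (partL A) (partR A) := by
  have h0 := root_mem h hne
  ext l
  simp only [rebuild, Finset.mem_insert, Finset.mem_union, Finset.mem_image]
  constructor
  · intro hl
    cases l with
    | nil => exact absurd rfl (h.1 _ hl)
    | cons k t =>
      cases k with
      | zero =>
        by_cases ht : t = []
        · left
          rw [ht]
        · right
          left
          exact ⟨t, mem_partL.2 ⟨ht, hl⟩, rfl⟩
      | succ k =>
        right
        right
        exact ⟨k :: t, mem_partR.2 (by simpa [shiftHead] using hl), rfl⟩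
  · rintro (rfl | ⟨t, ht, rfl⟩ | ⟨t, ht, rfl⟩)
    · exact h0
    · exact (mem_partL.1 ht).2
    · exact mem_partR.1 ht

private lemma card_rebuild {L R : Finset (List ℕ)} (hL : [] ∉ L) :
    (rebuild L R).card = L.card + R.card + 1 := by
  have hd : Disjoint (L.image (List.cons 0)) (R.image shiftHead) := by
    rw [Finset.disjoint_left]
    intro x hx hx'
    obtain ⟨t, _, rfl⟩ := Finset.mem_image.1 hx
    obtain ⟨t', _, ht'⟩ := Finset.mem_image.1 hx'
    cases t' with
    | nil => simp [shiftHead] at ht'
    | cons a s => simp [shiftHead] at ht'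
  have hn : [0] ∉ L.image (List.cons 0) ∪ R.image shiftHead := by
    intro hx
    rcases Finset.mem_union.1 hx with hx | hx
    · obtain ⟨t, ht, h1⟩ := Finset.mem_image.1 hx
      have : t = [] := by simpa using h1
      exact hL (this ▸ ht)
    · obtain ⟨t', _, ht'⟩ := Finset.mem_image.1 hx
      cases t' with
      | nil => simp [shiftHead] at ht'
      | cons a s => simp [shiftHead] at ht'
  unfold rebuild
  rw [Finset.card_insert_of_notMem hn, Finset.card_union_of_disjoint hd,
    Finset.card_image_of_injective _ cons_zero_inj, Finset.card_image_of_injective _ shiftHead_inj]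

private lemma card_shapes_catalan : ∀ (m : ℕ) (𝒜 : Finset (Finset (List ℕ))),
    (∀ A ∈ 𝒜, TreeClosed A ∧ A.card = m) → 𝒜.card ≤ catalan m := by
  intro m
  induction m using Nat.strong_induction_on with
  | _ m ih =>
    intro 𝒜 h
    cases m with
    | zero =>
      have hsub : 𝒜 ⊆ {∅} := by
        intro A hA
        have := (h A hA).2
        simp [Finset.card_eq_zero.1 this]
      have := Finset.card_le_card hsub
      simpa using this
    | succ m =>
      have hnoL : ∀ A : Finset (List ℕ), [] ∉ partL A := fun A h0 => (mem_partL.1 h0).1 rfl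
      have hcardA : ∀ A ∈ 𝒜, (partL A).card + (partR A).card = m := by
        intro A hA
        obtain ⟨h1, h2⟩ := h A hA
        have hne : A.Nonempty := by
          rw [← Finset.card_pos]
          omega
        have h3 := card_rebuild (R := partR A) (hnoL A)
        rw [← rebuild_eq h1 hne] at h3
        omega
      have hf : ∀ A ∈ 𝒜, ((partL A).card, (partR A).card) ∈ Finset.HasAntidiagonal.antidiagonal m := by
        intro A hA
        simpa using hcardA A hA
      rw [catalan_succ', Finset.card_eq_sum_card_fiberwise hf]
      refine Finset.sum_le_sum ?_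
      rintro ⟨i, j⟩ hij
      have hij' : i + j = m := by simpa using hij
      set 𝒜' := 𝒜.filter (fun A => ((partL A).card, (partR A).card) = (i, j)) with h𝒜'
      have hmem : ∀ A ∈ 𝒜', A ∈ 𝒜 ∧ (partL A).card = i ∧ (partR A).card = j := by
        intro A hA
        have h1 := Finset.mem_filter.1 hA
        have h2 : (partL A).card = i ∧ (partR A).card = j := by simpa using h1.2
        exact ⟨h1.1, h2⟩
      have h1 : (𝒜'.image partL).card ≤ catalan i := by
        refine ih i (by omega) _ ?_
        intro L hL
        obtain ⟨A, hA, rfl⟩ := Finset.mem_image.1 hL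
        obtain ⟨h3, h4, _⟩ := hmem A hA
        exact ⟨treeClosed_partL (h A h3).1, h4⟩
      have h2 : (𝒜'.image partR).card ≤ catalan j := by
        refine ih j (by omega) _ ?_
        intro L hL
        obtain ⟨A, hA, rfl⟩ := Finset.mem_image.1 hL
        obtain ⟨h3, _, h4⟩ := hmem A hA
        exact ⟨treeClosed_partR (h A h3).1, h4⟩
      have hinj : 𝒜'.card ≤ ((𝒜'.image partL) ×ˢ (𝒜'.image partR)).card := by
        refine Finset.card_le_card_of_injOn (fun A => (partL A, partR A)) ?_ ?_
        · intro A hA
          have hA' := Finset.mem_coe.1 hA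
          exact Finset.mem_coe.2 (Finset.mem_product.2
            ⟨Finset.mem_image_of_mem _ hA', Finset.mem_image_of_mem _ hA'⟩)
        · intro A hA B hB hAB
          have hA' := Finset.mem_coe.1 hA
          have hB' := Finset.mem_coe.1 hB
          have h3 := (hmem A hA').1
          have h4 := (hmem B hB').1
          have h5 : partL A = partL B ∧ partR A = partR B := by simpa using hAB
          have hneA : A.Nonempty := by
            rw [← Finset.card_pos, (h A h3).2]
            omega
          have hneB : B.Nonempty := by
            rw [← Finset.card_pos, (h B h4).2]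
            omega
          rw [rebuild_eq (h A h3).1 hneA, rebuild_eq (h B h4).1 hneB, h5.1, h5.2]
      rw [Finset.card_product] at hinj
      exact hinj.trans (Nat.mul_le_mul h1 h2)

private lemma catalan_le_four_pow (m : ℕ) : catalan m ≤ 4 ^ m := by
  rw [catalan_eq_centralBinom_div]
  refine (Nat.div_le_self _ _).trans ?_
  rw [Nat.centralBinom_eq_two_mul_choose]
  refine (Nat.choose_le_two_pow _ _).trans ?_
  rw [pow_mul]
  norm_num

/-- The number of address sets of size `m` is at most the Catalan number, so at most `4 ^ m`.  Proof: strong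
induction on `m` with `≤ catalan m`.  For `A` nonempty, `[0] ∈ A`; `A_L = {t ≠ [] : 0 :: t ∈ A}`,
`A_R = {k :: t : (k + 1) :: t ∈ A}` are `TreeClosed`, `|A_L| + |A_R| = m - 1`, and `A` is determined by `(A_L, A_R)`;
`catalan_succ'`; `catalan m ≤ 4 ^ m` via `catalan_eq_centralBinom_div`. -/
theorem card_shapes_le (m : ℕ) (𝒜 : Finset (Finset (List ℕ)))
    (h : ∀ A ∈ 𝒜, TreeClosed A ∧ A.card = m) : 𝒜.card ≤ 4 ^ m :=
  (card_shapes_catalan m 𝒜 h).trans (catalan_le_four_pow m)

end Vale.Agent.Lib.P064Q
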