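import Vale.Agent.Lib.P064Q.HBound
import Vale.Agent.Lib.P064Q.Anchor
import Vale.Agent.Lib.P064Q.Classes
import Vale.Agent.Lib.P064U.WWalk

/-!
The bound for the embeddings of one type (notes/P064Q_blueprint.md, part TB).
-/

open Finset

namespace Vale.Agent.Lib.P064Q

open Vale.Agent.Lib.P064 Vale.Agent.Lib.P064E Vale.Agent.Lib.P064U
open scoped Classical

variable {V β : Type} [Fintype V] [Fintype β] {H : SimpleGraph V} {n : ℕ} {q l lam : ℝ}

/-- The embeddings of a given type. -/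
noncomputable def typedQ (G : SimpleGraph β) (H : SimpleGraph V) (A₁ : ℝ) (I : ℕ) (τ : β → Cls I) : Finset (β → V) :=
  (emb G H).filter fun φ => ∀ y, classOf G H A₁ I φ y = τ y

/-- The bound for one root `z`, with the tree `par`. -/
noncomputable def BBQ (G : SimpleGraph β) (n : ℕ) (q Δ A₁ : ℝ) {I : ℕ} (τ : β → Cls I) (z : β) (par : β → β) : ℝ :=
  2 * Real.exp 1 * ((Fintype.card β + ∑ x, jQ (τ x) : ℕ) : ℝ) * (4 : ℝ) ^ (Fintype.card β + ∑ x, jQ (τ x)) *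
    (((n : ℝ) ^ Fintype.card β * q ^ (eIn G univ).card) * ((n : ℝ) * q) ^ (∑ x, jQ (τ x))) *
    (∏ y, (fQ A₁ Δ (nb G y).card (τ y)) ^ ct z par y) /
    ∏ y, (((cf G z par y + jQ (τ y)).factorial : ℕ) : ℝ)

/-- `∏_{y ≠ z} f (par y) = ∏_y f y ^ ct y`. -/
lemma prod_par_eq (z : β) (par : β → β) (f : β → ℝ) :
    ∏ y ∈ univ.erase z, f (par y) = ∏ y, f y ^ ct z par y := by
  have h := Finset.prod_fiberwise_of_maps_to (s := univ.erase z) (t := (univ : Finset β))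
    (g := par) (fun _ _ => mem_univ _) (fun u => f (par u))
  rw [← h]
  refine Finset.prod_congr rfl ?_
  intro y _
  have hset : ((univ.erase z).filter fun u => par u = y) =
      (univ.filter fun u => u ≠ z ∧ par u = y) := by
    ext u
    simp
  rw [hset]
  have hc : ∀ u ∈ (univ.filter fun u => u ≠ z ∧ par u = y), f (par u) = f y := by
    intro u hu
    rw [(mem_filter.1 hu).2.2]
  rw [Finset.prod_congr rfl hc, Finset.prod_const]
  rfl

/-- The degree bound of a class is nonnegative. -/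
lemma fQ_nonneg {I : ℕ} {A₁ Δ : ℝ} (hA : 0 ≤ A₁) (hΔ : 0 ≤ Δ) (δ : ℕ) (c : Cls I) :
    0 ≤ fQ A₁ Δ δ c := by
  rcases c with k | i
  · simp only [fQ, Sum.elim_inl]
    split_ifs
    · exact hA
    · positivity
    · positivity
  · simp only [fQ, Sum.elim_inr]
    positivity

/-- One type.  If the type is empty nothing to do.  Else `anchorQ` with `Dh` = hubs of `τ`, `i` = their levels (`classOf_spec`), giving `h, ψ, A`; `h ≥ 1` since `A` is not empty
by the last clause.  `typedQ ⊂ ⋃_z ⋃_{a ∈ A} {φ z = a}`; `walk_count` with `f y = fQ .. (τ y)` (nonneg; bound by spec (1)) and `prod_par_eq`: `|{φ z = a}| ≤ ∏ f^ct`.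
`(A.card) ≤ 2 h (v + Σ j)` and `h_bound` for the tree at `z`. -/
theorem type_bound (hG : GoodDensity n q H) {Δ A₁ : ℝ} {s₁ I : ℕ} (hV : Fintype.card V ≤ n)
    (hp : QPar n q l lam Δ A₁ s₁ I) (G : SimpleGraph β) [Nonempty β] (hedge : 1 ≤ (eIn G univ).card)
    (par : β → β → β) (r : β → β → ℕ) (hT : ∀ z, RootedT G z (par z) (r z)) (τ : β → Cls I) :
    ((typedQ G H A₁ I τ).card : ℝ) ≤ ∑ z, BBQ G n q Δ A₁ τ z (par z) := by
  have hs := hp.std
  have hq0 := hs.q0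
  have hq1 := hs.q1
  have hn1 : (1 : ℝ) ≤ (n : ℝ) := by exact_mod_cast hs.n1
  have hl1 := hs.l1
  have hlam1 := hs.lam1
  have hD1 := hp.D1
  have hA₁0 : 0 < A₁ := by
    rw [hp.A₁eq]
    positivity
  have hΔ0 : 0 ≤ Δ := by
    have h1 := hp.Δdeg
    have h2 : 0 ≤ Real.exp 2 * ((n : ℝ) * q + l) := by
      have : 0 ≤ (n : ℝ) * q + l := by linarith
      positivity
    linarith
  have hf0 : ∀ y, 0 ≤ fQ A₁ Δ (nb G y).card (τ y) := fun y =>
    fQ_nonneg hA₁0.le hΔ0 _ _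
  set E := typedQ G H A₁ I τ with hEdef
  have hE : ∀ φ ∈ E, φ ∈ emb G H := fun φ hφ => (mem_filter.1 hφ).1
  have hEτ : ∀ φ ∈ E, ∀ y, classOf G H A₁ I φ y = τ y := fun φ hφ => (mem_filter.1 hφ).2
  -- nonnegativity of the right side
  have hB0 : ∀ z, 0 ≤ BBQ G n q Δ A₁ τ z (par z) := by
    intro z
    unfold BBQ
    refine div_nonneg ?_ (Finset.prod_nonneg fun _ _ => Nat.cast_nonneg _)
    refine mul_nonneg (by positivity) (Finset.prod_nonneg fun y _ => pow_nonneg (hf0 y) _)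
  rcases E.eq_empty_or_nonempty with hEe | ⟨φ₀, hφ₀⟩
  · rw [hEe]
    simp only [Finset.card_empty, Nat.cast_zero]
    exact Finset.sum_nonneg fun z _ => hB0 z
  -- the hubs of the type
  obtain ⟨Dh, hDh⟩ : ∃ Dh : Finset β, Dh = univ.filter fun y => ∃ i : Fin I, τ y = Sum.inr i := ⟨_, rfl⟩
  obtain ⟨i, hi⟩ : ∃ i : β → ℕ, i = fun y => Sum.elim (fun _ => 0) (fun i : Fin I => (i : ℕ)) (τ y) := ⟨_, rfl⟩
  obtain ⟨j, hj⟩ : ∃ j : β → ℕ, j = fun y => jQ (τ y) := ⟨_, rfl⟩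
  have hmemDh : ∀ x, x ∈ Dh ↔ ∃ i : Fin I, τ x = Sum.inr i := by
    intro x
    rw [hDh]
    simp
  have hival : ∀ x (c : Fin I), τ x = Sum.inr c → i x = (c : ℕ) := by
    intro x c hc
    rw [hi]
    simp [hc]
  have hjval : ∀ x, j x = if x ∈ Dh then 2 ^ (i x - 3) else 0 := by
    intro x
    rw [hj]
    by_cases hx : x ∈ Dh
    · obtain ⟨c, hc⟩ := (hmemDh x).1 hx
      rw [if_pos hx, hival x c hc]
      simp [hc, jQ]
    · rw [if_neg hx]
      rcases hτ : τ x with k | c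
      · simp [jQ, hτ]
      · exact absurd ((hmemDh x).2 ⟨c, hτ⟩) hx
  have hspec : ∀ φ ∈ E, ∀ x ∈ Dh, s₁ ≤ i x ∧ 2 ^ (i x) ≤ (nb H (φ x)).card ∧
      ((nb H (φ x)) ∩ univ.image φ).card < 2 ^ (i x - 1) := by
    intro φ hφ x hx
    obtain ⟨c, hc⟩ := (hmemDh x).1 hx
    have h3 := (classOf_spec hG hV hp G (hE φ hφ) x).2.2.1 c ((hEτ φ hφ x).trans hc)
    rw [hival x c hc]
    exact ⟨h3.1, h3.2.1, h3.2.2.1⟩
  have hA8 : 8 * l ≤ A₁ * lam := by
    have h1 := hp.Alow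
    have h2 := hp.rho
    have h3 : (4096 : ℝ) ≤ A₁ := by nlinarith
    nlinarith
  have hiA : ∀ x ∈ Dh, A₁ ≤ 2 ^ (i x) := by
    intro x hx
    rw [hp.A₁eq]
    exact pow_le_pow_right₀ (by norm_num) (hspec φ₀ hφ₀ x hx).1
  have hi5 : ∀ x ∈ Dh, 5 ≤ i x := by
    intro x hx
    have h1 := (hspec φ₀ hφ₀ x hx).1
    have h2 := hp.s12
    omega
  obtain ⟨h, ψ, A, hinj, hhom, hdis, hAcard, hhit⟩ := anchorQ hG hs hA₁0 hA8 hp.rho G E hE Dh i j hjval
    hi5 hiA (fun φ hφ x hx => (hspec φ hφ x hx).2.1) (fun φ hφ x hx => (hspec φ hφ x hx).2.2)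
  have hh : 1 ≤ h := by
    by_contra hcon
    have h0 : h = 0 := by omega
    obtain ⟨z, hz⟩ := hhit φ₀ hφ₀
    have h1 : (1 : ℝ) ≤ (A.card : ℝ) := by
      exact_mod_cast Finset.card_pos.2 ⟨_, hz⟩
    rw [h0] at hAcard
    simp only [Nat.cast_zero, mul_zero, zero_mul] at hAcard
    linarith
  have hhR : (0 : ℝ) < (h : ℝ) := by exact_mod_cast hh
  -- covering by roots and anchors
  have hsub : E ⊆ univ.biUnion fun z => A.biUnion fun a => E.filter fun φ => φ z = a := by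
    intro φ hφ
    obtain ⟨z, hz⟩ := hhit φ hφ
    refine mem_biUnion.2 ⟨z, mem_univ _, mem_biUnion.2 ⟨φ z, hz, ?_⟩⟩
    exact mem_filter.2 ⟨hφ, rfl⟩
  have hwalk : ∀ z a, ((E.filter fun φ => φ z = a).card : ℝ) ≤
      ∏ y, (fQ A₁ Δ (nb G y).card (τ y)) ^ ct z (par z) y := by
    intro z a
    have h1 := walk_count G E hE z a (par z) (r z) (hT z).parz (hT z).hpar
      (fun y => fQ A₁ Δ (nb G y).card (τ y)) hf0 (by
        intro φ hφ x
        have h2 := (classOf_spec hG hV hp G (hE φ hφ) x).1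
        rwa [hEτ φ hφ x] at h2)
    exact h1.trans (le_of_eq (prod_par_eq z (par z) (fun y => fQ A₁ Δ (nb G y).card (τ y))))
  have hcount : (E.card : ℝ) ≤ ∑ z, (A.card : ℝ) *
      ∏ y, (fQ A₁ Δ (nb G y).card (τ y)) ^ ct z (par z) y := by
    have h1 : E.card ≤ ∑ z, ∑ a ∈ A, (E.filter fun φ => φ z = a).card := by
      refine (Finset.card_le_card hsub).trans ?_
      refine Finset.card_biUnion_le.trans ?_
      exact Finset.sum_le_sum fun z _ => Finset.card_biUnion_le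
    have h2 : (E.card : ℝ) ≤ ∑ z, ∑ a ∈ A, ((E.filter fun φ => φ z = a).card : ℝ) := by
      exact_mod_cast h1
    refine h2.trans (Finset.sum_le_sum fun z _ => ?_)
    calc ∑ a ∈ A, ((E.filter fun φ => φ z = a).card : ℝ)
        ≤ ∑ _a ∈ A, ∏ y, (fQ A₁ Δ (nb G y).card (τ y)) ^ ct z (par z) y :=
          Finset.sum_le_sum fun a _ => hwalk z a
      _ = _ := by
          rw [Finset.sum_const, nsmul_eq_mul]
  refine hcount.trans (Finset.sum_le_sum fun z _ => ?_)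
  -- the bound for one root
  have hbound := h_bound hG hq0 hq1 (hT z) hedge j hh ψ hinj hhom hdis
  subst hj
  set P : ℝ := ∏ y, (fQ A₁ Δ (nb G y).card (τ y)) ^ ct z (par z) y with hP
  have hP0 : 0 ≤ P := Finset.prod_nonneg fun y _ => pow_nonneg (hf0 y) _
  set F : ℝ := ∏ y : β, (((cf G z (par z) y + jQ (τ y)).factorial : ℕ) : ℝ) with hF
  have hF0 : 0 < F := Finset.prod_pos fun y _ => by
    exact_mod_cast Nat.factorial_pos _
  set v : ℕ := Fintype.card β + ∑ x, jQ (τ x) with hv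
  set R : ℝ := Real.exp 1 * (4 : ℝ) ^ v *
    (((n : ℝ) ^ Fintype.card β * q ^ (eIn G univ).card) * ((n : ℝ) * q) ^ (∑ x, jQ (τ x))) with hR
  have hbound' : (h : ℝ) * F ≤ R := hbound
  have hBBQ : BBQ G n q Δ A₁ τ z (par z) = 2 * (v : ℝ) * R * P / F := by
    unfold BBQ
    rw [hR]
    ring
  rw [hBBQ, le_div_iff₀ hF0]
  have hv0 : (0 : ℝ) ≤ (v : ℝ) := Nat.cast_nonneg _
  have hA' : (A.card : ℝ) ≤ 2 * (h : ℝ) * (v : ℝ) := by
    have hvc : ((Fintype.card β + ∑ x, (fun y => jQ (τ y)) x : ℕ) : ℝ) = (v : ℝ) := rfl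
    exact hAcard.trans (le_of_eq (by rw [hvc]))
  calc (A.card : ℝ) * P * F ≤ (2 * (h : ℝ) * (v : ℝ)) * P * F := by
        refine mul_le_mul_of_nonneg_right ?_ hF0.le
        exact mul_le_mul_of_nonneg_right hA' hP0
    _ = 2 * (v : ℝ) * ((h : ℝ) * F) * P := by ring
    _ ≤ 2 * (v : ℝ) * R * P := by
        refine mul_le_mul_of_nonneg_right ?_ hP0
        exact mul_le_mul_of_nonneg_left hbound' (by positivity)

end Vale.Agent.Lib.P064Q
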